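import Vale.Agent.P064.Complete

open Finset

namespace Vale.Agent.P064

section Bound

variable {ι X : Type} [Fintype ι] [DecidableEq ι] [DecidableEq X]

/-- failure indicator -/
noncomputable def nc {n : ℕ} (t : Tr ι X n) (W : Finset X) : ℝ :=
  open scoped Classical in if completes t W then 0 else 1

noncomputable def FF (U : Finset X) (b : ℝ) {n : ℕ} (t : Tr ι X n) : ℝ := Ex U b (nc t)

lemma nc_nonneg {n : ℕ} (t : Tr ι X n) (W : Finset X) : 0 ≤ nc t W := by
  unfold nc; split_ifs <;> norm_num

lemma nc_le_one {n : ℕ} (t : Tr ι X n) (W : Finset X) : nc t W ≤ 1 := by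
  unfold nc; split_ifs <;> norm_num

lemma nc_le_nc {n m : ℕ} {t : Tr ι X n} {t' : Tr ι X m} {W W' : Finset X}
    (h : completes t' W' → completes t W) : nc t W ≤ nc t' W' := by
  unfold nc
  by_cases h1 : completes t' W'
  · rw [if_pos h1, if_pos (h h1)]
  · rw [if_neg h1]; split_ifs <;> norm_num

lemma FF_le_one {U : Finset X} {b : ℝ} (h0 : 0 ≤ b) (h1 : b ≤ 1) {n : ℕ} (t : Tr ι X n) :
    FF U b t ≤ 1 := by
  have := Ex_mono (U := U) h0 h1 (f := nc t) (g := fun _ => (1:ℝ)) (fun W _ => nc_le_one t W)
  rwa [Ex_const] at this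

lemma FF_nonneg {U : Finset X} {b : ℝ} (h0 : 0 ≤ b) (h1 : b ≤ 1) {n : ℕ} (t : Tr ι X n) :
    0 ≤ FF U b t := Ex_nonneg h0 h1 (fun W _ => nc_nonneg t W)

lemma FF_anti {U : Finset X} {b b' : ℝ} (h0 : 0 ≤ b) (hb : b ≤ b') (h1 : b' ≤ 1) {n : ℕ}
    (t : Tr ι X n) : FF U b' t ≤ FF U b t :=
  Ex_anti h0 hb h1 (fun W W' => nc_le_nc (fun h => completes_mono subset_union_left h))

lemma FF_upd {U : Finset X} {q p b : ℝ} (hp : 0 < p) (hp1 : p ≤ 1) (h0 : 0 ≤ b) (h1 : b ≤ 1)
    {n : ℕ} {t : Tr ι X n} {R : Finset X} (ht : Valid U q t R) :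
    FF U (p + b - p * b) t ≤ Ex U p (fun W => FF U b (upd p W t 0)) := by
  unfold FF
  rw [← Ex_union]
  refine Ex_mono hp.le hp1 (fun W _ => Ex_mono h0 h1 (fun W₂ _ => ?_))
  exact nc_le_nc (fun h => completes_upd hp W W₂ 0 ht h)

/-- The main bound. -/
theorem main_bound {U : Finset X} {q : ℝ} (hq : 0 < q) : ∀ (n : ℕ) (t : Tr ι X n)
    (R : Finset X), Valid U q t R → ∀ b : ℝ, 0 < b → b ≤ 1 →
    FF U b t * b ≤ (2 ^ 74 * n + 128 * pot t 0) * q := by
  intro n
  induction n with
  | zero =>
    intro t R _ b hb hb1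
    cases t
    have h1 : FF U b (Tr.leaf : Tr ι X 0) = 0 := by
      have : FF U b (Tr.leaf : Tr ι X 0) = Ex U b (fun _ => (0:ℝ)) := by
        refine Ex_congr (fun W _ => ?_)
        unfold nc
        rw [if_pos (show completes (Tr.leaf : Tr ι X 0) W from trivial)]
      rw [this, Ex_const]
    have h2 : pot (Tr.leaf : Tr ι X 0) 0 = 0 := rfl
    rw [h1, h2]; simp
  | succ n IH =>
    intro t R ht
    cases t with
    | node w S sub =>
    obtain ⟨h1, h2, h3, h4, h5, h6⟩ := ht
    have hvalid : Valid U q (Tr.node w S sub) R := ⟨h1, h2, h3, h4, h5, h6⟩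
    set t : Tr ι X (n + 1) := Tr.node w S sub with htdef
    set P0 : ℝ := ∑ v, w v * phi (KK 0) (S v).card with hP0
    set Sg : ℝ := ∑ v, w v * pot (sub v) 1 with hSg
    have hpotsub : ∀ v, 0 ≤ pot (sub v) 1 := fun v => pot_nonneg 1 (h6 v)
    have hP0n : 0 ≤ P0 := sum_nonneg (fun v _ => mul_nonneg (h1 v) (phi_nonneg _ _))
    have hSgn : 0 ≤ Sg := sum_nonneg (fun v _ => mul_nonneg (h1 v) (hpotsub v))
    have hpot : pot t 0 = P0 + gg 0 * Sg := by
      rw [hP0, hSg, mul_sum, ← sum_add_distrib]
      show ∑ v, w v * (phi (KK 0) (S v).card + gg 0 * pot (sub v) (0 + 1)) = _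
      exact sum_congr rfl (fun v _ => by ring)
    have hgg0 : (8:ℝ) ≤ gg 0 := by
      unfold gg
      have : (1:ℝ) ≤ 4096 ^ KK 0 := one_le_pow₀ (by norm_num)
      linarith
    have hee0 : ee 0 ≤ 1 := by
      unfold ee; exact pow_le_one₀ (by norm_num) (by norm_num)
    have hee0' : 0 ≤ ee 0 := (ee_pos 0).le
    have hKK0 : KK 0 = 8 := rfl
    set V : ℝ := 2 ^ 74 * ((n + 1 : ℕ) : ℝ) + 128 * pot t 0 with hV
    have hn0 : (0:ℝ) ≤ n := Nat.cast_nonneg n
    have hVeq : V = 2 ^ 74 * n + 2 ^ 74 + 128 * P0 + 128 * gg 0 * Sg := by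
      rw [hV, hpot]; push_cast; ring
    set h : ℝ := 16 + 2 * P0 with hh
    have hhpos : 0 < h := by linarith
    have hggS : 8 * Sg ≤ gg 0 * Sg := mul_le_mul_of_nonneg_right hgg0 hSgn
    have hVbig : 32 * h + 2 ^ 72 ≤ V := by
      rw [hVeq, hh]
      nlinarith
    have hV0 : 0 < V := by linarith
    -- Markov
    have ha : 1 / 2 ≤ ∑ v, (if ((S v).card : ℝ) ≤ h then w v else 0) := by
      have e1 : ∀ v, h * w v ≤ h * (if ((S v).card : ℝ) ≤ h then w v else 0) +
          w v * ((8:ℝ) + phi (KK 0) (S v).card) := by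
        intro v
        have hph := phi_nonneg (KK 0) (S v).card
        by_cases hc : ((S v).card : ℝ) ≤ h
        · rw [if_pos hc]
          have := mul_nonneg (h1 v) (by linarith : (0:ℝ) ≤ 8 + phi (KK 0) (S v).card)
          linarith
        · rw [if_neg hc, mul_zero, zero_add]
          have hlt := not_le.mp hc
          have e2 : ((S v).card : ℝ) ≤ 8 + phi (KK 0) (S v).card := by
            unfold phi
            rw [hKK0]
            split_ifs with h8
            · linarith
            · have : ((S v).card : ℝ) ≤ 8 := by exact_mod_cast not_lt.mp h8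
              linarith
          rw [mul_comm]
          exact mul_le_mul_of_nonneg_left (by linarith) (h1 v)
      have e3 := sum_le_sum (fun v (_ : v ∈ (univ : Finset ι)) => e1 v)
      rw [← mul_sum, h2, sum_add_distrib, ← mul_sum] at e3
      have e4 : ∑ v, w v * ((8:ℝ) + phi (KK 0) (S v).card) = 8 + P0 := by
        simp_rw [mul_add]
        rw [sum_add_distrib, ← sum_mul, h2, one_mul]
      rw [e4] at e3
      have e5 : h / 2 ≤ h * ∑ v, (if ((S v).card : ℝ) ≤ h then w v else 0) := by
        have : h / 2 = 8 + P0 := by rw [hh]; ring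
        linarith
      have e6 : h * (1 / 2) ≤ h * ∑ v, (if ((S v).card : ℝ) ≤ h then w v else 0) := by
        linarith
      exact le_of_mul_le_mul_left e6 hhpos
    set c₁ : ℝ := 32 * h * q with hc₁
    have hc₁0 : 0 < c₁ := by rw [hc₁]; positivity
    set c₂ : ℝ := 2 ^ 72 * q with hc₂
    have hc₂0 : 0 < c₂ := by rw [hc₂]; positivity
    have key : ∀ k : ℕ, ∀ b : ℝ, 0 < b → b ≤ 1 → b ≤ k * c₁ → FF U b t * b ≤ V * q := by
      intro k
      induction k with
      | zero =>
        intro b hb _ hbk
        simp at hbk; linarith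
      | succ k ih =>
        intro b hb hb1 hbk
        by_cases hVb : b ≤ V * q
        · have := FF_le_one (U := U) hb.le hb1 t
          nlinarith
        push Not at hVb
        have hD : c₁ + c₂ < b := by
          have : c₁ + c₂ = (32 * h + 2 ^ 72) * q := by rw [hc₁, hc₂]; ring
          rw [this]
          exact lt_of_le_of_lt (mul_le_mul_of_nonneg_right hVbig hq.le) hVb
        have hc₁1 : c₁ ≤ 1 := by linarith
        have hc₂1 : c₂ ≤ 1 := by linarith
        set b' : ℝ := b - c₁ with hb'
        set b'' : ℝ := b' - c₂ with hb''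
        have hb'0 : 0 < b' := by linarith
        have hb''0 : 0 < b'' := by linarith
        have hb'1 : b' ≤ 1 := by linarith
        have hb''1 : b'' ≤ 1 := by linarith
        obtain ⟨pk, hpk0, hpks, hpk1, hpkE, hpkS⟩ :=
          exists_pick hq hhpos hc₁1 h1 h2 h3 h4 ha
        rw [← hc₁] at hpkE hpkS
        set σ : ℝ := Ex U c₁ (fun W => ∑ v, pk W v) with hσ
        have hσ1 : σ ≤ 1 := by
          have e1 := Ex_mono (U := U) hc₁0.le hc₁1 (f := fun W => ∑ v, pk W v)
            (g := fun _ => (1:ℝ)) (fun W _ => by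
              rcases hpk1 W with h | h
              · exact h.le
              · simp only [h, sum_const_zero]; norm_num)
          rwa [Ex_const] at e1
        set rr : ι → ℝ := fun v => Ex U c₁ (fun W => pk W v) with hrr
        have hrr0 : ∀ v, 0 ≤ rr v := fun v => Ex_nonneg hc₁0.le hc₁1 (fun W _ => hpk0 W v)
        have hrrs : ∑ v, rr v = σ := by rw [hσ, Ex_sum]
        -- step 1
        have s1 : FF U b t ≤ (1 - σ) * FF U b' t + ∑ v, rr v * FF U b' (sub v) := by
          have e0 : FF U b t ≤ FF U (c₁ + b' - c₁ * b') t := by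
            refine FF_anti ?_ ?_ hb1 t
            · have : c₁ * b' ≤ c₁ * 1 := mul_le_mul_of_nonneg_left hb'1 hc₁0.le
              linarith
            · have : 0 ≤ c₁ * b' := mul_nonneg hc₁0.le hb'0.le
              linarith
          refine e0.trans ?_
          unfold FF
          rw [← Ex_union]
          have e1 : ∀ W, W ⊆ U → Ex U b' (fun W₂ => nc t (W ∪ W₂)) ≤
              (1 + (-1) * ∑ v, pk W v) * FF U b' t + ∑ v, pk W v * FF U b' (sub v) := by
            intro W _
            rcases hpk1 W with hs | hs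
            · rw [hs]
              have e2 : ∀ W₂, W₂ ⊆ U → nc t (W ∪ W₂) ≤ ∑ v, pk W v * nc (sub v) W₂ := by
                intro W₂ _
                calc nc t (W ∪ W₂) = ∑ v, pk W v * nc t (W ∪ W₂) := by
                      rw [← sum_mul, hs, one_mul]
                  _ ≤ _ := by
                      refine sum_le_sum (fun v _ => ?_)
                      by_cases hz : pk W v = 0
                      · rw [hz, zero_mul, zero_mul]
                      · refine mul_le_mul_of_nonneg_left ?_ (hpk0 W v)
                        obtain ⟨hz1, hz2⟩ := hpks W v hz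
                        refine nc_le_nc (fun hcc => ?_)
                        exact ⟨v, hz1, hz2.trans subset_union_left,
                          completes_mono subset_union_right hcc⟩
              refine (Ex_mono hb'0.le hb'1 e2).trans ?_
              rw [Ex_sum]
              have e3 : ∑ v, Ex U b' (fun W₂ => pk W v * nc (sub v) W₂) =
                  ∑ v, pk W v * FF U b' (sub v) :=
                sum_congr rfl (fun v _ => Ex_const_mul _ _ _ _)
              rw [e3]
              linarith
            · simp only [hs, sum_const_zero, mul_zero, add_zero, one_mul, zero_mul]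
              exact Ex_mono hb'0.le hb'1 (fun W₂ _ =>
                nc_le_nc (fun hcc => completes_mono subset_union_right hcc))
          refine (Ex_mono hc₁0.le hc₁1 e1).trans (le_of_eq ?_)
          rw [Ex_add, Ex_mul_const, Ex_add, Ex_const, Ex_const_mul, ← hσ, Ex_sum]
          have e4 : ∑ v, Ex U c₁ (fun W => pk W v * FF U b' (sub v)) =
              ∑ v, rr v * FF U b' (sub v) :=
            sum_congr rfl (fun v _ => Ex_mul_const _ _ _ _)
          rw [e4]
          unfold FF
          ring
        -- step 2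
        have s2 : ∀ v, FF U b' (sub v) * b'' ≤
            (2 ^ 74 * n + 128 * (pot (sub v) 1 + ee 0)) * q := by
          intro v
          have e0 : FF U b' (sub v) ≤ FF U (c₂ + b'' - c₂ * b'') (sub v) := by
            refine FF_anti ?_ ?_ hb'1 _
            · have : c₂ * b'' ≤ c₂ * 1 := mul_le_mul_of_nonneg_left hb''1 hc₂0.le
              linarith
            · have : 0 ≤ c₂ * b'' := mul_nonneg hc₂0.le hb''0.le
              linarith
          have e1 := e0.trans (FF_upd hc₂0 hc₂1 hb''0.le hb''1 (h6 v))
          have e2 := mul_le_mul_of_nonneg_right e1 hb''0.le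
          refine e2.trans ?_
          rw [← Ex_mul_const]
          have e3 : ∀ W, W ⊆ U → FF U b'' (upd c₂ W (sub v) 0) * b'' ≤
              2 ^ 74 * n * q + (128 * q) * pot (upd c₂ W (sub v) 0) 0 := by
            intro W _
            have e4 := IH (upd c₂ W (sub v) 0) (R ∪ S v) (Valid.upd hc₂0 W 0 (h6 v)) b''
              hb''0 hb''1
            linarith
          refine (Ex_mono hc₂0.le hc₂1 e3).trans ?_
          rw [Ex_add, Ex_const, Ex_const_mul]
          have e5 := pot_upd hc₂0 hc₂1 hq.le (by rw [hc₂]; norm_num [← mul_assoc]) 0 (h6 v)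
          have e6 := mul_le_mul_of_nonneg_left e5 (by positivity : 0 ≤ 128 * q)
          have e7 : pot (sub v) (0 + 1) = pot (sub v) 1 := rfl
          rw [e7] at e6
          linarith
        have s3 : FF U b' t * b'' ≤ V * q := by
          have e1 := ih b' hb'0 hb'1 (by push_cast at hbk; rw [hb']; linarith)
          have e2 := FF_nonneg (U := U) hb'0.le hb'1 t
          have e3 : b'' ≤ b' := by linarith
          exact (mul_le_mul_of_nonneg_left e3 e2).trans e1
        -- combine
        set Z : ℝ := (1 - σ) * V + σ * (2 ^ 74 * n + 128 * ee 0) + 512 * Sg with hZ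
        have s4 : FF U b t * b'' ≤ Z * q := by
          have e1 := mul_le_mul_of_nonneg_right s1 hb''0.le
          have e2 : (1 - σ) * (FF U b' t * b'') ≤ (1 - σ) * (V * q) :=
            mul_le_mul_of_nonneg_left s3 (by linarith)
          have e3 : ∑ v, rr v * (FF U b' (sub v) * b'') ≤
              ∑ v, rr v * ((2 ^ 74 * n + 128 * (pot (sub v) 1 + ee 0)) * q) :=
            sum_le_sum (fun v _ => mul_le_mul_of_nonneg_left (s2 v) (hrr0 v))
          have e4 : ∑ v, rr v * ((2 ^ 74 * n + 128 * (pot (sub v) 1 + ee 0)) * q) =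
              σ * ((2 ^ 74 * n + 128 * ee 0) * q) + 128 * q * ∑ v, rr v * pot (sub v) 1 := by
            rw [← hrrs, sum_mul, mul_sum, ← sum_add_distrib]
            exact sum_congr rfl (fun v _ => by ring)
          have e5 : ∑ v, rr v * pot (sub v) 1 ≤ 4 * Sg := by
            rw [hSg, mul_sum]
            refine sum_le_sum (fun v _ => ?_)
            rw [← mul_assoc]
            exact mul_le_mul_of_nonneg_right (hpkE v) (hpotsub v)
          have e6 := mul_le_mul_of_nonneg_left e5 (by positivity : 0 ≤ 128 * q)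
          have e7 : ((1 - σ) * FF U b' t + ∑ v, rr v * FF U b' (sub v)) * b'' =
              (1 - σ) * (FF U b' t * b'') + ∑ v, rr v * (FF U b' (sub v) * b'') := by
            rw [add_mul, sum_mul]
            congr 1
            · ring
            · exact sum_congr rfl (fun v _ => by ring)
          have e8 : Z * q = (1 - σ) * (V * q) + (σ * ((2 ^ 74 * n + 128 * ee 0) * q) +
              128 * q * (4 * Sg)) := by
            rw [hZ]; ring
          rw [e8]
          rw [e7] at e1
          linarith
        have s5 : Z + (32 * h + 2 ^ 72) ≤ V := by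
          have e1 : 0 ≤ V - 2 ^ 74 * n - 128 * ee 0 := by
            rw [hVeq]; nlinarith
          have e2 : 1 / 2 * (V - 2 ^ 74 * n - 128 * ee 0) ≤
              σ * (V - 2 ^ 74 * n - 128 * ee 0) :=
            mul_le_mul_of_nonneg_right hpkS e1
          have e3 : V - Z = σ * (V - 2 ^ 74 * n - 128 * ee 0) - 512 * Sg := by
            rw [hZ]; ring
          have e4 : 1 / 2 * (V - 2 ^ 74 * n - 128 * ee 0) =
              2 ^ 73 + 64 * P0 + 64 * (gg 0 * Sg) - 64 * ee 0 := by
            rw [hVeq]; ring
          rw [hh]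
          linarith
        have s6 : Z * b ≤ V * b'' := by
          have e1 : V * b'' = V * b - (V * q) * (32 * h + 2 ^ 72) := by
            rw [hb'', hb', hc₁, hc₂]; ring
          have e2 : (V * q) * (32 * h + 2 ^ 72) ≤ b * (32 * h + 2 ^ 72) :=
            mul_le_mul_of_nonneg_right hVb.le (by positivity)
          have e3 : Z * b + b * (32 * h + 2 ^ 72) ≤ V * b := by
            have := mul_le_mul_of_nonneg_right s5 hb.le
            linarith
          linarith
        have s7 : (FF U b t * b) * b'' ≤ (V * q) * b'' := by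
          calc (FF U b t * b) * b'' = (FF U b t * b'') * b := by ring
            _ ≤ (Z * q) * b := mul_le_mul_of_nonneg_right s4 hb.le
            _ = (Z * b) * q := by ring
            _ ≤ (V * b'') * q := mul_le_mul_of_nonneg_right s6 hq.le
            _ = _ := by ring
        exact le_of_mul_le_mul_right s7 hb''0
    intro b hb hb1
    obtain ⟨k, hk⟩ := exists_nat_ge (b / c₁)
    refine key k b hb hb1 ?_
    rwa [div_le_iff₀ hc₁0] at hk

end Bound

end Vale.Agent.P064
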