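import Mathlib

open Finset
open scoped Pointwise

namespace Vale.Agent.P064

section GroupAction

variable {Γ X : Type*} [Group Γ] [Fintype Γ] [MulAction Γ X] [DecidableEq X]

noncomputable def mu (Γ : Type*) {X : Type*} [Group Γ] [Fintype Γ] [MulAction Γ X] [DecidableEq X]
    (S G : Finset X) : ℝ :=
  ((univ.filter (fun g : Γ => g • S ⊆ G)).card : ℝ) / (Fintype.card Γ : ℝ)

lemma card_pos_group : (0 : ℝ) < (Fintype.card Γ : ℝ) := by
  exact_mod_cast Fintype.card_pos

lemma mu_nonneg (S G : Finset X) : 0 ≤ mu Γ S G := by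
  unfold mu; positivity

lemma mu_le_one (S G : Finset X) : mu Γ S G ≤ 1 := by
  unfold mu
  rw [div_le_one card_pos_group]
  exact_mod_cast (card_le_univ _)

lemma mu_empty (G : Finset X) : mu Γ (∅ : Finset X) G = 1 := by
  unfold mu
  have : (univ.filter (fun g : Γ => g • (∅ : Finset X) ⊆ G)) = univ := by
    ext g; simp
  rw [this, card_univ, div_self card_pos_group.ne']

lemma mu_eq_sum (S G : Finset X) :
    mu Γ S G = (∑ g : Γ, if g • S ⊆ G then (1 : ℝ) else 0) / (Fintype.card Γ : ℝ) := by
  unfold mu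
  congr 1
  rw [Finset.sum_boole]

lemma mu_smul (h : Γ) (S G : Finset X) : mu Γ (h • S) G = mu Γ S G := by
  rw [mu_eq_sum, mu_eq_sum]
  congr 1
  refine Fintype.sum_equiv (Equiv.mulRight h) _ _ ?_
  intro g
  simp only [Equiv.coe_mulRight, mul_smul]

lemma mu_ne_zero_exists {S G : Finset X} (h : mu Γ S G ≠ 0) : ∃ g : Γ, g • S ⊆ G := by
  by_contra hcon
  push Not at hcon
  apply h
  rw [mu_eq_sum]
  simp [hcon]

/-- stabilizer bound -/
lemma card_filter_smul_eq_le (F F' : Finset X) :
    (univ.filter (fun g : Γ => g • F = F')).card ≤ (univ.filter (fun g : Γ => g • F ⊆ F)).card := by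
  by_cases hex : ∃ g₀ : Γ, g₀ • F = F'
  · obtain ⟨g₀, hg₀⟩ := hex
    refine Finset.card_le_card_of_injOn (fun g => g₀⁻¹ * g) ?_ ?_
    · intro g hg
      simp only [coe_filter, mem_univ, true_and, Set.mem_ofPred_eq] at hg ⊢
      rw [mul_smul, hg, ← hg₀, inv_smul_smul]
    · intro a _ b _ hab
      exact mul_left_cancel hab
  · have : (univ.filter (fun g : Γ => g • F = F')) = ∅ := by
      ext g
      simp only [mem_filter, mem_univ, true_and, notMem_empty, iff_false]
      exact fun h => hex ⟨g, h⟩
    rw [this]; simp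

lemma mu_le_two_pow (F H : Finset X) : mu Γ F H ≤ 2 ^ H.card * mu Γ F F := by
  classical
  unfold mu
  rw [mul_div_assoc']
  refine div_le_div_of_nonneg_right ?_ card_pos_group.le
  have h1 : (univ.filter (fun g : Γ => g • F ⊆ H)) ⊆
      H.powerset.biUnion (fun F' => univ.filter (fun g : Γ => g • F = F')) := by
    intro g hg
    simp only [mem_filter, mem_univ, true_and] at hg
    simp only [mem_biUnion, mem_powerset, mem_filter, mem_univ, true_and]
    exact ⟨g • F, hg, rfl⟩
  have h2 := card_le_card h1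
  have h3 : (H.powerset.biUnion (fun F' => univ.filter (fun g : Γ => g • F = F'))).card ≤
      ∑ F' ∈ H.powerset, (univ.filter (fun g : Γ => g • F = F')).card := card_biUnion_le
  have h4 : ∑ F' ∈ H.powerset, (univ.filter (fun g : Γ => g • F = F')).card ≤
      ∑ F' ∈ H.powerset, (univ.filter (fun g : Γ => g • F ⊆ F)).card :=
    sum_le_sum (fun F' _ => card_filter_smul_eq_le F F')
  rw [sum_const, card_powerset, smul_eq_mul] at h4
  have h5 := h2.trans (h3.trans h4)
  exact_mod_cast h5

/-- The basic correlation inequality. -/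
lemma mu_mul_mu (F g H : Finset X) :
    mu Γ F H * mu Γ g H = (∑ r : Γ, mu Γ (F ∪ r • g) H) / (Fintype.card Γ : ℝ) := by
  have hN : (Fintype.card Γ : ℝ) ≠ 0 := card_pos_group.ne'
  rw [mu_eq_sum, mu_eq_sum]
  simp_rw [mu_eq_sum]
  rw [← Finset.sum_div]
  rw [div_mul_div_comm, div_div]
  congr 1
  rw [Finset.sum_mul_sum]
  rw [Finset.sum_comm' (s := univ) (t := fun _ => univ) (t' := univ) (s' := fun _ => univ) (by simp)]
  have key : ∀ s : Γ, (∑ r : Γ, (if s • (F ∪ r • g) ⊆ H then (1:ℝ) else 0)) =
      ∑ t : Γ, (if s • F ⊆ H then (1:ℝ) else 0) * (if t • g ⊆ H then (1:ℝ) else 0) := by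
    intro s
    refine Fintype.sum_equiv (Equiv.mulLeft s) _ _ ?_
    intro r
    simp only [Equiv.coe_mulLeft, smul_finset_union, union_subset_iff, ← mul_smul]
    by_cases h1 : s • F ⊆ H <;> by_cases h2 : (s * r) • g ⊆ H <;> simp [h1, h2]
  rw [Finset.sum_comm]
  simp_rw [← key]
  rw [Finset.sum_comm]

/-- The union inequality for a maximiser. -/
lemma maximiser_ineq {q : ℝ} (hq : 0 < q) (F H g : Finset X) (hF : 0 < mu Γ F H)
    (hmax : ∀ J : Finset X, mu Γ J H * q ^ F.card ≤ mu Γ F H * q ^ J.card) :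
    mu Γ g H ≤ ∑ f ∈ g.powerset, q ^ (g.card - f.card) * mu Γ f F := by
  have hN : (0 : ℝ) < (Fintype.card Γ : ℝ) := card_pos_group
  have h1 : mu Γ F H * mu Γ g H ≤
      (∑ r : Γ, mu Γ F H * q ^ (g.card - (g.filter (fun a => r • a ∈ F)).card)) /
        (Fintype.card Γ : ℝ) := by
    rw [mu_mul_mu]
    refine div_le_div_of_nonneg_right ?_ hN.le
    refine sum_le_sum (fun r _ => ?_)
    have hc : (F ∪ r • g).card = F.card + (g.card - (g.filter (fun a => r • a ∈ F)).card) := by
      have e1 : (F ∪ r • g).card = F.card + ((r • g) \ F).card := by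
        rw [← card_union_of_disjoint disjoint_sdiff, union_sdiff_self_eq_union]
      have e2 : ((r • g) \ F).card = (g.filter (fun a => r • a ∉ F)).card := by
        have : (r • g) \ F = r • (g.filter (fun a => r • a ∉ F)) := by
          ext x
          simp only [mem_sdiff, mem_smul_finset, mem_filter]
          constructor
          · rintro ⟨⟨y, hy, rfl⟩, hx⟩
            exact ⟨y, ⟨hy, hx⟩, rfl⟩
          · rintro ⟨y, ⟨hy, hx⟩, rfl⟩
            exact ⟨⟨y, hy, rfl⟩, hx⟩
        rw [this, card_smul_finset]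
      have e3 : (g.filter (fun a => r • a ∈ F)).card + (g.filter (fun a => r • a ∉ F)).card
          = g.card := card_filter_add_card_filter_not (fun a => r • a ∈ F)
      omega
    have hm := hmax (F ∪ r • g)
    rw [hc, pow_add] at hm
    have hqF : 0 < q ^ F.card := pow_pos hq _
    have : mu Γ (F ∪ r • g) H * q ^ F.card ≤
        (mu Γ F H * q ^ (g.card - (g.filter (fun a => r • a ∈ F)).card)) * q ^ F.card := by
      calc _ ≤ _ := hm
        _ = _ := by ring
    exact le_of_mul_le_mul_right this hqF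
  have h2 : ∀ r : Γ, q ^ (g.card - (g.filter (fun a => r • a ∈ F)).card) ≤
      ∑ f ∈ g.powerset, q ^ (g.card - f.card) * (if r • f ⊆ F then (1:ℝ) else 0) := by
    intro r
    have hmem : g.filter (fun a => r • a ∈ F) ∈ g.powerset := by
      simp only [mem_powerset]; exact filter_subset _ _
    have hsub : r • (g.filter (fun a => r • a ∈ F)) ⊆ F := by
      intro x hx
      rw [mem_smul_finset] at hx
      obtain ⟨y, hy, rfl⟩ := hx
      exact (mem_filter.mp hy).2
    have := single_le_sum (f := fun f => q ^ (g.card - f.card) *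
      (if r • f ⊆ F then (1:ℝ) else 0)) (s := g.powerset) (fun i _ => by positivity) hmem
    simp only [hsub, if_true, mul_one] at this
    exact this
  have h3 : (∑ r : Γ, mu Γ F H * q ^ (g.card - (g.filter (fun a => r • a ∈ F)).card)) /
        (Fintype.card Γ : ℝ) ≤ mu Γ F H * ∑ f ∈ g.powerset, q ^ (g.card - f.card) * mu Γ f F := by
    rw [← mul_sum, mul_div_assoc]
    refine mul_le_mul_of_nonneg_left ?_ hF.le
    rw [div_le_iff₀ hN]
    calc ∑ r : Γ, q ^ (g.card - (g.filter (fun a => r • a ∈ F)).card)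
        ≤ ∑ r : Γ, ∑ f ∈ g.powerset, q ^ (g.card - f.card) *
            (if r • f ⊆ F then (1:ℝ) else 0) := sum_le_sum (fun r _ => h2 r)
      _ = ∑ f ∈ g.powerset, q ^ (g.card - f.card) *
            ∑ r : Γ, (if r • f ⊆ F then (1:ℝ) else 0) := by
          rw [sum_comm]; simp_rw [mul_sum]
      _ = _ := by
          rw [sum_mul]
          refine sum_congr rfl (fun f _ => ?_)
          rw [mu_eq_sum]
          field_simp
  exact le_of_mul_le_mul_left (h1.trans h3) hF

/-- If every nonempty subset `J` of `H` has rate at most `p`, then all sets are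
`4 k p`-spread in `H`, where `|H| < 2 ^ k`. -/
theorem spread_of_rates {p : ℝ} (hp : 0 < p) (k : ℕ) :
    ∀ H : Finset X, H.card < 2 ^ k → (∀ J ⊆ H, mu Γ J J ≤ p ^ J.card) →
      ∀ g : Finset X, mu Γ g H ≤ (4 * k * p) ^ g.card := by
  induction k with
  | zero =>
    intro H hH _ g
    have hH0 : H = ∅ := by
      rw [← card_eq_zero]; simpa using hH
    subst hH0
    by_cases hg : g = ∅
    · subst hg
      rw [mu_empty]; simp
    · have : mu Γ g (∅ : Finset X) = 0 := by
        by_contra hne
        obtain ⟨r, hr⟩ := mu_ne_zero_exists hne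
        rw [subset_empty, smul_finset_eq_empty] at hr
        exact hg hr
      rw [this]
      positivity
  | succ k ih =>
    intro H hH hrate g
    set q : ℝ := 4 * p with hq
    have hqpos : 0 < q := by positivity
    obtain ⟨F, hFmem, hFmax⟩ := exists_max_image H.powerset
      (fun J => mu Γ J H / q ^ J.card) ⟨∅, by simp⟩
    rw [mem_powerset] at hFmem
    have hM1 : 1 ≤ mu Γ F H / q ^ F.card := by
      have := hFmax ∅ (by simp)
      simpa [mu_empty] using this
    have hqF : 0 < q ^ F.card := pow_pos hqpos _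
    have hFpos : 0 < mu Γ F H := by
      have : 0 < mu Γ F H / q ^ F.card := lt_of_lt_of_le one_pos hM1
      rcases (div_pos_iff.mp this) with h | h
      · exact h.1
      · exact absurd h.2 (not_lt.mpr hqF.le)
    have hmax : ∀ J : Finset X, mu Γ J H * q ^ F.card ≤ mu Γ F H * q ^ J.card := by
      intro J
      by_cases hJ : mu Γ J H = 0
      · rw [hJ, zero_mul]; positivity
      · obtain ⟨r, hr⟩ := mu_ne_zero_exists hJ
        have := hFmax (r • J) (by rw [mem_powerset]; exact hr)
        rw [mu_smul, card_smul_finset] at this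
        rw [div_le_div_iff₀ (pow_pos hqpos _) hqF] at this
        exact this
    have hcard : F.card < 2 ^ k := by
      have h1 : q ^ F.card ≤ mu Γ F H := by
        rwa [one_le_div hqF] at hM1
      have h2 := h1.trans (mu_le_two_pow F H)
      have h3 : (2:ℝ) ^ H.card * mu Γ F F ≤ 2 ^ H.card * p ^ F.card :=
        mul_le_mul_of_nonneg_left (hrate F hFmem) (by positivity)
      have h4 := h2.trans h3
      rw [hq, mul_pow] at h4
      have h5 : (4:ℝ) ^ F.card ≤ 2 ^ H.card := le_of_mul_le_mul_right h4 (pow_pos hp _)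
      have h6 : (2:ℝ) ^ (2 * F.card) ≤ 2 ^ H.card := by
        rw [pow_mul]; norm_num; exact h5
      have h7 : 2 * F.card ≤ H.card := (pow_le_pow_iff_right₀ (by norm_num)).mp h6
      rw [pow_succ] at hH
      omega
    have hIH := ih F hcard (fun J hJ => hrate J (hJ.trans hFmem))
    have hmain := maximiser_ineq hqpos F H g hFpos hmax
    calc mu Γ g H ≤ ∑ f ∈ g.powerset, q ^ (g.card - f.card) * mu Γ f F := hmain
      _ ≤ ∑ f ∈ g.powerset, q ^ (g.card - f.card) * (4 * k * p) ^ f.card :=
          sum_le_sum (fun f _ => mul_le_mul_of_nonneg_left (hIH f) (by positivity))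
      _ = ∑ f ∈ g.powerset, (4 * k * p) ^ f.card * q ^ (g.card - f.card) := by
          refine sum_congr rfl (fun f _ => by ring)
      _ = (4 * k * p + q) ^ g.card := by
          rw [sum_pow_mul_eq_add_pow]
      _ = (4 * (k + 1 : ℕ) * p) ^ g.card := by
          rw [hq]; push_cast; ring_nf

end GroupAction

end Vale.Agent.P064
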