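import Vale.Agent.P064.Bound
import Vale.Agent.P064.Spread

open Finset
open scoped Pointwise

namespace Vale.Agent.P064

section Build

variable {Γ X : Type} [Group Γ] [Fintype Γ] [DecidableEq Γ] [MulAction Γ X] [DecidableEq X]

/-- The next set of the chain. -/
lemma exists_next {r : ℝ} (hr : 0 < r) (H : Finset X)
    (hrate : ∀ J ⊆ H, mu Γ J J ≤ r ^ J.card) :
    ∃ F : Finset X, F ⊆ H ∧ 0 < mu Γ F H ∧ 8 * F.card ≤ H.card ∧
      ∀ J : Finset X, mu Γ J H * (2 ^ 8 * r) ^ F.card ≤ mu Γ F H * (2 ^ 8 * r) ^ J.card := by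
  set q : ℝ := 2 ^ 8 * r with hq
  have hqpos : 0 < q := by positivity
  obtain ⟨F, hFmem, hFmax⟩ := exists_max_image H.powerset
    (fun J => mu Γ J H / q ^ J.card) ⟨∅, by simp⟩
  rw [mem_powerset] at hFmem
  have hM1 : 1 ≤ mu Γ F H / q ^ F.card := by
    have := hFmax ∅ (by simp)
    simpa [mu_empty] using this
  have hqF : 0 < q ^ F.card := pow_pos hqpos _
  have hFpos : 0 < mu Γ F H := by
    have : 0 < mu Γ F H / q ^ F.card := lt_of_lt_of_le one_pos hM1
    rcases (div_pos_iff.mp this) with h | h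
    · exact h.1
    · exact absurd h.2 (not_lt.mpr hqF.le)
  refine ⟨F, hFmem, hFpos, ?_, ?_⟩
  · have h1 : q ^ F.card ≤ mu Γ F H := by
      rwa [one_le_div hqF] at hM1
    have h2 := h1.trans (mu_le_two_pow F H)
    have h3 : (2:ℝ) ^ H.card * mu Γ F F ≤ 2 ^ H.card * r ^ F.card :=
      mul_le_mul_of_nonneg_left (hrate F hFmem) (by positivity)
    have h4 := h2.trans h3
    rw [hq, mul_pow] at h4
    have h5 : ((2:ℝ) ^ 8) ^ F.card ≤ 2 ^ H.card := le_of_mul_le_mul_right h4 (pow_pos hr _)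
    rw [← pow_mul] at h5
    exact (pow_le_pow_iff_right₀ (by norm_num)).mp h5
  · intro J
    by_cases hJ : mu Γ J H = 0
    · rw [hJ, zero_mul]; positivity
    · obtain ⟨g, hg⟩ := mu_ne_zero_exists hJ
      have := hFmax (g • J) (by rw [mem_powerset]; exact hg)
      rw [mu_smul, card_smul_finset] at this
      rw [div_le_div_iff₀ (pow_pos hqpos _) hqF] at this
      exact this

/-- The chain. -/
lemma exists_chain {r : ℝ} (hr : 0 < r) (H : Finset X)
    (hrate : ∀ J ⊆ H, mu Γ J J ≤ r ^ J.card) (N : ℕ) (hN : H.card < 8 ^ N) :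
    ∃ hs : ℕ → Finset X, hs 0 = H ∧ (∀ i, hs i ⊆ H) ∧ (∀ i, 0 < mu Γ (hs (i + 1)) (hs i)) ∧
      (∀ i, ∀ J : Finset X, mu Γ J (hs i) * (2 ^ 8 * r) ^ (hs (i + 1)).card ≤
        mu Γ (hs (i + 1)) (hs i) * (2 ^ 8 * r) ^ J.card) ∧
      (∀ i j, i + j = N → (hs i).card < 8 ^ j) := by
  classical
  have hex : ∀ H' : Finset X, ∃ F : Finset X, H' ⊆ H → (F ⊆ H' ∧ 0 < mu Γ F H' ∧
      8 * F.card ≤ H'.card ∧
      ∀ J : Finset X, mu Γ J H' * (2 ^ 8 * r) ^ F.card ≤ mu Γ F H' * (2 ^ 8 * r) ^ J.card) := by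
    intro H'
    by_cases h : H' ⊆ H
    · obtain ⟨F, hF⟩ := exists_next hr H' (fun J hJ => hrate J (hJ.trans h))
      exact ⟨F, fun _ => hF⟩
    · exact ⟨∅, fun h' => absurd h' h⟩
  choose nx hnx using hex
  set hs : ℕ → Finset X := fun i => Nat.rec H (fun _ K => nx K) i with hhs
  have hs0 : hs 0 = H := rfl
  have hss : ∀ i, hs (i + 1) = nx (hs i) := fun i => rfl
  have hsub : ∀ i, hs i ⊆ H := by
    intro i
    induction i with
    | zero => rw [hs0]
    | succ i ih => rw [hss]; exact (hnx (hs i) ih).1.trans ih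
  refine ⟨hs, hs0, hsub, fun i => ?_, fun i J => ?_, ?_⟩
  · rw [hss]; exact (hnx (hs i) (hsub i)).2.1
  · rw [hss]; exact (hnx (hs i) (hsub i)).2.2.2 J
  · have hc : ∀ i, 8 ^ i * (hs i).card ≤ H.card := by
      intro i
      induction i with
      | zero => simp [hs0]
      | succ i ih =>
        have h1 := (hnx (hs i) (hsub i)).2.2.1
        rw [hss]
        calc 8 ^ (i + 1) * (nx (hs i)).card = 8 ^ i * (8 * (nx (hs i)).card) := by
              rw [pow_succ]; ring
          _ ≤ 8 ^ i * (hs i).card := Nat.mul_le_mul_left _ h1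
          _ ≤ H.card := ih
    intro i j hij
    have h1 := lt_of_le_of_lt (hc i) hN
    rw [← hij, pow_add] at h1
    exact Nat.lt_of_mul_lt_mul_left h1

/-- number of copies above -/
noncomputable def cnt (Γ : Type) {X : Type} [Group Γ] [Fintype Γ] [MulAction Γ X]
    [DecidableEq X] (A H : Finset X) : ℝ := ∑ π : Γ, if A ⊆ π • H then (1:ℝ) else 0

lemma cnt_eq (A H : Finset X) : cnt Γ A H = (Fintype.card Γ : ℝ) * mu Γ A H := by
  unfold cnt
  rw [mu_eq_sum, mul_div_cancel₀ _ card_pos_group.ne']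
  refine Fintype.sum_equiv (Equiv.inv Γ) _ _ ?_
  intro g
  have : A ⊆ g • H ↔ g⁻¹ • A ⊆ H := subset_smul_finset_iff
  simp only [Equiv.inv_apply, this]

/-- The tree of copies of a chain. -/
noncomputable def build (Γ : Type) {X : Type} [Group Γ] [Fintype Γ] [MulAction Γ X]
    [DecidableEq X] (hs : ℕ → Finset X) : (i : ℕ) → Γ → Finset X → Tr Γ X i
  | 0, _, _ => .leaf
  | i + 1, σ, R => .node
      (fun π => (if σ • hs (i + 1) ⊆ π • hs i then (1:ℝ) else 0) /
        cnt Γ (σ • hs (i + 1)) (hs i))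
      (fun π => π • hs i \ R) (fun π => build Γ hs i π (R ∪ π • hs i))

lemma build_valid {q : ℝ} (hq : 0 < q) {hs : ℕ → Finset X} {U : Finset X}
    (hpos : ∀ i, 0 < mu Γ (hs (i + 1)) (hs i))
    (hmax : ∀ i, ∀ J : Finset X, mu Γ J (hs i) * q ^ (hs (i + 1)).card ≤
        mu Γ (hs (i + 1)) (hs i) * q ^ J.card)
    (hU : ∀ (i : ℕ) (π : Γ), π • hs i ⊆ U) : ∀ (i : ℕ) (σ : Γ) (R : Finset X),
    σ • hs i ⊆ R → Valid U q (build Γ hs i σ R) R := by
  intro i
  induction i with
  | zero => intro σ R _; trivial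
  | succ i ih =>
    intro σ R hσ
    have hcard : (0:ℝ) < (Fintype.card Γ : ℝ) := card_pos_group
    have hc0 : 0 < cnt Γ (σ • hs (i + 1)) (hs i) := by
      rw [cnt_eq, mu_smul]
      exact mul_pos hcard (hpos i)
    refine ⟨?_, ?_, ?_, ?_, ?_, ?_⟩
    · intro π
      refine div_nonneg ?_ hc0.le
      split_ifs <;> norm_num
    · rw [← sum_div]
      exact div_self hc0.ne'
    · intro A
      by_cases hA : Disjoint A R
      · have h1 : ∑ π : Γ, ((if σ • hs (i + 1) ⊆ π • hs i then (1:ℝ) else 0) /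
            cnt Γ (σ • hs (i + 1)) (hs i)) * (if A ⊆ π • hs i \ R then (1:ℝ) else 0) ≤
            cnt Γ (σ • hs (i + 1) ∪ A) (hs i) / cnt Γ (σ • hs (i + 1)) (hs i) := by
          conv_rhs => rw [cnt, sum_div]
          refine sum_le_sum (fun π _ => ?_)
          rw [div_mul_eq_mul_div]
          refine div_le_div_of_nonneg_right ?_ hc0.le
          by_cases h2 : σ • hs (i + 1) ⊆ π • hs i
          · by_cases h3 : A ⊆ π • hs i \ R
            · rw [if_pos h2, if_pos h3, if_pos (union_subset h2 (h3.trans sdiff_subset)), mul_one]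
            · rw [if_neg h3, mul_zero]; split_ifs <;> norm_num
          · rw [if_neg h2, zero_mul]; split_ifs <;> norm_num
        refine h1.trans ?_
        rw [div_le_iff₀ hc0, cnt_eq, cnt_eq, mu_smul]
        have h4 := hmax i (σ • hs (i + 1) ∪ A)
        have h5 : (σ • hs (i + 1) ∪ A).card = A.card + (hs (i + 1)).card := by
          rw [card_union_of_disjoint (disjoint_of_subset_left hσ hA.symm), card_smul_finset,
            add_comm]
        rw [h5, pow_add] at h4
        have hqF : 0 < q ^ (hs (i + 1)).card := pow_pos hq _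
        have h6 : mu Γ (σ • hs (i + 1) ∪ A) (hs i) ≤ mu Γ (hs (i + 1)) (hs i) * q ^ A.card := by
          refine le_of_mul_le_mul_right ?_ hqF
          calc _ ≤ _ := h4
            _ = _ := by ring
        calc (Fintype.card Γ : ℝ) * mu Γ (σ • hs (i + 1) ∪ A) (hs i)
            ≤ (Fintype.card Γ : ℝ) * (mu Γ (hs (i + 1)) (hs i) * q ^ A.card) :=
              mul_le_mul_of_nonneg_left h6 hcard.le
          _ = _ := by ring
      · have h1 : ∀ π : Γ, ¬ A ⊆ π • hs i \ R := by
          intro π h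
          apply hA
          rw [disjoint_left]
          intro y hy hyR
          exact (mem_sdiff.mp (h hy)).2 hyR
        have h2 : ∑ π : Γ, ((if σ • hs (i + 1) ⊆ π • hs i then (1:ℝ) else 0) /
            cnt Γ (σ • hs (i + 1)) (hs i)) * (if A ⊆ π • hs i \ R then (1:ℝ) else 0) = 0 :=
          sum_eq_zero (fun π _ => by rw [if_neg (h1 π), mul_zero])
        rw [h2]
        positivity
    · intro π; exact sdiff_subset.trans (hU i π)
    · intro π; exact disjoint_sdiff
    · intro π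
      rw [union_sdiff_self_eq_union]
      exact ih π (R ∪ π • hs i) subset_union_right

lemma build_completes {hs : ℕ → Finset X} {W : Finset X} : ∀ (i : ℕ) (σ : Γ) (R : Finset X),
    σ • hs i ⊆ R → R ⊆ W → completes (build Γ hs i σ R) W → ∃ π : Γ, π • hs 0 ⊆ W := by
  intro i
  induction i with
  | zero => intro σ R h1 h2 _; exact ⟨σ, h1.trans h2⟩
  | succ i ih =>
    intro σ R h1 h2 hc
    obtain ⟨π, _, h3, h4⟩ := hc
    refine ih π (R ∪ π • hs i) subset_union_right (union_subset h2 ?_) h4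
    intro y hy
    by_cases hyR : y ∈ R
    · exact h2 hyR
    · exact h3 (mem_sdiff.mpr ⟨hy, hyR⟩)

lemma build_pot {hs : ℕ → Finset X} {N : ℕ} (hcard : ∀ i j, i + j = N → (hs i).card < 8 ^ j) :
    ∀ (i : ℕ) (m : ℕ), i + m = N → ∀ (σ : Γ) (R : Finset X), pot (build Γ hs i σ R) m = 0 := by
  intro i
  induction i with
  | zero => intro m _ σ R; rfl
  | succ i ih =>
    intro m hm σ R
    show ∑ π : Γ, ((if σ • hs (i + 1) ⊆ π • hs i then (1:ℝ) else 0) /
        cnt Γ (σ • hs (i + 1)) (hs i)) * (phi (KK m) (π • hs i \ R).card +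
          gg m * pot (build Γ hs i π (R ∪ π • hs i)) (m + 1)) = 0
    refine sum_eq_zero (fun π _ => ?_)
    rw [ih (m + 1) (by omega) π (R ∪ π • hs i)]
    have h1 : (π • hs i \ R).card ≤ KK m := by
      have h2 := hcard i (m + 1) (by omega)
      have h3 : (π • hs i \ R).card ≤ (hs i).card := by
        refine (card_le_card sdiff_subset).trans (le_of_eq ?_)
        exact card_smul_finset _ _
      unfold KK; omega
    unfold phi
    rw [if_neg (not_lt.mpr h1)]
    ring

/-- Threshold theorem for an arbitrary finite group action. -/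
theorem action_bound {r : ℝ} (hr : 0 < r) (H U : Finset X)
    (hrate : ∀ J ⊆ H, mu Γ J J ≤ r ^ J.card) (hU : ∀ π : Γ, π • H ⊆ U) (N : ℕ) (hN1 : 1 ≤ N)
    (hN : H.card < 8 ^ N) (hb1 : 2 ^ 75 * N * (2 ^ 8 * r) ≤ 1) :
    Ex U (2 ^ 75 * N * (2 ^ 8 * r)) (fun W => if ∃ π : Γ, π • H ⊆ W then (0:ℝ) else 1) ≤
      1 / 2 := by
  obtain ⟨hs, hs0, hsub, hpos, hmax, hcard⟩ := exists_chain (Γ := Γ) hr H hrate N hN
  set q : ℝ := 2 ^ 8 * r with hq
  have hq0 : 0 < q := by positivity
  have hN0 : (0:ℝ) < N := by exact_mod_cast hN1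
  set b : ℝ := 2 ^ 75 * N * q with hb
  have hb0 : 0 < b := by positivity
  have hempty : hs N = ∅ := by
    have := hcard N 0 (by omega)
    rw [pow_zero, Nat.lt_one_iff, card_eq_zero] at this
    exact this
  have hinv : (1 : Γ) • hs N ⊆ (∅ : Finset X) := by
    rw [hempty, one_smul]
  have hUs : ∀ (i : ℕ) (π : Γ), π • hs i ⊆ U := fun i π =>
    (smul_finset_subset_smul_finset (hsub i)).trans (hU π)
  have hvalid := build_valid hq0 hpos hmax hUs N 1 ∅ hinv
  have hpot := build_pot (Γ := Γ) hcard N 0 (by omega) 1 ∅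
  have hmain := main_bound hq0 N (build Γ hs N 1 ∅) ∅ hvalid b hb0 hb1
  rw [hpot, mul_zero, add_zero] at hmain
  have h1 : FF U b (build Γ hs N 1 ∅) ≤ 1 / 2 := by
    have h2 : FF U b (build Γ hs N 1 ∅) * b ≤ 1 / 2 * b := by
      refine hmain.trans (le_of_eq ?_)
      rw [hb]; ring
    exact le_of_mul_le_mul_right h2 hb0
  refine le_trans (Ex_mono hb0.le hb1 (fun W _ => ?_)) h1
  unfold nc
  by_cases hc : completes (build Γ hs N 1 ∅) W
  · have h3 := build_completes N 1 ∅ hinv (empty_subset W) hc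
    rw [hs0] at h3
    rw [if_pos h3, if_pos hc]
  · rw [if_neg hc]; split_ifs <;> norm_num

end Build

end Vale.Agent.P064
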