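import Vale.Agent.P064.Tree

open Finset

namespace Vale.Agent.P064

section Pick

variable {ι X : Type} [Fintype ι] [DecidableEq ι] [DecidableEq X]

/-- Completing the root level by a second moment argument. -/
theorem exists_pick {U : Finset X} {q h : ℝ} (hq : 0 < q) (hh : 0 < h) (hc1 : 32 * h * q ≤ 1)
    {w : ι → ℝ} {S : ι → Finset X} (hw : ∀ v, 0 ≤ w v) (hsum : ∑ v, w v = 1)
    (hspread : ∀ A : Finset X, ∑ v, w v * (if A ⊆ S v then (1:ℝ) else 0) ≤ q ^ A.card)
    (hSU : ∀ v, S v ⊆ U)
    (ha : 1 / 2 ≤ ∑ v, (if ((S v).card : ℝ) ≤ h then w v else 0)) :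
    ∃ pk : Finset X → ι → ℝ, (∀ W v, 0 ≤ pk W v) ∧
      (∀ W v, pk W v ≠ 0 → w v ≠ 0 ∧ S v ⊆ W) ∧
      (∀ W, ∑ v, pk W v = 1 ∨ ∀ v, pk W v = 0) ∧
      (∀ v, Ex U (32 * h * q) (fun W => pk W v) ≤ 4 * w v) ∧
      1 / 2 ≤ Ex U (32 * h * q) (fun W => ∑ v, pk W v) := by
  set c : ℝ := 32 * h * q with hc
  have hc0 : 0 < c := by rw [hc]; positivity
  set a : ℝ := ∑ v, (if ((S v).card : ℝ) ≤ h then w v else 0) with haa
  have ha0 : 0 < a := by linarith
  have ha1 : a ≤ 1 := by
    rw [haa, ← hsum]
    refine sum_le_sum (fun v _ => ?_)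
    split_ifs
    · exact le_refl _
    · exact hw v
  set tm : ι → Finset X → ℝ := fun v W =>
    (if ((S v).card : ℝ) ≤ h then w v else 0) * ((if S v ⊆ W then (1:ℝ) else 0) *
      (c⁻¹) ^ (S v).card) with htm
  have hwc : ∀ v, 0 ≤ (if ((S v).card : ℝ) ≤ h then w v else 0) := by
    intro v; split_ifs
    · exact hw v
    · exact le_refl _
  have htm0 : ∀ v W, 0 ≤ tm v W := by
    intro v W
    refine mul_nonneg (hwc v) (mul_nonneg ?_ (by positivity))
    split_ifs <;> norm_num
  set Y : Finset X → ℝ := fun W => ∑ v, tm v W with hY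
  have hEtm : ∀ v, Ex U c (tm v) = (if ((S v).card : ℝ) ≤ h then w v else 0) := by
    intro v
    simp only [htm]
    rw [Ex_const_mul, Ex_mul_const, Ex_superset hc0 (hSU v), inv_pow,
      mul_inv_cancel₀ (pow_ne_zero _ hc0.ne'), mul_one]
  have hEY : Ex U c Y = a := by
    simp only [hY]
    rw [Ex_sum]
    exact sum_congr rfl (fun v _ => hEtm v)
  -- second moment
  have hpair : ∀ v v', Ex U c (fun W => tm v W * tm v' W) =
      (if ((S v).card : ℝ) ≤ h then w v else 0) * ((if ((S v').card : ℝ) ≤ h then w v' else 0) *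
        (c⁻¹) ^ (S v ∩ S v').card) := by
    intro v v'
    have e1 : Ex U c (fun W => tm v W * tm v' W) =
        Ex U c (fun W => ((if ((S v).card : ℝ) ≤ h then w v else 0) *
          (if ((S v').card : ℝ) ≤ h then w v' else 0) *
          (c⁻¹) ^ (S v).card * (c⁻¹) ^ (S v').card) *
          (if S v ∪ S v' ⊆ W then (1:ℝ) else 0)) := by
      refine Ex_congr (fun W _ => ?_)
      simp only [htm, union_subset_iff]
      by_cases h1 : S v ⊆ W <;> by_cases h2 : S v' ⊆ W <;> simp [h1, h2]
      ring_nf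
    rw [e1, Ex_const_mul, Ex_superset hc0 (union_subset (hSU v) (hSU v'))]
    have e2 : (S v ∪ S v').card + (S v ∩ S v').card = (S v).card + (S v').card :=
      card_union_add_card_inter _ _
    have e3 : (c⁻¹) ^ (S v).card * (c⁻¹) ^ (S v').card * c ^ (S v ∪ S v').card =
        (c⁻¹) ^ (S v ∩ S v').card := by
      rw [← pow_add, ← e2, pow_add, mul_right_comm, ← mul_pow, inv_mul_cancel₀ hc0.ne',
        one_pow, one_mul]
    rw [← e3]; ring
  have hrow : ∀ v, ((S v).card : ℝ) ≤ h →
      ∑ v', (if ((S v').card : ℝ) ≤ h then w v' else 0) * (c⁻¹) ^ (S v ∩ S v').card ≤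
        a + 1 / 16 := by
    intro v hv
    have h1 : ∀ v', (c⁻¹) ^ (S v ∩ S v').card ≤ 1 +
        ∑ A ∈ (S v).powerset.erase ∅, (c⁻¹) ^ A.card * (if A ⊆ S v' then (1:ℝ) else 0) := by
      intro v'
      have hnn : ∀ A ∈ (S v).powerset.erase ∅,
          0 ≤ (c⁻¹) ^ A.card * (if A ⊆ S v' then (1:ℝ) else 0) := fun A _ =>
        mul_nonneg (by positivity) (by split_ifs <;> norm_num)
      by_cases he : S v ∩ S v' = ∅
      · rw [he, card_empty, pow_zero]
        have := sum_nonneg hnn
        linarith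
      · have hmem : S v ∩ S v' ∈ (S v).powerset.erase ∅ :=
          mem_erase.mpr ⟨he, mem_powerset.mpr inter_subset_left⟩
        have := single_le_sum hnn hmem
        rw [if_pos inter_subset_right, mul_one] at this
        linarith
    have h2 : ∀ v', (if ((S v').card : ℝ) ≤ h then w v' else 0) * (c⁻¹) ^ (S v ∩ S v').card ≤
        (if ((S v').card : ℝ) ≤ h then w v' else 0) + ∑ A ∈ (S v).powerset.erase ∅,
          (c⁻¹) ^ A.card * (w v' * (if A ⊆ S v' then (1:ℝ) else 0)) := by
      intro v'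
      have h3 := mul_le_mul_of_nonneg_left (h1 v') (hwc v')
      refine h3.trans ?_
      rw [mul_add, mul_one]
      refine add_le_add (le_refl _) ?_
      rw [mul_sum]
      refine sum_le_sum (fun A _ => ?_)
      have h4 : (if ((S v').card : ℝ) ≤ h then w v' else 0) ≤ w v' := by
        split_ifs
        · exact le_refl _
        · exact hw v'
      have h5 : 0 ≤ (c⁻¹) ^ A.card * (if A ⊆ S v' then (1:ℝ) else 0) :=
        mul_nonneg (by positivity) (by split_ifs <;> norm_num)
      calc _ ≤ w v' * ((c⁻¹) ^ A.card * (if A ⊆ S v' then (1:ℝ) else 0)) :=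
            mul_le_mul_of_nonneg_right h4 h5
        _ = _ := by ring
    refine (sum_le_sum (fun v' _ => h2 v')).trans ?_
    rw [sum_add_distrib]
    refine add_le_add (le_refl _) ?_
    rw [sum_comm]
    have h3 : ∑ A ∈ (S v).powerset.erase ∅, ∑ v', (c⁻¹) ^ A.card *
        (w v' * (if A ⊆ S v' then (1:ℝ) else 0)) ≤
        ∑ A ∈ (S v).powerset.erase ∅, (c⁻¹ * q) ^ A.card := by
      refine sum_le_sum (fun A _ => ?_)
      rw [← mul_sum, mul_pow]
      exact mul_le_mul_of_nonneg_left (hspread A) (by positivity)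
    refine h3.trans ?_
    have h4 : ∑ A ∈ (S v).powerset.erase ∅, (c⁻¹ * q) ^ A.card =
        (c⁻¹ * q + 1) ^ (S v).card - 1 := by
      have h5 := sum_pow_mul_eq_add_pow (c⁻¹ * q) 1 (S v)
      simp only [one_pow, mul_one] at h5
      rw [← h5, ← add_sum_erase (S v).powerset _ (empty_mem_powerset (S v))]
      simp
    rw [h4]
    have h6 : c⁻¹ * q = 1 / (32 * h) := by
      rw [hc]; field_simp
    rw [h6]
    have h7 : (1 / (32 * h) + 1) ^ (S v).card ≤ Real.exp (1 / 32) := by
      have h8 := Real.add_one_le_exp (1 / (32 * h))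
      have h9 : 0 ≤ 1 / (32 * h) + 1 := by positivity
      calc (1 / (32 * h) + 1) ^ (S v).card ≤ (Real.exp (1 / (32 * h))) ^ (S v).card :=
            pow_le_pow_left₀ h9 h8 _
        _ = Real.exp ((S v).card * (1 / (32 * h))) := by rw [← Real.exp_nat_mul]
        _ ≤ Real.exp (1 / 32) := by
            refine Real.exp_le_exp.mpr ?_
            calc ((S v).card : ℝ) * (1 / (32 * h)) ≤ h * (1 / (32 * h)) :=
                  mul_le_mul_of_nonneg_right hv (by positivity)
              _ = 1 / 32 := by field_simp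
    have h10 : Real.exp (1 / 32) ≤ 17 / 16 := by
      have h11 := Real.add_one_le_exp (-(1 / 32) : ℝ)
      have h12 : Real.exp (1 / 32) * Real.exp (-(1 / 32)) = 1 := by
        rw [← Real.exp_add]; simp
      have h13 := Real.exp_pos (1 / 32)
      nlinarith
    linarith
  have hEY2 : Ex U c (fun W => Y W * Y W) ≤ a * (a + 1 / 16) := by
    have e1 : ∀ W, W ⊆ U → Y W * Y W = ∑ v, ∑ v', tm v W * tm v' W := by
      intro W _
      simp only [hY]
      rw [sum_mul_sum]
    rw [Ex_congr e1, Ex_sum]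
    have e2 : ∀ v, Ex U c (fun W => ∑ v', tm v W * tm v' W) ≤
        (if ((S v).card : ℝ) ≤ h then w v else 0) * (a + 1 / 16) := by
      intro v
      rw [Ex_sum, sum_congr rfl (fun v' _ => hpair v v'), ← mul_sum]
      by_cases hv : ((S v).card : ℝ) ≤ h
      · exact mul_le_mul_of_nonneg_left (hrow v hv) (hwc v)
      · rw [if_neg hv, zero_mul, zero_mul]
    refine (sum_le_sum (fun v _ => e2 v)).trans (le_of_eq ?_)
    rw [← sum_mul]
  -- Chebyshev
  have hcheb : Ex U c (fun W => if Y W < a / 2 then (1:ℝ) else 0) ≤ 1 / 2 := by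
    have e1 : ∀ W, W ⊆ U → (a / 2) ^ 2 * (if Y W < a / 2 then (1:ℝ) else 0) ≤
        (Y W * Y W + (-(2 * a)) * Y W) + a ^ 2 := by
      intro W _
      by_cases h1 : Y W < a / 2
      · rw [if_pos h1]
        nlinarith
      · rw [if_neg h1]
        nlinarith [sq_nonneg (Y W - a)]
    have e2 := Ex_mono (U := U) hc0.le hc1 e1
    rw [Ex_const_mul, Ex_add, Ex_add, Ex_const, Ex_const_mul, hEY] at e2
    have e3 : (a / 2) ^ 2 * Ex U c (fun W => if Y W < a / 2 then (1:ℝ) else 0) ≤ a / 16 := by
      linarith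
    have e4 : a / 16 ≤ (a / 2) ^ 2 * (1 / 2) := by nlinarith
    exact le_of_mul_le_mul_left (e3.trans e4) (by positivity)
  refine ⟨fun W v => if a / 2 ≤ Y W then tm v W / Y W else 0, ?_, ?_, ?_, ?_, ?_⟩
  · intro W v
    simp only
    split_ifs with h1
    · exact div_nonneg (htm0 v W) (by linarith)
    · exact le_refl _
  · intro W v hne
    simp only at hne
    split_ifs at hne with h1
    · have h2 : tm v W ≠ 0 := fun h3 => hne (by rw [h3, zero_div])
      simp only [htm] at h2
      constructor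
      · intro h3; apply h2; rw [h3]; simp
      · by_contra h3; apply h2; rw [if_neg h3]; simp
    · exact absurd rfl hne
  · intro W
    by_cases h1 : a / 2 ≤ Y W
    · left
      simp only [h1, if_true]
      rw [← sum_div]
      exact div_self (by linarith : (0:ℝ) < Y W).ne'
    · right
      intro v
      simp only [h1, if_false]
  · intro v
    have e1 : ∀ W, W ⊆ U → (if a / 2 ≤ Y W then tm v W / Y W else 0) ≤ (2 / a) * tm v W := by
      intro W _
      split_ifs with h1
      · have h2 : 0 < Y W := by linarith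
        rw [div_le_iff₀ h2]
        have h3 : 1 ≤ 2 / a * Y W := by
          rw [div_mul_eq_mul_div, one_le_div ha0]; linarith
        have h4 := htm0 v W
        calc tm v W = tm v W * 1 := (mul_one _).symm
          _ ≤ tm v W * (2 / a * Y W) := mul_le_mul_of_nonneg_left h3 h4
          _ = _ := by ring
      · exact mul_nonneg (by positivity) (htm0 v W)
    refine (Ex_mono hc0.le hc1 e1).trans ?_
    rw [Ex_const_mul, hEtm]
    have h5 : 2 / a ≤ 4 := by
      rw [div_le_iff₀ ha0]; linarith
    have h6 : (if ((S v).card : ℝ) ≤ h then w v else 0) ≤ w v := by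
      split_ifs
      · exact le_refl _
      · exact hw v
    exact mul_le_mul h5 h6 (hwc v) (by norm_num)
  · have e1 : ∀ W, W ⊆ U → ∑ v, (if a / 2 ≤ Y W then tm v W / Y W else 0) =
        1 + (-1) * (if Y W < a / 2 then (1:ℝ) else 0) := by
      intro W _
      by_cases h1 : a / 2 ≤ Y W
      · simp only [h1, if_true, not_lt.mpr h1, if_false]
        rw [← sum_div, mul_zero, add_zero]
        exact div_self (by linarith : (0:ℝ) < Y W).ne'
      · simp only [h1, if_false, not_le.mp h1, if_true]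
        simp
    rw [Ex_congr e1, Ex_add, Ex_const, Ex_const_mul]
    linarith

end Pick

end Vale.Agent.P064
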