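import Mathlib

namespace Vale.Agent.P064

open SimpleGraph MeasureTheory

noncomputable def pc (n : ℕ) {V : Type*} (H : SimpleGraph V) : ℝ :=
  sInf {p : ℝ | ∃ hp : p ∈ Set.Icc (0 : ℝ) 1,
    1 / 2 ≤ (binomialRandom (Fin n) ⟨p, hp⟩).real {G | 0 < G.copyCount H}}

noncomputable def pE (n : ℕ) {V : Type*} (H : SimpleGraph V) : ℝ :=
  sInf {p : ℝ | ∃ hp : p ∈ Set.Icc (0 : ℝ) 1, ∀ F : H.Subgraph,
    1 / 2 ≤ ∫ G, (G.copyCount F.coe : ℝ) ∂(binomialRandom (Fin n) ⟨p, hp⟩)}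

end Vale.Agent.P064
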