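import Vale.Agent.P064.Threshold

open Finset

namespace Vale.Agent.P064

section Expectation

variable {X : Type*} [DecidableEq X]

/-- Expectation of `f W` for a binomial random subset `W` of `U`. -/
noncomputable def Ex (U : Finset X) (p : ℝ) (f : Finset X → ℝ) : ℝ :=
  ∑ W ∈ U.powerset, wt U p W * f W

lemma Ex_add (U : Finset X) (p : ℝ) (f g : Finset X → ℝ) :
    Ex U p (fun W => f W + g W) = Ex U p f + Ex U p g := by
  unfold Ex
  rw [← sum_add_distrib]
  exact sum_congr rfl (fun W _ => by ring)

lemma Ex_const_mul (U : Finset X) (p c : ℝ) (f : Finset X → ℝ) :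
    Ex U p (fun W => c * f W) = c * Ex U p f := by
  unfold Ex
  rw [mul_sum]
  exact sum_congr rfl (fun W _ => by ring)

lemma Ex_mul_const (U : Finset X) (p c : ℝ) (f : Finset X → ℝ) :
    Ex U p (fun W => f W * c) = Ex U p f * c := by
  unfold Ex
  rw [sum_mul]
  exact sum_congr rfl (fun W _ => by ring)

lemma Ex_sum {κ : Type*} (s : Finset κ) (U : Finset X) (p : ℝ) (f : κ → Finset X → ℝ) :
    Ex U p (fun W => ∑ i ∈ s, f i W) = ∑ i ∈ s, Ex U p (f i) := by
  unfold Ex
  rw [sum_comm]
  exact sum_congr rfl (fun W _ => by rw [mul_sum])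

lemma Ex_const (U : Finset X) (p c : ℝ) : Ex U p (fun _ => c) = c := by
  unfold Ex
  rw [← sum_mul, sum_wt, one_mul]

lemma Ex_congr {U : Finset X} {p : ℝ} {f g : Finset X → ℝ} (h : ∀ W, W ⊆ U → f W = g W) :
    Ex U p f = Ex U p g := by
  unfold Ex
  exact sum_congr rfl (fun W hW => by rw [h W (mem_powerset.mp hW)])

lemma Ex_mono {U : Finset X} {p : ℝ} (h0 : 0 ≤ p) (h1 : p ≤ 1) {f g : Finset X → ℝ}
    (h : ∀ W, W ⊆ U → f W ≤ g W) : Ex U p f ≤ Ex U p g := by
  unfold Ex
  exact sum_le_sum (fun W hW =>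
    mul_le_mul_of_nonneg_left (h W (mem_powerset.mp hW)) (wt_nonneg h0 h1 W))

lemma Ex_nonneg {U : Finset X} {p : ℝ} (h0 : 0 ≤ p) (h1 : p ≤ 1) {f : Finset X → ℝ}
    (h : ∀ W, W ⊆ U → 0 ≤ f W) : 0 ≤ Ex U p f := by
  have := Ex_mono h0 h1 h
  rwa [Ex_const] at this

lemma Ex_insert {U : Finset X} {a : X} (ha : a ∉ U) (p : ℝ) (f : Finset X → ℝ) :
    Ex (insert a U) p f = (1 - p) * Ex U p f + p * Ex U p (fun W => f (insert a W)) := by
  unfold Ex
  rw [sum_powerset_insert ha, mul_sum, mul_sum]
  congr 1
  · refine sum_congr rfl (fun W hW => ?_)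
    rw [wt_insert_of_notMem ha (mem_powerset.mp hW)]; ring
  · refine sum_congr rfl (fun W hW => ?_)
    rw [wt_insert_insert ha (mem_powerset.mp hW)]; ring

lemma Ex_union (U : Finset X) (p p' : ℝ) (φ : Finset X → ℝ) :
    Ex U p (fun W₁ => Ex U p' (fun W₂ => φ (W₁ ∪ W₂))) = Ex U (p + p' - p * p') φ := by
  unfold Ex
  rw [← sum_wt_union]
  refine sum_congr rfl (fun W₁ _ => ?_)
  rw [mul_sum]
  exact sum_congr rfl (fun W₂ _ => by ring)

lemma Ex_split (U : Finset X) (p : ℝ) (T : Finset X) : ∀ f g : Finset X → ℝ,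
    Ex U p (fun W => f (W ∩ T) * g (W \ T)) =
      Ex U p (fun W => f (W ∩ T)) * Ex U p (fun W => g (W \ T)) := by
  induction U using Finset.induction_on with
  | empty => intro f g; simp [Ex, wt]
  | insert a U ha ih =>
    intro f g
    rw [Ex_insert ha, Ex_insert ha, Ex_insert ha]
    by_cases haT : a ∈ T
    · have e1 : ∀ W : Finset X, (insert a W) ∩ T = insert a (W ∩ T) := by
        intro W; rw [insert_inter_of_mem haT]
      have e2 : ∀ W : Finset X, (insert a W) \ T = W \ T := by
        intro W; rw [insert_sdiff_of_mem _ haT]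
      simp only [e1, e2]
      have h1 := ih f g
      have h2 := ih (fun Y => f (insert a Y)) g
      rw [h1, h2]; ring
    · have e1 : ∀ W : Finset X, (insert a W) ∩ T = W ∩ T := by
        intro W; rw [insert_inter_of_notMem haT]
      have e2 : ∀ W : Finset X, (insert a W) \ T = insert a (W \ T) := by
        intro W; rw [insert_sdiff_of_notMem _ haT]
      simp only [e1, e2]
      have h1 := ih f g
      have h2 := ih f (fun Y => g (insert a Y))
      rw [h1, h2]; ring

lemma Ex_shift_one {U : Finset X} {p : ℝ} (hp : 0 < p) {a : X} (ha : a ∈ U)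
    (f : Finset X → ℝ) :
    Ex U p (fun W => f (insert a W)) = Ex U p (fun Z => (if a ∈ Z then p⁻¹ else 0) * f Z) := by
  obtain ⟨U', haU', rfl⟩ : ∃ U', a ∉ U' ∧ insert a U' = U :=
    ⟨U.erase a, notMem_erase a U, insert_erase ha⟩
  rw [Ex_insert haU', Ex_insert haU']
  have e1 : Ex U' p (fun Z => (if a ∈ Z then p⁻¹ else 0) * f Z) = 0 := by
    have : Ex U' p (fun Z => (if a ∈ Z then p⁻¹ else 0) * f Z) = Ex U' p (fun _ => (0:ℝ)) :=
      Ex_congr (fun W hW => by rw [if_neg (fun h => haU' (hW h)), zero_mul])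
    rw [this, Ex_const]
  rw [e1]
  simp only [insert_idem, mem_insert_self, if_true]
  rw [Ex_const_mul]
  field_simp
  ring

/-- Change of measure: the law of `W ∪ T`. -/
lemma Ex_shift {U : Finset X} {p : ℝ} (hp : 0 < p) (T : Finset X) : T ⊆ U →
    ∀ f : Finset X → ℝ, Ex U p (fun W => f (W ∪ T)) =
      Ex U p (fun Z => (if T ⊆ Z then (p⁻¹) ^ T.card else 0) * f Z) := by
  induction T using Finset.induction_on with
  | empty => intro _ f; simp
  | insert a T ha ih =>
    intro hTU f
    have haU : a ∈ U := hTU (mem_insert_self _ _)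
    have hTU' : T ⊆ U := (subset_insert _ _).trans hTU
    have h1 := ih hTU' (fun Y => f (insert a Y))
    have h0 : Ex U p (fun W => f (W ∪ insert a T)) = Ex U p (fun W => f (insert a (W ∪ T))) := by
      refine Ex_congr (fun W _ => ?_)
      rw [union_insert]
    rw [h0, h1]
    have h2 := Ex_shift_one hp haU (fun Z => (if T ⊆ Z then (p⁻¹) ^ T.card else 0) * f Z)
    have h3 : Ex U p (fun Z => (if T ⊆ Z then (p⁻¹) ^ T.card else 0) * f (insert a Z)) =
        Ex U p (fun W => (if T ⊆ insert a W then (p⁻¹) ^ T.card else 0) * f (insert a W)) := by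
      refine Ex_congr (fun W _ => ?_)
      have : T ⊆ insert a W ↔ T ⊆ W := by
        rw [subset_insert_iff_of_notMem ha]
      simp only [this]
    rw [h3, h2]
    refine Ex_congr (fun Z _ => ?_)
    rw [card_insert_of_notMem ha]
    by_cases h1 : a ∈ Z <;> by_cases h2 : T ⊆ Z <;> simp [h1, h2, insert_subset_iff, pow_succ]
    ring

lemma Ex_superset {U : Finset X} {p : ℝ} (hp : 0 < p) {T : Finset X} (hT : T ⊆ U) :
    Ex U p (fun W => if T ⊆ W then (1:ℝ) else 0) = p ^ T.card := by
  have h := Ex_shift hp T hT (fun _ => (1:ℝ))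
  simp only [mul_one] at h
  rw [Ex_const] at h
  have h2 : Ex U p (fun Z => if T ⊆ Z then (p⁻¹) ^ T.card else 0) =
      (p⁻¹) ^ T.card * Ex U p (fun W => if T ⊆ W then (1:ℝ) else 0) := by
    rw [← Ex_const_mul]
    refine Ex_congr (fun W _ => ?_)
    split_ifs <;> simp
  rw [h2, inv_pow] at h
  have hpT : (p ^ T.card) ≠ 0 := pow_ne_zero _ hp.ne'
  field_simp at h
  linarith

lemma Ex_pow_sdiff {U : Finset X} (p c : ℝ) : ∀ T : Finset X, T ⊆ U →
    Ex U p (fun W => c ^ (T \ W).card) = (p + (1 - p) * c) ^ T.card := by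
  induction U using Finset.induction_on with
  | empty =>
    intro T hT
    rw [subset_empty] at hT
    subst hT
    simp [Ex, wt]
  | insert a U ha ih =>
    intro T hT
    rw [Ex_insert ha]
    by_cases haT : a ∈ T
    · obtain ⟨T', haT', rfl⟩ : ∃ T', a ∉ T' ∧ insert a T' = T :=
        ⟨T.erase a, notMem_erase a T, insert_erase haT⟩
      have hT'U : T' ⊆ U := by
        intro y hy
        have := hT (mem_insert_of_mem hy)
        rcases mem_insert.mp this with h | h
        · exact absurd (h ▸ hy) haT'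
        · exact h
      have h1 : Ex U p (fun W => c ^ ((insert a T') \ W).card) =
          Ex U p (fun W => c ^ (T' \ W).card * c) := by
        refine Ex_congr (fun W hW => ?_)
        have haW : a ∉ W := fun h => ha (hW h)
        rw [insert_sdiff_of_notMem _ haW, card_insert_of_notMem
          (fun h => haT' (mem_sdiff.mp h).1), pow_succ]
      have h2 : Ex U p (fun W => c ^ ((insert a T') \ (insert a W)).card) =
          Ex U p (fun W => c ^ (T' \ W).card) := by
        refine Ex_congr (fun W hW => ?_)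
        have : (insert a T') \ (insert a W) = T' \ W := by
          ext y
          simp only [mem_sdiff, mem_insert]
          constructor
          · rintro ⟨h1 | h1, h2⟩
            · exact absurd (Or.inl h1) h2
            · exact ⟨h1, fun h => h2 (Or.inr h)⟩
          · rintro ⟨h1, h2⟩
            refine ⟨Or.inr h1, ?_⟩
            rintro (h | h)
            · exact haT' (h ▸ h1)
            · exact h2 h
        rw [this]
      rw [h1, h2, Ex_mul_const, ih T' hT'U, card_insert_of_notMem haT', pow_succ]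
      ring
    · have hTU : T ⊆ U := by
        intro y hy
        rcases mem_insert.mp (hT hy) with h | h
        · exact absurd (h ▸ hy) haT
        · exact h
      have h2 : Ex U p (fun W => c ^ (T \ (insert a W)).card) =
          Ex U p (fun W => c ^ (T \ W).card) := by
        refine Ex_congr (fun W hW => ?_)
        rw [sdiff_insert_of_notMem haT]
      rw [h2, ih T hTU]
      ring

/-- Monotonicity of expectations of decreasing functions in the density. -/
lemma Ex_anti {U : Finset X} {p p' : ℝ} (h0 : 0 ≤ p) (hpp : p ≤ p') (h1 : p' ≤ 1)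
    {f : Finset X → ℝ} (hf : ∀ W W' : Finset X, f (W ∪ W') ≤ f W) :
    Ex U p' f ≤ Ex U p f := by
  by_cases hp1 : p = 1
  · have : p' = p := by linarith
    rw [this]
  · have hlt : 0 < 1 - p := by
      have : p ≤ 1 := hpp.trans h1
      rcases lt_or_eq_of_le this with h | h
      · linarith
      · exact absurd h hp1
    set s : ℝ := (p' - p) / (1 - p) with hs
    have hs0 : 0 ≤ s := div_nonneg (by linarith) hlt.le
    have hs1 : s ≤ 1 := by rw [hs, div_le_one hlt]; linarith
    have hps : p' = p + s - p * s := by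
      rw [hs]; field_simp; ring
    rw [hps, ← Ex_union]
    refine Ex_mono h0 (hpp.trans h1) (fun W _ => ?_)
    have := Ex_mono (U := U) hs0 hs1 (f := fun W₂ => f (W ∪ W₂)) (g := fun _ => f W)
      (fun W₂ _ => hf W W₂)
    rwa [Ex_const] at this

end Expectation

end Vale.Agent.P064
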