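import Vale.Agent.P064.Graph

open Finset SimpleGraph MeasureTheory
open scoped Pointwise

namespace Vale.Agent.P064

variable {n : ℕ} {V : Type*} [Fintype V]

lemma copy_of_smul_subset (H : SimpleGraph V) (ι : V ↪ Fin n) (σ : Equiv.Perm (Fin n))
    (W : Finset (Sym2 (Fin n))) (h : σ • EH H ι ⊆ W) :
    0 < (fromEdgeSet (W : Set (Sym2 (Fin n)))).copyCount H := by
  rw [copyCount_pos]
  refine ⟨⟨⟨fun v => σ (ι v), ?_⟩, fun u v huv => ι.injective (σ.injective huv)⟩⟩
  intro u v huv
  rw [fromEdgeSet_adj]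
  refine ⟨?_, fun h => huv.ne (ι.injective (σ.injective h))⟩
  have h1 : s(ι u, ι v) ∈ EH H ι := (mem_EH H ι _).mpr ⟨u, v, huv, rfl⟩
  have h2 : σ • s(ι u, ι v) ∈ σ • EH H ι := smul_mem_smul_finset h1
  exact_mod_cast h h2

lemma pc_le_of_mem (H : SimpleGraph V) {p : ℝ} (hp : p ∈ Set.Icc (0 : ℝ) 1)
    (h : 1 / 2 ≤ (binomialRandom (Fin n) ⟨p, hp⟩).real {G | 0 < G.copyCount H}) :
    pc n H ≤ p := by
  unfold pc
  refine csInf_le ⟨0, ?_⟩ ⟨hp, h⟩
  rintro x ⟨hx, _⟩
  exact hx.1

/-- core threshold estimate -/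
lemma pc_le_of_spread (H : SimpleGraph V) (ι : V ↪ Fin n) {q : ℝ} (hq : 0 < q) (k : ℕ)
    (hk : 1 ≤ k)
    (hcard : (EH H ι).card < 2 ^ k)
    (hspread : ∀ g : Finset (Sym2 (Fin n)), mu (Equiv.Perm (Fin n)) g (EH H ι) ≤ q ^ g.card) :
    pc n H ≤ 16 * k * q := by
  classical
  have hN : (0 : ℝ) < (Fintype.card (Equiv.Perm (Fin n)) : ℝ) := card_pos_group
  have hk' : (1 : ℝ) ≤ k := by exact_mod_cast hk
  by_cases hq1 : 16 * q ≤ 1
  · set p' : ℝ := 16 * q with hp'
    have hp'0 : 0 < p' := by positivity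
    set p : ℝ := 1 - (1 - p') ^ k with hpdef
    have h1p' : 0 ≤ 1 - p' := by linarith
    have hp : p ∈ Set.Icc (0 : ℝ) 1 := by
      constructor
      · rw [hpdef, sub_nonneg]; exact pow_le_one₀ h1p' (by linarith)
      · have : 0 ≤ (1 - p') ^ k := pow_nonneg h1p' _
        rw [hpdef]; linarith
    have hfail := fail_bound (EE n) (p := p') (q := q)
      (M := (Fintype.card (Equiv.Perm (Fin n)) : ℝ)) (x := 1/16) hp'0 hq1 hq.le hN.le
      (by norm_num) (by norm_num) (by rw [hp']; linarith) k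
      (univ : Finset (Equiv.Perm (Fin n))) (fun σ => σ • EH H ι)
      (fun σ _ => (orb_subset_EE (EH H ι) _ (EH_subset_EE H ι) (mem_orb.mpr ⟨σ, rfl⟩)).1)
      (fun σ _ => by rw [card_smul_finset]; exact hcard)
      (by
        intro A
        have h1 := hspread A
        unfold mu at h1
        rw [div_le_iff₀ hN] at h1
        have h2 : (univ.filter (fun σ : Equiv.Perm (Fin n) => A ⊆ σ • EH H ι)).card =
            (univ.filter (fun σ : Equiv.Perm (Fin n) => σ • A ⊆ EH H ι)).card := by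
          refine card_bij (fun σ _ => σ⁻¹) ?_ ?_ ?_
          · intro σ hσ
            simp only [mem_filter, mem_univ, true_and] at hσ ⊢
            rw [← subset_smul_finset_iff]
            exact hσ
          · intro a _ b _ hab
            exact inv_injective hab
          · intro τ hτ
            refine ⟨τ⁻¹, ?_, inv_inv τ⟩
            simp only [mem_filter, mem_univ, true_and] at hτ ⊢
            rw [subset_smul_finset_iff, inv_inv]
            exact hτ
        rw [h2, mul_comm]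
        exact h1)
    rw [card_univ] at hfail
    have hfail2 : ∑ W ∈ (EE n).powerset, wt (EE n) p W *
        (if ∀ σ ∈ (univ : Finset (Equiv.Perm (Fin n))), ¬ σ • EH H ι ⊆ W then (1:ℝ) else 0) ≤
        1 / 2 := by
      have h := (le_of_mul_le_mul_right hfail hN).trans (sum_tower_le k)
      convert! h
    have hsucc : 1 / 2 ≤ (binomialRandom (Fin n) ⟨p, hp⟩).real {G | 0 < G.copyCount H} := by
      rw [real_eq]
      have hsum := sum_wt (EE n) p
      have hle : ∑ W ∈ (EE n).powerset, wt (EE n) p W ≤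
          ∑ W ∈ (EE n).powerset, (wt (EE n) p W *
            (if fromEdgeSet (W : Set (Sym2 (Fin n))) ∈
              {G : SimpleGraph (Fin n) | 0 < G.copyCount H} then 1 else 0) +
            wt (EE n) p W * (if ∀ σ ∈ (univ : Finset (Equiv.Perm (Fin n))),
              ¬ σ • EH H ι ⊆ W then (1:ℝ) else 0)) := by
        refine sum_le_sum (fun W _ => ?_)
        have hw := wt_nonneg (U := EE n) hp.1 hp.2 W
        by_cases hex : ∃ σ : Equiv.Perm (Fin n), σ • EH H ι ⊆ W
        · obtain ⟨σ, hσ⟩ := hex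
          have h3 := copy_of_smul_subset H ι σ W hσ
          have h4 : fromEdgeSet (W : Set (Sym2 (Fin n))) ∈
              {G : SimpleGraph (Fin n) | 0 < G.copyCount H} := h3
          rw [if_pos h4, mul_one]
          have : 0 ≤ wt (EE n) p W * (if ∀ σ ∈ (univ : Finset (Equiv.Perm (Fin n))),
              ¬ σ • EH H ι ⊆ W then (1:ℝ) else 0) := by
            refine mul_nonneg hw ?_
            split_ifs <;> norm_num
          linarith
        · have h5 : ∀ σ ∈ (univ : Finset (Equiv.Perm (Fin n))), ¬ σ • EH H ι ⊆ W :=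
            fun σ _ hσ => hex ⟨σ, hσ⟩
          rw [if_pos h5, mul_one]
          have : 0 ≤ wt (EE n) p W * (if fromEdgeSet (W : Set (Sym2 (Fin n))) ∈
              {G : SimpleGraph (Fin n) | 0 < G.copyCount H} then (1:ℝ) else 0) := by
            refine mul_nonneg hw ?_
            split_ifs <;> norm_num
          linarith
      rw [sum_add_distrib, hsum] at hle
      simp only at hle ⊢
      linarith
    have hpc := pc_le_of_mem H hp hsucc
    refine hpc.trans ?_
    have hb := one_add_mul_le_pow (a := -p') (by linarith) k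
    rw [hpdef]
    have : (1 + -p') ^ k = (1 - p') ^ k := by ring
    rw [this] at hb
    nlinarith
  · push Not at hq1
    have h1 : (1 : ℝ) ∈ Set.Icc (0 : ℝ) 1 := ⟨zero_le_one, le_refl _⟩
    have hpc : pc n H ≤ 1 := by
      refine pc_le_of_mem H h1 ?_
      rw [real_eq]
      have hE : EE n ∈ (EE n).powerset := by simp
      have hin : fromEdgeSet ((EE n : Finset (Sym2 (Fin n))) : Set (Sym2 (Fin n))) ∈
          {G : SimpleGraph (Fin n) | 0 < G.copyCount H} := by
        refine copy_of_smul_subset H ι 1 (EE n) ?_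
        rw [one_smul]; exact EH_subset_EE H ι
      have h2 := single_le_sum (f := fun W : Finset (Sym2 (Fin n)) => wt (EE n) (1:ℝ) W *
        (if fromEdgeSet (W : Set (Sym2 (Fin n))) ∈
              {G : SimpleGraph (Fin n) | 0 < G.copyCount H} then (1:ℝ) else 0))
        (s := (EE n).powerset) (fun W _ => by
          refine mul_nonneg (wt_nonneg (by norm_num) (by norm_num) _) ?_
          split_ifs <;> norm_num) hE
      rw [if_pos hin] at h2
      have h3 : wt (EE n) (1:ℝ) (EE n) = 1 := by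
        unfold wt; simp
      rw [h3] at h2
      linarith
    nlinarith

/-- main inequality for a fixed admissible `p`. -/
lemma pc_le_of_admissible (H : SimpleGraph V) (ι : V ↪ Fin n) (hH : H ≠ ⊥) (p : unitInterval)
    (hp : ∀ F : H.Subgraph, 1 / 2 ≤ ∫ G, (G.copyCount F.coe : ℝ) ∂(binomialRandom (Fin n) p)) :
    pc n H ≤ 128 * ((Nat.log 2 (EH H ι).card + 1 : ℕ) : ℝ) ^ 2 * (p : ℝ) := by
  set k := Nat.log 2 (EH H ι).card + 1 with hk
  have hcard : (EH H ι).card < 2 ^ k := Nat.lt_pow_succ_log_self (by norm_num) _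
  have hne : (EH H ι).Nonempty := by
    obtain ⟨u, v, huv⟩ := ne_bot_iff_exists_adj.mp hH
    exact ⟨s(ι u, ι v), (mem_EH H ι _).mpr ⟨u, v, huv, rfl⟩⟩
  have hrate := rate_bound p H ι hp
  have hp0 : 0 < (p : ℝ) := by
    rcases p.2.1.lt_or_eq with h | h
    · exact h
    · exfalso
      have h1 := (hp (subOf H ι (EH H ι) (Subset.refl _))).trans
        (expect_le p H ι (EH H ι) (Subset.refl _))
      rw [← h, zero_pow (card_pos.mpr hne).ne', mul_zero] at h1
      norm_num at h1
  have hspread := spread_of_rates (Γ := Equiv.Perm (Fin n)) (p := 2 * (p : ℝ)) (by positivity) k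
    (EH H ι) hcard hrate
  have hk1 : 1 ≤ k := by omega
  have hkpos : (0 : ℝ) < k := by exact_mod_cast hk1
  have := pc_le_of_spread H ι (q := 4 * k * (2 * (p : ℝ))) (by positivity) k hk1 hcard hspread
  calc pc n H ≤ 16 * k * (4 * k * (2 * (p : ℝ))) := this
    _ = _ := by ring

lemma card_EH_le (H : SimpleGraph V) (ι : V ↪ Fin n) :
    (EH H ι).card ≤ Nat.card H.edgeSet := by
  classical
  have h1 : EH H ι ⊆ (univ : Finset H.edgeSet).image (fun e : H.edgeSet => e.1.map ι) := by
    intro e he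
    obtain ⟨u, v, huv, rfl⟩ := (mem_EH H ι e).mp he
    rw [mem_image]
    exact ⟨⟨s(u, v), huv⟩, mem_univ _, rfl⟩
  refine (card_le_card h1).trans (card_image_le.trans ?_)
  rw [card_univ, Nat.card_eq_fintype_card]

lemma card_EH_ge (H : SimpleGraph V) (ι : V ↪ Fin n) :
    Nat.card H.edgeSet ≤ (EH H ι).card := by
  classical
  rw [Nat.card_eq_fintype_card, ← card_univ]
  refine card_le_card_of_injOn (fun e : H.edgeSet => (e : Sym2 V).map ι) ?_ ?_
  · rintro ⟨e, he⟩ _
    rw [mem_coe, mem_EH]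
    induction e using Sym2.ind with
    | _ a b => exact ⟨a, b, he, rfl⟩
  · intro a _ b _ hab
    exact Subtype.ext (Sym2.map.injective ι.injective hab)

lemma one_admissible (H : SimpleGraph V) (ι : V ↪ Fin n) (h1 : (1 : ℝ) ∈ Set.Icc (0 : ℝ) 1)
    (F : H.Subgraph) :
    1 / 2 ≤ ∫ G, (G.copyCount F.coe : ℝ) ∂(binomialRandom (Fin n) ⟨1, h1⟩) := by
  classical
  rw [integral_eq]
  have hE : EE n ∈ (EE n).powerset := by simp
  have h2 := single_le_sum (f := fun W : Finset (Sym2 (Fin n)) => wt (EE n) (1:ℝ) W *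
    ((fromEdgeSet (W : Set (Sym2 (Fin n)))).copyCount F.coe : ℝ))
    (s := (EE n).powerset) (fun W _ =>
      mul_nonneg (wt_nonneg (by norm_num) (by norm_num) _) (Nat.cast_nonneg _)) hE
  have h3 : wt (EE n) (1:ℝ) (EE n) = 1 := by
    unfold wt; simp
  have h4 : 0 < (fromEdgeSet ((EE n : Finset (Sym2 (Fin n))) : Set (Sym2 (Fin n)))).copyCount
      F.coe := by
    rw [copyCount_pos]
    refine ⟨⟨⟨fun v => ι v.1, ?_⟩, fun u v huv => Subtype.ext (ι.injective huv)⟩⟩
    intro u v huv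
    have hne : ι u.1 ≠ ι v.1 := fun h => huv.ne (Subtype.ext (ι.injective h))
    rw [fromEdgeSet_adj]
    refine ⟨?_, hne⟩
    rw [mem_coe, mem_EE, Sym2.mk_isDiag_iff]
    exact hne
  have h5 : (1 : ℝ) ≤ ((fromEdgeSet ((EE n : Finset (Sym2 (Fin n))) :
      Set (Sym2 (Fin n)))).copyCount F.coe : ℝ) := by exact_mod_cast h4
  simp only [h3, one_mul] at h2
  linarith

theorem pc_le_edges (H : SimpleGraph V) (hV : Fintype.card V ≤ n) (hH : H ≠ ⊥) :
    pc n H ≤ 128 * ((Nat.log 2 (Nat.card H.edgeSet) + 1 : ℕ) : ℝ) ^ 2 * pE n H := by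
  classical
  have hemb : Nonempty (V ↪ Fin n) := by
    apply Function.Embedding.nonempty_of_card_le
    rwa [Fintype.card_fin]
  obtain ⟨ι⟩ := hemb
  have hcard : (EH H ι).card = Nat.card H.edgeSet :=
    le_antisymm (card_EH_le H ι) (card_EH_ge H ι)
  set K : ℝ := 128 * ((Nat.log 2 (Nat.card H.edgeSet) + 1 : ℕ) : ℝ) ^ 2 with hK
  have hKpos : 0 < K := by rw [hK]; positivity
  have h : pc n H / K ≤ pE n H := by
    unfold pE
    refine le_csInf ?_ ?_
    · exact ⟨1, ⟨zero_le_one, le_refl _⟩, fun F => one_admissible H ι _ F⟩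
    · rintro p ⟨hp, hF⟩
      rw [div_le_iff₀ hKpos]
      have := pc_le_of_admissible H ι hH ⟨p, hp⟩ hF
      rw [hcard] at this
      rw [mul_comm]
      exact this
  rw [div_le_iff₀ hKpos] at h
  rw [mul_comm]
  exact h

lemma pE_nonneg (H : SimpleGraph V) : 0 ≤ pE n H := by
  unfold pE
  refine Real.sInf_nonneg ?_
  rintro p ⟨hp, _⟩
  exact hp.1

lemma log_edges_le (H : SimpleGraph V) (hV : Fintype.card V ≤ n) (hn : 2 ≤ n) (hH : H ≠ ⊥) :
    ((Nat.log 2 (Nat.card H.edgeSet) + 1 : ℕ) : ℝ) ≤ 3 / Real.log 2 * Real.log n := by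
  classical
  have hlog2 : 0 < Real.log 2 := Real.log_pos (by norm_num)
  have hnpos : (0 : ℝ) < n := by positivity
  have hlogn : Real.log 2 ≤ Real.log n := Real.log_le_log (by norm_num) (by exact_mod_cast hn)
  set m := Nat.card H.edgeSet with hm
  have hm1 : 1 ≤ m := by
    obtain ⟨u, v, huv⟩ := ne_bot_iff_exists_adj.mp hH
    have : Nonempty H.edgeSet := ⟨⟨s(u, v), huv⟩⟩
    exact Nat.card_pos
  have hm2 : m ≤ n ^ 2 := by
    obtain ⟨ι⟩ : Nonempty (V ↪ Fin n) := by
      apply Function.Embedding.nonempty_of_card_le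
      rwa [Fintype.card_fin]
    have h1 := (card_EH_ge H ι).trans (card_le_card (EH_subset_EE H ι))
    rw [card_EE] at h1
    refine h1.trans ?_
    exact Nat.choose_le_pow n 2
  have h3 : ((Nat.log 2 m : ℕ) : ℝ) ≤ 2 / Real.log 2 * Real.log n := by
    have h4 := Real.natLog_le_logb m 2
    refine h4.trans ?_
    rw [Real.logb]
    push_cast
    rw [div_mul_eq_mul_div, div_le_div_iff_of_pos_right hlog2]
    have h5 : Real.log m ≤ Real.log ((n : ℝ) ^ 2) := by
      apply Real.log_le_log (by exact_mod_cast hm1)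
      exact_mod_cast hm2
    rw [Real.log_pow] at h5
    exact_mod_cast h5
  have h6 : (1 : ℝ) ≤ 1 / Real.log 2 * Real.log n := by
    rw [div_mul_eq_mul_div, one_mul, one_le_div hlog2]
    exact hlogn
  push_cast
  calc ((Nat.log 2 m : ℕ) : ℝ) + 1 ≤ 2 / Real.log 2 * Real.log n + 1 / Real.log 2 * Real.log n :=
        add_le_add h3 h6
    _ = _ := by ring

theorem pc_le_log_sq (H : SimpleGraph V) (hV : Fintype.card V ≤ n) (hn : 2 ≤ n) (hH : H ≠ ⊥) :
    pc n H ≤ 2400 * pE n H * Real.log n ^ 2 := by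
  have h1 := pc_le_edges (n := n) H hV hH
  have h2 := log_edges_le H hV hn hH
  have h3 := pE_nonneg (n := n) H
  have hlog2 : 0 < Real.log 2 := Real.log_pos (by norm_num)
  have hk0 : (0 : ℝ) ≤ ((Nat.log 2 (Nat.card H.edgeSet) + 1 : ℕ) : ℝ) := Nat.cast_nonneg _
  have h4 : ((Nat.log 2 (Nat.card H.edgeSet) + 1 : ℕ) : ℝ) ^ 2 ≤
      (3 / Real.log 2 * Real.log n) ^ 2 := pow_le_pow_left₀ hk0 h2 2
  have h5 : 128 * (3 / Real.log 2) ^ 2 ≤ 2400 := by
    rw [div_pow, mul_div_assoc', div_le_iff₀ (by positivity)]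
    have h6 := Real.log_two_gt_d9
    nlinarith
  have hL : 0 ≤ Real.log n ^ 2 := sq_nonneg _
  calc pc n H ≤ 128 * ((Nat.log 2 (Nat.card H.edgeSet) + 1 : ℕ) : ℝ) ^ 2 * pE n H := h1
    _ ≤ 128 * (3 / Real.log 2 * Real.log n) ^ 2 * pE n H := by
        refine mul_le_mul_of_nonneg_right ?_ h3
        exact mul_le_mul_of_nonneg_left h4 (by norm_num)
    _ = (128 * (3 / Real.log 2) ^ 2) * (pE n H * Real.log n ^ 2) := by ring
    _ ≤ 2400 * (pE n H * Real.log n ^ 2) :=
        mul_le_mul_of_nonneg_right h5 (mul_nonneg h3 hL)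
    _ = _ := by ring

end Vale.Agent.P064
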