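import Vale.Agent.P064.Build
import Vale.Agent.P064.Main

open Finset SimpleGraph MeasureTheory
open scoped Pointwise

namespace Vale.Agent.P064

variable {n : ℕ} {V : Type*} [Fintype V]

lemma pc_le_one (H : SimpleGraph V) (ι : V ↪ Fin n) : pc n H ≤ 1 := by
  classical
  have h1 : (1 : ℝ) ∈ Set.Icc (0 : ℝ) 1 := ⟨zero_le_one, le_refl _⟩
  refine pc_le_of_mem H h1 ?_
  rw [real_eq]
  have hE : EE n ∈ (EE n).powerset := by simp
  have hin : fromEdgeSet ((EE n : Finset (Sym2 (Fin n))) : Set (Sym2 (Fin n))) ∈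
      {G : SimpleGraph (Fin n) | 0 < G.copyCount H} := by
    refine copy_of_smul_subset H ι 1 (EE n) ?_
    rw [one_smul]; exact EH_subset_EE H ι
  have h2 := single_le_sum (f := fun W : Finset (Sym2 (Fin n)) => wt (EE n) (1:ℝ) W *
    (if fromEdgeSet (W : Set (Sym2 (Fin n))) ∈
          {G : SimpleGraph (Fin n) | 0 < G.copyCount H} then (1:ℝ) else 0))
    (s := (EE n).powerset) (fun W _ => by
      refine mul_nonneg (wt_nonneg (by norm_num) (by norm_num) _) ?_
      split_ifs <;> norm_num) hE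
  rw [if_pos hin] at h2
  have h3 : wt (EE n) (1:ℝ) (EE n) = 1 := by
    unfold wt; simp
  rw [h3] at h2
  linarith

/-- If a density-`b` random set contains a copy with probability at least one half, then
`p_c ≤ b`. -/
lemma pc_le_of_fail (H : SimpleGraph V) (ι : V ↪ Fin n) {b : ℝ} (hb0 : 0 ≤ b) (hb1 : b ≤ 1)
    (hfail : Ex (EE n) b (fun W =>
      open scoped Classical in
      if ∃ π : Equiv.Perm (Fin n), π • EH H ι ⊆ W then (0:ℝ) else 1) ≤ 1 / 2) :
    pc n H ≤ b := by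
  classical
  have hp : b ∈ Set.Icc (0 : ℝ) 1 := ⟨hb0, hb1⟩
  refine pc_le_of_mem H hp ?_
  rw [real_eq]
  have hle : Ex (EE n) b (fun _ => (1:ℝ)) ≤ Ex (EE n) b (fun W =>
      (if fromEdgeSet (W : Set (Sym2 (Fin n))) ∈
              {G : SimpleGraph (Fin n) | 0 < G.copyCount H} then (1:ℝ) else 0) +
      (if ∃ π : Equiv.Perm (Fin n), π • EH H ι ⊆ W then (0:ℝ) else 1)) := by
    refine Ex_mono hb0 hb1 (fun W _ => ?_)
    by_cases hex : ∃ σ : Equiv.Perm (Fin n), σ • EH H ι ⊆ W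
    · obtain ⟨σ, hσ⟩ := hex
      have h3 := copy_of_smul_subset H ι σ W hσ
      have h4 : fromEdgeSet (W : Set (Sym2 (Fin n))) ∈
          {G : SimpleGraph (Fin n) | 0 < G.copyCount H} := h3
      rw [if_pos h4]
      have : (0:ℝ) ≤ (if ∃ π : Equiv.Perm (Fin n), π • EH H ι ⊆ W then (0:ℝ) else 1) := by
        split_ifs <;> norm_num
      linarith
    · rw [if_neg hex]
      have : (0:ℝ) ≤ (if fromEdgeSet (W : Set (Sym2 (Fin n))) ∈
              {G : SimpleGraph (Fin n) | 0 < G.copyCount H} then (1:ℝ) else 0) := by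
        split_ifs <;> norm_num
      linarith
  rw [Ex_const, Ex_add] at hle
  have hfail' : Ex (EE n) b (fun W =>
      if ∃ π : Equiv.Perm (Fin n), π • EH H ι ⊆ W then (0:ℝ) else 1) ≤ 1 / 2 := by
    refine le_trans (le_of_eq ?_) hfail
    refine Ex_congr (fun W _ => ?_)
    split_ifs <;> rfl
  have : 1 / 2 ≤ Ex (EE n) b (fun W =>
      (if fromEdgeSet (W : Set (Sym2 (Fin n))) ∈
              {G : SimpleGraph (Fin n) | 0 < G.copyCount H} then (1:ℝ) else 0)) := by
    linarith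
  exact this

/-- main inequality for a fixed admissible `p`. -/
lemma pc_le_of_admissible' (H : SimpleGraph V) (ι : V ↪ Fin n) (hH : H ≠ ⊥) (p : unitInterval)
    (hp : ∀ F : H.Subgraph, 1 / 2 ≤ ∫ G, (G.copyCount F.coe : ℝ) ∂(binomialRandom (Fin n) p)) :
    pc n H ≤ 2 ^ 84 * ((Nat.log 8 (EH H ι).card + 1 : ℕ) : ℝ) * (p : ℝ) := by
  classical
  set N := Nat.log 8 (EH H ι).card + 1 with hN
  have hcard : (EH H ι).card < 8 ^ N := Nat.lt_pow_succ_log_self (by norm_num) _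
  have hne : (EH H ι).Nonempty := by
    obtain ⟨u, v, huv⟩ := ne_bot_iff_exists_adj.mp hH
    exact ⟨s(ι u, ι v), (mem_EH H ι _).mpr ⟨u, v, huv, rfl⟩⟩
  have hrate := rate_bound p H ι hp
  have hp0 : 0 < (p : ℝ) := by
    rcases p.2.1.lt_or_eq with h | h
    · exact h
    · exfalso
      have h1 := (hp (subOf H ι (EH H ι) (Subset.refl _))).trans
        (expect_le p H ι (EH H ι) (Subset.refl _))
      rw [← h, zero_pow (card_pos.mpr hne).ne', mul_zero] at h1
      norm_num at h1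
  have hN1 : 1 ≤ N := by omega
  have hval : (2:ℝ) ^ 84 * (N : ℝ) * (p : ℝ) = 2 ^ 75 * N * (2 ^ 8 * (2 * (p : ℝ))) := by ring
  rw [hval]
  by_cases hb1 : (2:ℝ) ^ 75 * N * (2 ^ 8 * (2 * (p : ℝ))) ≤ 1
  · have hfail := action_bound (Γ := Equiv.Perm (Fin n)) (r := 2 * (p : ℝ)) (by positivity)
      (EH H ι) (EE n) hrate
      (fun π => (orb_subset_EE (EH H ι) _ (EH_subset_EE H ι) (mem_orb.mpr ⟨π, rfl⟩)).1)
      N hN1 hcard hb1
    refine pc_le_of_fail H ι (by positivity) hb1 ?_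
    refine le_trans (le_of_eq ?_) hfail
    refine Ex_congr (fun W _ => ?_)
    split_ifs <;> rfl
  · exact (pc_le_one H ι).trans (not_le.mp hb1).le

theorem pc_le_log_edges (H : SimpleGraph V) (hV : Fintype.card V ≤ n) (hH : H ≠ ⊥) :
    pc n H ≤ 2 ^ 84 * ((Nat.log 8 (Nat.card H.edgeSet) + 1 : ℕ) : ℝ) * pE n H := by
  classical
  have hemb : Nonempty (V ↪ Fin n) := by
    apply Function.Embedding.nonempty_of_card_le
    rwa [Fintype.card_fin]
  obtain ⟨ι⟩ := hemb
  have hcard : (EH H ι).card = Nat.card H.edgeSet :=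
    le_antisymm (card_EH_le H ι) (card_EH_ge H ι)
  set K : ℝ := 2 ^ 84 * ((Nat.log 8 (Nat.card H.edgeSet) + 1 : ℕ) : ℝ) with hK
  have hKpos : 0 < K := by rw [hK]; positivity
  have h : pc n H / K ≤ pE n H := by
    unfold pE
    refine le_csInf ?_ ?_
    · exact ⟨1, ⟨zero_le_one, le_refl _⟩, fun F => one_admissible H ι _ F⟩
    · rintro p ⟨hp, hF⟩
      rw [div_le_iff₀ hKpos]
      have := pc_le_of_admissible' H ι hH ⟨p, hp⟩ hF
      rw [hcard] at this
      rw [mul_comm]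
      exact this
  rw [div_le_iff₀ hKpos] at h
  rw [mul_comm]
  exact h

theorem pc_le_log (H : SimpleGraph V) (hV : Fintype.card V ≤ n) (hn : 2 ≤ n) (hH : H ≠ ⊥) :
    pc n H ≤ 2 ^ 87 * pE n H * Real.log n := by
  have h1 := pc_le_log_edges (n := n) H hV hH
  have h2 := log_edges_le H hV hn hH
  have h3 := pE_nonneg (n := n) H
  have hlog2 : 0 < Real.log 2 := Real.log_pos (by norm_num)
  have hlogn : 0 ≤ Real.log n := Real.log_natCast_nonneg n
  have h4 : ((Nat.log 8 (Nat.card H.edgeSet) + 1 : ℕ) : ℝ) ≤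
      ((Nat.log 2 (Nat.card H.edgeSet) + 1 : ℕ) : ℝ) := by
    have := Nat.log_anti_left (n := Nat.card H.edgeSet) (show 1 < 2 by norm_num)
      (show 2 ≤ 8 by norm_num)
    exact_mod_cast Nat.add_le_add_right this 1
  have h5 : 3 / Real.log 2 ≤ 8 := by
    rw [div_le_iff₀ hlog2]
    have h6 := Real.log_two_gt_d9
    linarith
  calc pc n H ≤ 2 ^ 84 * ((Nat.log 8 (Nat.card H.edgeSet) + 1 : ℕ) : ℝ) * pE n H := h1
    _ ≤ 2 ^ 84 * (3 / Real.log 2 * Real.log n) * pE n H := by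
        refine mul_le_mul_of_nonneg_right ?_ h3
        exact mul_le_mul_of_nonneg_left (h4.trans h2) (by norm_num)
    _ = (3 / Real.log 2) * (2 ^ 84 * (pE n H * Real.log n)) := by ring
    _ ≤ 8 * (2 ^ 84 * (pE n H * Real.log n)) :=
        mul_le_mul_of_nonneg_right h5 (mul_nonneg (by norm_num) (mul_nonneg h3 hlogn))
    _ = _ := by ring

end Vale.Agent.P064
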