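import Mathlib

open Finset

namespace Vale.Agent.P064

section Weights

variable {X : Type*} [DecidableEq X]

def wt (U : Finset X) (p : ℝ) (W : Finset X) : ℝ := p ^ W.card * (1 - p) ^ (U.card - W.card)

lemma wt_nonneg {U : Finset X} {p : ℝ} (h0 : 0 ≤ p) (h1 : p ≤ 1) (W : Finset X) :
    0 ≤ wt U p W := by
  unfold wt
  have : 0 ≤ 1 - p := by linarith
  positivity

lemma sum_wt (U : Finset X) (p : ℝ) : ∑ W ∈ U.powerset, wt U p W = 1 := by
  unfold wt
  rw [sum_pow_mul_eq_add_pow]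
  simp

lemma wt_insert_of_notMem {U W : Finset X} {a : X} (ha : a ∉ U) (hW : W ⊆ U) (p : ℝ) :
    wt (insert a U) p W = (1 - p) * wt U p W := by
  unfold wt
  have h1 := card_le_card hW
  rw [card_insert_of_notMem ha]
  have : U.card + 1 - W.card = (U.card - W.card) + 1 := by omega
  rw [this, pow_succ]; ring

lemma wt_insert_insert {U W : Finset X} {a : X} (ha : a ∉ U) (hW : W ⊆ U) (p : ℝ) :
    wt (insert a U) p (insert a W) = p * wt U p W := by
  unfold wt
  have haW : a ∉ W := fun h => ha (hW h)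
  rw [card_insert_of_notMem ha, card_insert_of_notMem haW]
  have : U.card + 1 - (W.card + 1) = (U.card - W.card) := by omega
  rw [this, pow_succ]; ring

/-- The union of two independent binomial random subsets. -/
lemma sum_wt_union (U : Finset X) (p p' : ℝ) : ∀ φ : Finset X → ℝ,
    ∑ W₁ ∈ U.powerset, ∑ W₂ ∈ U.powerset, wt U p W₁ * wt U p' W₂ * φ (W₁ ∪ W₂) =
      ∑ W ∈ U.powerset, wt U (p + p' - p * p') W * φ W := by
  induction U using Finset.induction_on with
  | empty => intro φ; simp [wt]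
  | insert a U ha ih =>
    intro φ
    have hmem : ∀ W ∈ U.powerset, W ⊆ U := fun W hW => mem_powerset.mp hW
    rw [sum_powerset_insert ha, sum_powerset_insert ha]
    have e1 : ∑ W₁ ∈ U.powerset, ∑ W₂ ∈ (insert a U).powerset,
        wt (insert a U) p W₁ * wt (insert a U) p' W₂ * φ (W₁ ∪ W₂) =
        (1 - p) * (1 - p') * ∑ W ∈ U.powerset, wt U (p + p' - p * p') W * φ W +
        (1 - p) * p' * ∑ W ∈ U.powerset, wt U (p + p' - p * p') W * φ (insert a W) := by
      rw [← ih φ, ← ih (fun W => φ (insert a W)), mul_sum, mul_sum, ← sum_add_distrib]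
      refine sum_congr rfl (fun W₁ hW₁ => ?_)
      rw [sum_powerset_insert ha, mul_sum, mul_sum]
      congr 1
      · refine sum_congr rfl (fun W₂ hW₂ => ?_)
        rw [wt_insert_of_notMem ha (hmem _ hW₁), wt_insert_of_notMem ha (hmem _ hW₂)]; ring
      · refine sum_congr rfl (fun W₂ hW₂ => ?_)
        rw [wt_insert_of_notMem ha (hmem _ hW₁), wt_insert_insert ha (hmem _ hW₂), union_insert]
        ring
    have e2 : ∑ W₁ ∈ U.powerset, ∑ W₂ ∈ (insert a U).powerset,
        wt (insert a U) p (insert a W₁) * wt (insert a U) p' W₂ * φ (insert a W₁ ∪ W₂) =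
        p * (1 - p') * ∑ W ∈ U.powerset, wt U (p + p' - p * p') W * φ (insert a W) +
        p * p' * ∑ W ∈ U.powerset, wt U (p + p' - p * p') W * φ (insert a W) := by
      rw [← ih (fun W => φ (insert a W)), mul_sum, mul_sum, ← sum_add_distrib]
      refine sum_congr rfl (fun W₁ hW₁ => ?_)
      rw [sum_powerset_insert ha, mul_sum, mul_sum]
      congr 1
      · refine sum_congr rfl (fun W₂ hW₂ => ?_)
        rw [wt_insert_insert ha (hmem _ hW₁), wt_insert_of_notMem ha (hmem _ hW₂), insert_union]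
        ring
      · refine sum_congr rfl (fun W₂ hW₂ => ?_)
        rw [wt_insert_insert ha (hmem _ hW₁), wt_insert_insert ha (hmem _ hW₂), insert_union,
          union_insert, insert_idem]
        ring
    rw [e1, e2]
    have e3 : ∑ W ∈ U.powerset, wt (insert a U) (p + p' - p * p') W * φ W =
        (1 - p) * (1 - p') * ∑ W ∈ U.powerset, wt U (p + p' - p * p') W * φ W := by
      rw [mul_sum]
      refine sum_congr rfl (fun W hW => ?_)
      rw [wt_insert_of_notMem ha (hmem _ hW)]; ring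
    have e4 : ∑ W ∈ U.powerset, wt (insert a U) (p + p' - p * p') (insert a W) *
        φ (insert a W) =
        (p + p' - p * p') * ∑ W ∈ U.powerset, wt U (p + p' - p * p') W * φ (insert a W) := by
      rw [mul_sum]
      refine sum_congr rfl (fun W hW => ?_)
      rw [wt_insert_insert ha (hmem _ hW)]; ring
    rw [e3, e4]
    ring

end Weights

section Fragments

variable {X ι : Type*} [DecidableEq X] [DecidableEq ι]

lemma exists_frag (I : Finset ι) (S : ι → Finset X) (W : Finset X) :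
    ∃ T : ι → Finset X, ∀ i ∈ I, (∃ j ∈ I, T i = S j \ W ∧ S j ⊆ W ∪ S i) ∧
      ∀ j ∈ I, S j ⊆ W ∪ S i → (T i).card ≤ (S j \ W).card := by
  classical
  have : ∀ i, ∃ T : Finset X, i ∈ I → ((∃ j ∈ I, T = S j \ W ∧ S j ⊆ W ∪ S i) ∧
      ∀ j ∈ I, S j ⊆ W ∪ S i → T.card ≤ (S j \ W).card) := by
    intro i
    by_cases hi : i ∈ I
    · obtain ⟨j, hj, hmin⟩ := exists_min_image (I.filter (fun j => S j ⊆ W ∪ S i))
        (fun j => (S j \ W).card) ⟨i, by simp [hi]⟩
      rw [mem_filter] at hj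
      refine ⟨S j \ W, fun _ => ⟨⟨j, hj.1, rfl, hj.2⟩, fun j' hj' hs => ?_⟩⟩
      exact hmin j' (by simp [hj', hs])
    · exact ⟨∅, fun h => absurd h hi⟩
  choose T hT using this
  exact ⟨T, fun i hi => hT i hi⟩

/-- The bad-count bound. -/
lemma bad_bound (U : Finset X) {p q M x : ℝ} (hp : 0 < p) (hp1 : p ≤ 1) (hq : 0 ≤ q)
    (hM : 0 ≤ M) (hx0 : 0 ≤ x) (hx1 : x ≤ 1) (hx : q ≤ x * p) (k : ℕ) (I : Finset ι)
    (S : ι → Finset X) (hSU : ∀ i ∈ I, S i ⊆ U) (hS : ∀ i ∈ I, (S i).card < 2 ^ (k + 1))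
    (hspread : ∀ A : Finset X, ((I.filter (fun i => A ⊆ S i)).card : ℝ) ≤ M * q ^ A.card)
    (T : Finset X → ι → Finset X)
    (hT : ∀ W, ∀ i ∈ I, (∃ j ∈ I, T W i = S j \ W ∧ S j ⊆ W ∪ S i) ∧
      ∀ j ∈ I, S j ⊆ W ∪ S i → (T W i).card ≤ (S j \ W).card) :
    ∑ W ∈ U.powerset, wt U p W * ((I.filter (fun i => 2 ^ k ≤ (T W i).card)).card : ℝ) ≤
      (4 * x) ^ (2 ^ k) * M := by
  classical
  have hp' : 0 ≤ 1 - p := by linarith
  -- choose R Z
  have hR : ∀ Z : Finset X, ∃ R : Finset X, (R.card < 2 ^ (k + 1)) ∧ (R ⊆ U) ∧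
      ((∃ j ∈ I, S j ⊆ Z) → ∃ j ∈ I, R = S j ∧ S j ⊆ Z) := by
    intro Z
    by_cases h : ∃ j ∈ I, S j ⊆ Z
    · obtain ⟨j, hj, hjZ⟩ := h
      exact ⟨S j, hS j hj, hSU j hj, fun _ => ⟨j, hj, rfl, hjZ⟩⟩
    · exact ⟨∅, by simp, by simp, fun h' => absurd h' h⟩
  choose R hRcard hRU hRex using hR
  set r : ℝ := (1 - p) / p with hr
  have hr0 : 0 ≤ r := div_nonneg hp' hp.le
  have hqr : q * r ≤ x := by
    rw [hr, mul_div_assoc', div_le_iff₀ hp]
    calc q * (1 - p) ≤ (x * p) * (1 - p) := mul_le_mul_of_nonneg_right hx hp'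
      _ ≤ (x * p) * 1 := mul_le_mul_of_nonneg_left (by linarith) (by positivity)
      _ = x * p := by ring
  have hqr0 : 0 ≤ q * r := mul_nonneg hq hr0
  -- source set
  set A : Finset (Finset X × ι) :=
    (U.powerset ×ˢ I).filter (fun a => 2 ^ k ≤ (T a.1 a.2).card) with hA
  set B : Finset (Finset X × Finset X × ι) :=
    (U.powerset ×ˢ U.powerset ×ˢ I).filter
      (fun b => b.2.1 ⊆ R b.1 ∧ 2 ^ k ≤ b.2.1.card ∧ b.2.1 ⊆ S b.2.2) with hB
  set e : Finset X × ι → Finset X × Finset X × ι :=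
    fun a => (a.1 ∪ T a.1 a.2, T a.1 a.2, a.2) with he
  set gB : Finset X × Finset X × ι → ℝ := fun b => wt U p b.1 * r ^ b.2.1.card with hgB
  have hgB0 : ∀ b, 0 ≤ gB b := by
    intro b; rw [hgB]; exact mul_nonneg (wt_nonneg hp.le hp1 _) (pow_nonneg hr0 _)
  have hTprop : ∀ a ∈ A, T a.1 a.2 ⊆ S a.2 ∧ Disjoint a.1 (T a.1 a.2) ∧ T a.1 a.2 ⊆ U ∧
      (∃ j ∈ I, T a.1 a.2 = S j \ a.1 ∧ S j ⊆ a.1 ∪ S a.2) ∧ a.1 ⊆ U ∧ a.2 ∈ I := by
    intro a ha
    rw [hA, mem_filter, mem_product, mem_powerset] at ha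
    obtain ⟨⟨haU, haI⟩, _⟩ := ha
    obtain ⟨⟨j, hj, hTj, hjs⟩, _⟩ := hT a.1 a.2 haI
    have h1 : T a.1 a.2 ⊆ S a.2 := by
      rw [hTj]
      intro y hy
      rw [mem_sdiff] at hy
      rcases mem_union.mp (hjs hy.1) with h | h
      · exact absurd h hy.2
      · exact h
    refine ⟨h1, ?_, h1.trans (hSU _ haI), ⟨j, hj, hTj, hjs⟩, haU, haI⟩
    rw [hTj]; exact disjoint_sdiff
  have hinj : Set.InjOn e (A : Set (Finset X × ι)) := by
    intro a ha b hb hab
    have ha' := hTprop a (mem_coe.mp ha)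
    have hb' := hTprop b (mem_coe.mp hb)
    simp only [he, Prod.mk.injEq] at hab
    obtain ⟨h1, h2, h3⟩ := hab
    have e1 : a.1 = (a.1 ∪ T a.1 a.2) \ T a.1 a.2 := by
      rw [union_sdiff_right, sdiff_eq_self_of_disjoint ha'.2.1]
    have e2 : b.1 = (b.1 ∪ T b.1 b.2) \ T b.1 b.2 := by
      rw [union_sdiff_right, sdiff_eq_self_of_disjoint hb'.2.1]
    have : a.1 = b.1 := by rw [e1, e2, h1, h2]
    exact Prod.ext this h3
  have hmaps : ∀ a ∈ A, e a ∈ B := by
    intro a ha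
    have ha' := hTprop a ha
    obtain ⟨hTS, hdisj, hTU, ⟨j, hj, hTj, hjs⟩, haU, haI⟩ := ha'
    have hak : 2 ^ k ≤ (T a.1 a.2).card := by
      rw [hA, mem_filter] at ha; exact ha.2
    rw [hB, mem_filter]
    refine ⟨?_, ?_, hak, hTS⟩
    · simp only [he, mem_product, mem_powerset]
      exact ⟨union_subset haU hTU, hTU, haI⟩
    · simp only [he]
      -- R Z
      have hex : ∃ j ∈ I, S j ⊆ a.1 ∪ T a.1 a.2 := by
        refine ⟨j, hj, ?_⟩
        rw [hTj]
        intro y hy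
        by_cases hya : y ∈ a.1
        · exact mem_union_left _ hya
        · exact mem_union_right _ (mem_sdiff.mpr ⟨hy, hya⟩)
      obtain ⟨j', hj', hRj', hj'Z⟩ := hRex _ hex
      rw [hRj']
      have h1 : S j' ⊆ a.1 ∪ S a.2 := hj'Z.trans (union_subset_union_right hTS)
      have h2 := (hT a.1 a.2 haI).2 j' hj' h1
      have h3 : S j' \ a.1 ⊆ T a.1 a.2 := by
        intro y hy
        rw [mem_sdiff] at hy
        rcases mem_union.mp (hj'Z hy.1) with h | h
        · exact absurd h hy.2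
        · exact h
      have h4 : S j' \ a.1 = T a.1 a.2 := eq_of_subset_of_card_le h3 h2
      rw [← h4]; exact sdiff_subset
  have hval : ∀ a ∈ A, wt U p a.1 = gB (e a) := by
    intro a ha
    obtain ⟨hTS, hdisj, hTU, _, haU, haI⟩ := hTprop a ha
    simp only [hgB, he, wt]
    have hc : (a.1 ∪ T a.1 a.2).card = a.1.card + (T a.1 a.2).card :=
      card_union_of_disjoint hdisj
    have hle : (a.1 ∪ T a.1 a.2).card ≤ U.card := card_le_card (union_subset haU hTU)
    rw [hc] at hle ⊢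
    have h5 : U.card - a.1.card = (U.card - (a.1.card + (T a.1 a.2).card)) +
        (T a.1 a.2).card := by omega
    rw [h5, pow_add, pow_add, hr, div_pow]
    field_simp
  have hstep1 : ∑ W ∈ U.powerset, wt U p W *
      ((I.filter (fun i => 2 ^ k ≤ (T W i).card)).card : ℝ) = ∑ a ∈ A, wt U p a.1 := by
    rw [hA, sum_filter, sum_product]
    refine sum_congr rfl (fun W _ => ?_)
    rw [← sum_filter]
    have : ∑ a ∈ I.filter (fun a => 2 ^ k ≤ (T W a).card), wt U p W =
        wt U p W * ((I.filter (fun i => 2 ^ k ≤ (T W i).card)).card : ℝ) := by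
      rw [sum_const, nsmul_eq_mul, mul_comm]
    exact this.symm
  have hstep2 : ∑ a ∈ A, wt U p a.1 ≤ ∑ b ∈ B, gB b := by
    calc ∑ a ∈ A, wt U p a.1 = ∑ a ∈ A, gB (e a) := sum_congr rfl hval
      _ = ∑ b ∈ A.image e, gB b := by
          rw [sum_image]
          intro a ha b hb hab
          exact hinj ha hb hab
      _ ≤ ∑ b ∈ B, gB b := by
          refine sum_le_sum_of_subset_of_nonneg ?_ (fun b _ _ => hgB0 b)
          intro b hb
          rw [mem_image] at hb
          obtain ⟨a, ha, rfl⟩ := hb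
          exact hmaps a ha
  have hstep3 : ∑ b ∈ B, gB b ≤ ∑ Z ∈ U.powerset, wt U p Z * ((4 * x) ^ (2 ^ k) * M) := by
    rw [hB, sum_filter, sum_product]
    refine sum_le_sum (fun Z hZ => ?_)
    rw [sum_product]
    have hinner : ∀ T' ∈ U.powerset, ∑ i ∈ I,
        (if T' ⊆ R Z ∧ 2 ^ k ≤ T'.card ∧ T' ⊆ S i then gB (Z, T', i) else 0) ≤
        if T' ⊆ R Z ∧ 2 ^ k ≤ T'.card then wt U p Z * (M * x ^ (2 ^ k)) else 0 := by
      intro T' _
      by_cases hc : T' ⊆ R Z ∧ 2 ^ k ≤ T'.card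
      · rw [if_pos hc]
        have : ∑ i ∈ I,
            (if T' ⊆ R Z ∧ 2 ^ k ≤ T'.card ∧ T' ⊆ S i then gB (Z, T', i) else 0) =
            ((I.filter (fun i => T' ⊆ S i)).card : ℝ) * (wt U p Z * r ^ T'.card) := by
          rw [← nsmul_eq_mul, ← sum_const, sum_filter]
          refine sum_congr rfl (fun i _ => ?_)
          simp only [hc.1, hc.2, true_and, hgB]
        rw [this]
        have hw := wt_nonneg (U := U) hp.le hp1 Z
        calc ((I.filter (fun i => T' ⊆ S i)).card : ℝ) * (wt U p Z * r ^ T'.card)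
            ≤ (M * q ^ T'.card) * (wt U p Z * r ^ T'.card) :=
              mul_le_mul_of_nonneg_right (hspread T') (mul_nonneg hw (pow_nonneg hr0 _))
          _ = wt U p Z * (M * (q * r) ^ T'.card) := by rw [mul_pow]; ring
          _ ≤ wt U p Z * (M * x ^ T'.card) := by
              refine mul_le_mul_of_nonneg_left (mul_le_mul_of_nonneg_left ?_ hM) hw
              exact pow_le_pow_left₀ hqr0 hqr _
          _ ≤ wt U p Z * (M * x ^ (2 ^ k)) := by
              refine mul_le_mul_of_nonneg_left (mul_le_mul_of_nonneg_left ?_ hM) hw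
              exact pow_le_pow_of_le_one hx0 hx1 hc.2
      · rw [if_neg hc]
        refine le_of_eq (sum_eq_zero (fun i _ => ?_))
        rw [if_neg]
        rintro ⟨h1, h2, _⟩
        exact hc ⟨h1, h2⟩
    refine (sum_le_sum hinner).trans ?_
    rw [← sum_filter, sum_const, nsmul_eq_mul]
    have hcount : ((U.powerset.filter (fun T' => T' ⊆ R Z ∧ 2 ^ k ≤ T'.card)).card : ℝ) ≤
        4 ^ (2 ^ k) := by
      have h1 : U.powerset.filter (fun T' => T' ⊆ R Z ∧ 2 ^ k ≤ T'.card) ⊆ (R Z).powerset := by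
        intro T' hT'
        rw [mem_filter] at hT'
        exact mem_powerset.mpr hT'.2.1
      have h2 := card_le_card h1
      rw [card_powerset] at h2
      have h3 : 2 ^ (R Z).card ≤ 2 ^ (2 ^ (k + 1)) :=
        Nat.pow_le_pow_right (by norm_num) (hRcard Z).le
      have h4 : (2:ℕ) ^ (2 ^ (k + 1)) = 4 ^ (2 ^ k) := by
        rw [pow_succ 2 k, mul_comm, pow_mul]; norm_num
      have h5 := h2.trans (h3.trans h4.le)
      exact_mod_cast h5
    have hw := wt_nonneg (U := U) hp.le hp1 Z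
    calc ((U.powerset.filter (fun T' => T' ⊆ R Z ∧ 2 ^ k ≤ T'.card)).card : ℝ) *
          (wt U p Z * (M * x ^ (2 ^ k)))
        ≤ 4 ^ (2 ^ k) * (wt U p Z * (M * x ^ (2 ^ k))) :=
          mul_le_mul_of_nonneg_right hcount (by positivity)
      _ = wt U p Z * ((4 * x) ^ (2 ^ k) * M) := by rw [mul_pow]; ring
  rw [hstep1]
  refine hstep2.trans (hstep3.trans (le_of_eq ?_))
  rw [← sum_mul, sum_wt, one_mul]

/-- failure probability bound -/
theorem fail_bound (U : Finset X) {p q M x : ℝ} (hp : 0 < p) (hp1 : p ≤ 1) (hq : 0 ≤ q)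
    (hM : 0 ≤ M) (hx0 : 0 ≤ x) (hx1 : x ≤ 1) (hx : q ≤ x * p) (k : ℕ) :
    ∀ (I : Finset ι) (S : ι → Finset X), (∀ i ∈ I, S i ⊆ U) → (∀ i ∈ I, (S i).card < 2 ^ k) →
    (∀ A : Finset X, ((I.filter (fun i => A ⊆ S i)).card : ℝ) ≤ M * q ^ A.card) →
    (∑ W ∈ U.powerset, wt U (1 - (1 - p) ^ k) W *
      (if ∀ i ∈ I, ¬ S i ⊆ W then (1:ℝ) else 0)) * (I.card : ℝ) ≤
      (∑ j ∈ range k, (4 * x) ^ (2 ^ j)) * M := by
  classical
  induction k with
  | zero =>
    intro I S _ hS _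
    simp only [range_zero, sum_empty, zero_mul]
    by_cases hI : I = ∅
    · subst hI; simp
    · obtain ⟨i, hi⟩ := nonempty_iff_ne_empty.mpr hI
      have hSi : S i = ∅ := by
        have := hS i hi
        rw [pow_zero, Nat.lt_one_iff, card_eq_zero] at this
        exact this
      have : ∀ W, (if ∀ i ∈ I, ¬ S i ⊆ W then (1:ℝ) else 0) = 0 := by
        intro W
        rw [if_neg]
        intro h
        exact h i hi (by rw [hSi]; exact empty_subset _)
      simp [this]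
  | succ k ih =>
    intro I S hSU hS hspread
    have hp' : 0 ≤ 1 - p := by linarith
    set pk : ℝ := 1 - (1 - p) ^ k with hpk
    have hpk0 : 0 ≤ pk := by
      rw [hpk, sub_nonneg]
      exact pow_le_one₀ hp' (by linarith)
    have hpk1 : pk ≤ 1 := by
      rw [hpk]
      have : 0 ≤ (1 - p) ^ k := pow_nonneg hp' _
      linarith
    have hcomb : 1 - (1 - p) ^ (k + 1) = p + pk - p * pk := by
      rw [hpk, pow_succ]; ring
    rw [hcomb, ← sum_wt_union]
    have hfr : ∀ W : Finset X, ∃ T : ι → Finset X, ∀ i ∈ I,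
      (∃ j ∈ I, T i = S j \ W ∧ S j ⊆ W ∪ S i) ∧
      ∀ j ∈ I, S j ⊆ W ∪ S i → (T i).card ≤ (S j \ W).card := fun W => exists_frag I S W
    choose T hT using hfr
    have hTS : ∀ W, ∀ i ∈ I, T W i ⊆ S i := by
      intro W i hi
      obtain ⟨⟨j, hj, hTj, hjs⟩, _⟩ := hT W i hi
      rw [hTj]
      intro y hy
      rw [mem_sdiff] at hy
      rcases mem_union.mp (hjs hy.1) with h | h
      · exact absurd h hy.2
      · exact h
    set E : ℝ := (∑ j ∈ range k, (4 * x) ^ (2 ^ j)) * M with hE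
    have hbad := bad_bound U hp hp1 hq hM hx0 hx1 hx k I S hSU hS hspread T hT
    -- inner bound
    have hinner : ∀ W₁ ∈ U.powerset, (∑ W₂ ∈ U.powerset, wt U pk W₂ *
        (if ∀ i ∈ I, ¬ S i ⊆ W₁ ∪ W₂ then (1:ℝ) else 0)) * (I.card : ℝ) ≤
        E + ((I.filter (fun i => 2 ^ k ≤ (T W₁ i).card)).card : ℝ) := by
      intro W₁ _
      set I' := I.filter (fun i => (T W₁ i).card < 2 ^ k) with hI'
      set B := I.filter (fun i => 2 ^ k ≤ (T W₁ i).card) with hB
      have hcard : (I.card : ℝ) = (I'.card : ℝ) + (B.card : ℝ) := by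
        have h := card_filter_add_card_filter_not (s := I) (fun i => (T W₁ i).card < 2 ^ k)
        have h2 : I.filter (fun i => ¬ (T W₁ i).card < 2 ^ k) = B := by
          rw [hB]; refine filter_congr (fun i _ => ?_); exact not_lt
        rw [h2] at h
        rw [← h]; push_cast; rfl
      have hI'sub : ∀ i ∈ I', i ∈ I := fun i hi => (mem_filter.mp hi).1
      have hih := ih I' (T W₁) (fun i hi => (hTS W₁ i (hI'sub i hi)).trans (hSU i (hI'sub i hi)))
        (fun i hi => (mem_filter.mp hi).2) (by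
          intro A
          refine le_trans ?_ (hspread A)
          have : (I'.filter (fun i => A ⊆ T W₁ i)) ⊆ (I.filter (fun i => A ⊆ S i)) := by
            intro i hi
            rw [mem_filter] at hi ⊢
            exact ⟨hI'sub i hi.1, hi.2.trans (hTS W₁ i (hI'sub i hi.1))⟩
          exact_mod_cast card_le_card this)
      set f' : ℝ := ∑ W ∈ U.powerset, wt U pk W *
        (if ∀ i ∈ I', ¬ T W₁ i ⊆ W then (1:ℝ) else 0) with hf'
      have hf'1 : f' ≤ 1 := by
        have hs := sum_wt U pk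
        rw [← hs, hf']
        refine sum_le_sum (fun W _ => ?_)
        have hw := wt_nonneg (U := U) hpk0 hpk1 W
        by_cases hc : ∀ i ∈ I', ¬ T W₁ i ⊆ W
        · rw [if_pos hc]; exact (mul_one _).le
        · rw [if_neg hc, mul_zero]; exact hw
      have hle : (∑ W₂ ∈ U.powerset, wt U pk W₂ *
        (if ∀ i ∈ I, ¬ S i ⊆ W₁ ∪ W₂ then (1:ℝ) else 0)) ≤ f' := by
        rw [hf']
        refine sum_le_sum (fun W _ => ?_)
        have hw := wt_nonneg (U := U) hpk0 hpk1 W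
        by_cases h1 : ∀ i ∈ I, ¬ S i ⊆ W₁ ∪ W
        · have h2 : ∀ i ∈ I', ¬ T W₁ i ⊆ W := by
            intro i hi hTW
            obtain ⟨⟨j, hj, hTj, _⟩, _⟩ := hT W₁ i (hI'sub i hi)
            apply h1 j hj
            intro y hy
            by_cases hyW : y ∈ W₁
            · exact mem_union_left _ hyW
            · refine mem_union_right _ (hTW ?_)
              rw [hTj, mem_sdiff]; exact ⟨hy, hyW⟩
          rw [if_pos h1, if_pos h2]
        · rw [if_neg h1, mul_zero]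
          split_ifs
          · rw [mul_one]; exact hw
          · rw [mul_zero]
      calc _ ≤ f' * (I.card : ℝ) := mul_le_mul_of_nonneg_right hle (Nat.cast_nonneg _)
        _ = f' * (I'.card : ℝ) + f' * (B.card : ℝ) := by rw [hcard]; ring
        _ ≤ E + 1 * (B.card : ℝ) :=
            add_le_add hih (mul_le_mul_of_nonneg_right hf'1 (Nat.cast_nonneg _))
        _ = _ := by rw [one_mul]
    calc (∑ W₁ ∈ U.powerset, ∑ W₂ ∈ U.powerset, wt U p W₁ * wt U pk W₂ *
          (if ∀ i ∈ I, ¬ S i ⊆ W₁ ∪ W₂ then (1:ℝ) else 0)) * (I.card : ℝ)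
        = ∑ W₁ ∈ U.powerset, wt U p W₁ * ((∑ W₂ ∈ U.powerset, wt U pk W₂ *
          (if ∀ i ∈ I, ¬ S i ⊆ W₁ ∪ W₂ then (1:ℝ) else 0)) * (I.card : ℝ)) := by
          rw [sum_mul]
          refine sum_congr rfl (fun W₁ _ => ?_)
          rw [← mul_assoc, mul_sum]
          congr 1
          refine sum_congr rfl (fun W₂ _ => by ring)
      _ ≤ ∑ W₁ ∈ U.powerset, wt U p W₁ *
          (E + ((I.filter (fun i => 2 ^ k ≤ (T W₁ i).card)).card : ℝ)) := by
          refine sum_le_sum (fun W₁ hW₁ => ?_)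
          exact mul_le_mul_of_nonneg_left (hinner W₁ hW₁) (wt_nonneg hp.le hp1 _)
      _ = E + ∑ W₁ ∈ U.powerset, wt U p W₁ *
          ((I.filter (fun i => 2 ^ k ≤ (T W₁ i).card)).card : ℝ) := by
          simp_rw [mul_add]
          rw [sum_add_distrib, ← sum_mul, sum_wt, one_mul]
      _ ≤ E + (4 * x) ^ (2 ^ k) * M := by linarith
      _ = (∑ j ∈ range (k + 1), (4 * x) ^ (2 ^ j)) * M := by
          rw [sum_range_succ, hE]; ring

lemma sum_tower_le (k : ℕ) : ∑ j ∈ range k, (4 * (1/16 : ℝ)) ^ (2 ^ j) ≤ 1 / 2 := by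
  have h : ∀ j : ℕ, (4 * (1/16 : ℝ)) ^ (2 ^ j) ≤ (1/4) * (1/4) ^ j := by
    intro j
    have h1 : j + 1 ≤ 2 ^ j := by
      have := Nat.lt_two_pow_self (n := j)
      omega
    calc (4 * (1/16 : ℝ)) ^ (2 ^ j) = (1/4 : ℝ) ^ (2 ^ j) := by norm_num
      _ ≤ (1/4 : ℝ) ^ (j + 1) := pow_le_pow_of_le_one (by norm_num) (by norm_num) h1
      _ = _ := by rw [pow_succ]; ring
  calc ∑ j ∈ range k, (4 * (1/16 : ℝ)) ^ (2 ^ j) ≤ ∑ j ∈ range k, (1/4) * (1/4 : ℝ) ^ j :=
        sum_le_sum (fun j _ => h j)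
    _ = (1/4) * ∑ j ∈ range k, (1/4 : ℝ) ^ j := by rw [mul_sum]
    _ ≤ 1/2 := by
        rw [geom_sum_eq (by norm_num)]
        have : 0 ≤ (1/4 : ℝ) ^ k := by positivity
        have h4 : ((1/4 : ℝ) ^ k - 1) / (1/4 - 1) = (4/3) * (1 - (1/4 : ℝ) ^ k) := by ring
        rw [h4]; nlinarith

end Fragments

end Vale.Agent.P064
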