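import Vale.Agent.P064.Defs
import Vale.Agent.P064.Spread
import Vale.Agent.P064.Threshold

open Finset SimpleGraph MeasureTheory
open scoped Pointwise

namespace Vale.Agent.P064

/-- permutations act on unordered pairs -/
instance permSym2 (α : Type*) : MulAction (Equiv.Perm α) (Sym2 α) where
  smul σ e := e.map σ
  one_smul e := by
    show Sym2.map (⇑(1 : Equiv.Perm α)) e = e
    simp
  mul_smul σ τ e := by
    show Sym2.map (⇑(σ * τ)) e = Sym2.map σ (Sym2.map τ e)
    rw [Sym2.map_map]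
    rfl

lemma perm_smul_def {α : Type*} (σ : Equiv.Perm α) (e : Sym2 α) : σ • e = e.map σ := rfl

lemma perm_smul_mk {α : Type*} (σ : Equiv.Perm α) (u v : α) :
    σ • (s(u, v) : Sym2 α) = s(σ u, σ v) := rfl

variable {n : ℕ}

lemma msc : MeasurableSingletonClass (SimpleGraph (Fin n)) := by
  constructor
  intro G
  have : ({G} : Set (SimpleGraph (Fin n))) = edgeSet ⁻¹' {G.edgeSet} := by
    ext G'
    simp
  rw [this]
  exact measurable_edgeSet (measurableSet_singleton _)

/-- ground set: edges of the complete graph -/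
noncomputable def EE (n : ℕ) : Finset (Sym2 (Fin n)) := by
  classical exact univ.filter (fun e => ¬ e.IsDiag)

lemma mem_EE (e : Sym2 (Fin n)) : e ∈ EE n ↔ ¬ e.IsDiag := by
  unfold EE; simp

lemma card_EE : (EE n).card = n.choose 2 := by
  classical
  have h := Sym2.card_subtype_not_diag (α := Fin n)
  rw [Fintype.card_fin] at h
  rw [← h, Fintype.card_subtype]
  unfold EE
  congr

lemma real_singleton (p : unitInterval) (W : Finset (Sym2 (Fin n))) (hW : W ⊆ EE n) :
    (binomialRandom (Fin n) p).real {fromEdgeSet (W : Set (Sym2 (Fin n)))} =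
      wt (EE n) (p : ℝ) W := by
  classical
  have hes : (fromEdgeSet (W : Set (Sym2 (Fin n)))).edgeSet = (W : Set (Sym2 (Fin n))) := by
    rw [edgeSet_fromEdgeSet]
    ext e
    simp only [Set.mem_sdiff, mem_coe]
    constructor
    · exact fun h => h.1
    · intro h
      refine ⟨h, ?_⟩
      have := (mem_EE e).mp (hW h)
      simpa using this
  rw [measureReal_def, binomialRandom_singleton, hes, Set.ncard_coe_finset, Nat.card_eq_fintype_card,
    Fintype.card_fin]
  unfold wt
  rw [card_EE]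
  rw [ENNReal.toReal_mul, ENNReal.toReal_pow, ENNReal.toReal_pow]
  simp

lemma sum_graph (f : SimpleGraph (Fin n) → ℝ) :
    ∑ G : SimpleGraph (Fin n), f G =
      ∑ W ∈ (EE n).powerset, f (fromEdgeSet (W : Set (Sym2 (Fin n)))) := by
  classical
  refine sum_bij' (fun G _ => G.edgeSet.toFinset)
    (fun W _ => fromEdgeSet (W : Set (Sym2 (Fin n)))) ?_ ?_ ?_ ?_ ?_
  · intro G _
    rw [mem_powerset]
    intro e he
    rw [Set.mem_toFinset] at he
    rw [mem_EE]
    exact G.not_isDiag_of_mem_edgeSet he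
  · intro W _; exact mem_univ _
  · intro G _; simp
  · intro W hW
    rw [mem_powerset] at hW
    ext e
    simp only [edgeSet_fromEdgeSet, Set.mem_toFinset, Set.mem_sdiff, mem_coe]
    constructor
    · exact fun h => h.1
    · intro h
      refine ⟨h, ?_⟩
      have := (mem_EE e).mp (hW h)
      simpa using this
  · intro G _; simp

lemma integral_eq (p : unitInterval) (f : SimpleGraph (Fin n) → ℝ) :
    ∫ G, f G ∂(binomialRandom (Fin n) p) =
      ∑ W ∈ (EE n).powerset, wt (EE n) (p : ℝ) W *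
        f (fromEdgeSet (W : Set (Sym2 (Fin n)))) := by
  have : MeasurableSingletonClass (SimpleGraph (Fin n)) := msc
  rw [integral_fintype Integrable.of_finite, sum_graph]
  refine sum_congr rfl (fun W hW => ?_)
  rw [real_singleton p W (mem_powerset.mp hW), smul_eq_mul]

lemma real_eq (p : unitInterval) (A : Set (SimpleGraph (Fin n))) [DecidablePred (· ∈ A)] :
    (binomialRandom (Fin n) p).real A =
      ∑ W ∈ (EE n).powerset, wt (EE n) (p : ℝ) W *
        (if fromEdgeSet (W : Set (Sym2 (Fin n))) ∈ A then 1 else 0) := by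
  have : MeasurableSingletonClass (SimpleGraph (Fin n)) := msc
  have h := integral_eq p (fun G => if G ∈ A then (1:ℝ) else 0)
  rw [← h]
  have h2 : (fun G : SimpleGraph (Fin n) => if G ∈ A then (1:ℝ) else 0) =
      A.indicator (fun _ => (1:ℝ)) := by
    ext G; simp [Set.indicator]
  rw [h2, integral_indicator (by exact DiscreteMeasurableSpace.forall_measurableSet A)]
  simp

lemma sum_wt_superset {X : Type*} [DecidableEq X] (U J : Finset X) (hJ : J ⊆ U) (p : ℝ) :
    ∑ W ∈ U.powerset, wt U p W * (if J ⊆ W then (1:ℝ) else 0) = p ^ J.card := by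
  have h1 : ∑ W ∈ U.powerset, wt U p W * (if J ⊆ W then (1:ℝ) else 0) =
      ∑ W ∈ U.powerset.filter (fun W => J ⊆ W), wt U p W := by
    rw [sum_filter]
    refine sum_congr rfl (fun W _ => ?_)
    split_ifs <;> simp
  rw [h1]
  have h2 : ∑ W ∈ U.powerset.filter (fun W => J ⊆ W), wt U p W =
      ∑ W ∈ (U \ J).powerset, p ^ J.card * wt (U \ J) p W := by
    refine sum_bij' (fun W _ => W \ J) (fun W _ => W ∪ J) ?_ ?_ ?_ ?_ ?_
    · intro W hW
      rw [mem_filter, mem_powerset] at hW
      rw [mem_powerset]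
      exact sdiff_subset_sdiff hW.1 (Subset.refl J)
    · intro W hW
      rw [mem_powerset] at hW
      rw [mem_filter, mem_powerset]
      exact ⟨union_subset (hW.trans sdiff_subset) hJ, subset_union_right⟩
    · intro W hW
      rw [mem_filter, mem_powerset] at hW
      exact sdiff_union_of_subset hW.2
    · intro W hW
      rw [mem_powerset] at hW
      have hd : Disjoint W J := by
        rw [Finset.disjoint_left]
        intro a ha haJ
        exact (mem_sdiff.mp (hW ha)).2 haJ
      rw [union_sdiff_right, sdiff_eq_self_of_disjoint hd]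
    · intro W hW
      rw [mem_filter, mem_powerset] at hW
      unfold wt
      have h3 : (W \ J).card = W.card - J.card := card_sdiff_of_subset hW.2
      have h4 : (U \ J).card = U.card - J.card := card_sdiff_of_subset hJ
      have h5 := card_le_card hW.2
      have h6 := card_le_card hW.1
      rw [h3, h4]
      have h7 : U.card - J.card - (W.card - J.card) = U.card - W.card := by omega
      rw [h7, ← mul_assoc, ← pow_add]
      have h8 : J.card + (W.card - J.card) = W.card := by omega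
      rw [h8]
  rw [h2, ← mul_sum, sum_wt, mul_one]

/-- orbit of an edge set under vertex permutations -/
noncomputable def orb (J : Finset (Sym2 (Fin n))) : Finset (Finset (Sym2 (Fin n))) :=
  univ.image (fun σ : Equiv.Perm (Fin n) => σ • J)

lemma mem_orb {J J' : Finset (Sym2 (Fin n))} :
    J' ∈ orb J ↔ ∃ σ : Equiv.Perm (Fin n), σ • J = J' := by
  unfold orb; simp

lemma orb_card_mul_le (J : Finset (Sym2 (Fin n))) :
    (orb J).card * (univ.filter (fun σ : Equiv.Perm (Fin n) => σ • J ⊆ J)).card ≤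
      Fintype.card (Equiv.Perm (Fin n)) := by
  have h1 : ∀ J' ∈ orb J, (univ.filter (fun σ : Equiv.Perm (Fin n) => σ • J ⊆ J)).card ≤
      (univ.filter (fun σ : Equiv.Perm (Fin n) => σ • J = J')).card := by
    intro J' hJ'
    obtain ⟨τ, hτ⟩ := mem_orb.mp hJ'
    refine card_le_card_of_injOn (fun σ => τ * σ) ?_ ?_
    · intro σ hσ
      simp only [coe_filter, mem_univ, true_and, Set.mem_ofPred_eq] at hσ ⊢
      have : σ • J = J := eq_of_subset_of_card_le hσ (by rw [card_smul_finset])
      rw [mul_smul, this, hτ]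
    · intro a _ b _ hab
      exact mul_left_cancel hab
  have h2 : ∑ J' ∈ orb J, (univ.filter (fun σ : Equiv.Perm (Fin n) => σ • J = J')).card =
      (univ : Finset (Equiv.Perm (Fin n))).card := by
    symm
    refine card_eq_sum_card_fiberwise (f := fun σ : Equiv.Perm (Fin n) => σ • J) ?_
    intro σ _
    simp only [mem_coe]
    exact mem_orb.mpr ⟨σ, rfl⟩
  rw [← card_univ, ← h2, ← smul_eq_mul, ← sum_const]
  exact sum_le_sum h1

lemma exists_perm_extend {α : Type*} (a b : α → Fin n) (ha : Function.Injective a)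
    (hb : Function.Injective b) : ∃ σ : Equiv.Perm (Fin n), ∀ x, σ (a x) = b x := by
  classical
  let e : {y // y ∈ Set.range a} ≃ {y // y ∈ Set.range b} :=
    (Equiv.ofInjective a ha).symm.trans (Equiv.ofInjective b hb)
  refine ⟨e.extendSubtype, fun x => ?_⟩
  rw [Equiv.extendSubtype_apply_of_mem e (a x) ⟨x, rfl⟩]
  simp [e]

section Copies

variable {V : Type*} [Fintype V]

/-- the edge set of `H` transported to `Fin n` -/
noncomputable def EH (H : SimpleGraph V) (ι : V ↪ Fin n) : Finset (Sym2 (Fin n)) := by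
  classical exact univ.filter (fun e => ∃ u v, H.Adj u v ∧ e = s(ι u, ι v))

lemma mem_EH (H : SimpleGraph V) (ι : V ↪ Fin n) (e : Sym2 (Fin n)) :
    e ∈ EH H ι ↔ ∃ u v, H.Adj u v ∧ e = s(ι u, ι v) := by
  unfold EH; simp

/-- the subgraph of `H` spanned by an edge set -/
def subOf (H : SimpleGraph V) (ι : V ↪ Fin n) (J : Finset (Sym2 (Fin n))) (hJ : J ⊆ EH H ι) :
    H.Subgraph where
  verts := {v | ∃ w, s(ι v, ι w) ∈ J}
  Adj u v := s(ι u, ι v) ∈ J
  adj_sub := by
    intro u v huv
    obtain ⟨a, b, hab, he⟩ := (mem_EH H ι _).mp (hJ huv)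
    rw [Sym2.eq_iff] at he
    rcases he with ⟨h1, h2⟩ | ⟨h1, h2⟩
    · rw [ι.injective h1, ι.injective h2]; exact hab
    · rw [ι.injective h1, ι.injective h2]; exact hab.symm
  edge_vert := by
    intro u v huv
    exact ⟨v, huv⟩
  symm := by
    constructor
    intro u v huv
    rw [Sym2.eq_swap]; exact huv

lemma mem_verts_subOf {H : SimpleGraph V} {ι : V ↪ Fin n} {J : Finset (Sym2 (Fin n))}
    {hJ : J ⊆ EH H ι} {v : V} : v ∈ (subOf H ι J hJ).verts ↔ ∃ w, s(ι v, ι w) ∈ J := Iff.rfl

lemma adj_subOf {H : SimpleGraph V} {ι : V ↪ Fin n} {J : Finset (Sym2 (Fin n))}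
    {hJ : J ⊆ EH H ι} {u v : V} : (subOf H ι J hJ).Adj u v ↔ s(ι u, ι v) ∈ J := Iff.rfl

/-- structure of a subgraph isomorphic to `subOf J` -/
lemma iso_structure (H : SimpleGraph V) (ι : V ↪ Fin n) (J : Finset (Sym2 (Fin n)))
    (hJ : J ⊆ EH H ι) (G : SimpleGraph (Fin n)) (G' : G.Subgraph)
    (e : (subOf H ι J hJ).coe ≃g G'.coe) :
    (∃ σ : Equiv.Perm (Fin n), ∀ x y, G'.Adj x y ↔ s(x, y) ∈ σ • J) ∧
      (∀ x, x ∈ G'.verts ↔ ∃ y, G'.Adj x y) := by
  set F := subOf H ι J hJ with hF
  constructor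
  · obtain ⟨σ, hσ⟩ := exists_perm_extend (α := F.verts) (fun v => ι v.1) (fun v => (e v).1)
      (fun u v huv => Subtype.ext (ι.injective huv))
      (fun u v huv => e.injective (Subtype.ext huv))
    refine ⟨σ, fun x y => ⟨fun hxy => ?_, fun hxy => ?_⟩⟩
    · have hx : x ∈ G'.verts := hxy.fst_mem
      have hy : y ∈ G'.verts := hxy.snd_mem
      set u := e.symm ⟨x, hx⟩ with hu
      set v := e.symm ⟨y, hy⟩ with hv
      have huv : F.coe.Adj u v := by
        rw [← e.map_adj_iff]
        rw [Subgraph.coe_adj, hu, hv, RelIso.apply_symm_apply, RelIso.apply_symm_apply]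
        exact hxy
      rw [Subgraph.coe_adj] at huv
      have h1 : s(ι u.1, ι v.1) ∈ J := adj_subOf.mp huv
      rw [mem_smul_finset]
      refine ⟨_, h1, ?_⟩
      rw [perm_smul_mk, hσ u, hσ v]
      simp [hu, hv]
    · rw [mem_smul_finset] at hxy
      obtain ⟨e0, he0, heq⟩ := hxy
      obtain ⟨a, b, _, rfl⟩ := (mem_EH H ι _).mp (hJ he0)
      have ha : a ∈ F.verts := ⟨b, he0⟩
      have hb : b ∈ F.verts := ⟨a, by rw [Sym2.eq_swap]; exact he0⟩
      have hab : F.coe.Adj ⟨a, ha⟩ ⟨b, hb⟩ := by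
        rw [Subgraph.coe_adj]; exact adj_subOf.mpr he0
      rw [← e.map_adj_iff, Subgraph.coe_adj] at hab
      rw [perm_smul_mk] at heq
      have h2 := hσ ⟨a, ha⟩
      have h3 := hσ ⟨b, hb⟩
      simp only at h2 h3
      rw [h2, h3, Sym2.eq_iff] at heq
      rcases heq with ⟨h4, h5⟩ | ⟨h4, h5⟩
      · rw [← h4, ← h5]; exact hab
      · rw [← h4, ← h5]; exact hab.symm
  · intro x
    constructor
    · intro hx
      set u := e.symm ⟨x, hx⟩ with hu
      obtain ⟨w, hw⟩ := mem_verts_subOf.mp u.2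
      have hwv : w ∈ F.verts := ⟨u.1, by rw [Sym2.eq_swap]; exact hw⟩
      have hab : F.coe.Adj u ⟨w, hwv⟩ := by
        rw [Subgraph.coe_adj]; exact adj_subOf.mpr hw
      rw [← e.map_adj_iff, Subgraph.coe_adj] at hab
      refine ⟨(e ⟨w, hwv⟩).1, ?_⟩
      have : (e u).1 = x := by simp [hu]
      rwa [this] at hab
    · rintro ⟨y, hy⟩
      exact hy.fst_mem

lemma copyCount_le (H : SimpleGraph V) (ι : V ↪ Fin n) (J : Finset (Sym2 (Fin n)))
    (hJ : J ⊆ EH H ι) (W : Finset (Sym2 (Fin n))) :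
    ((fromEdgeSet (W : Set (Sym2 (Fin n)))).copyCount (subOf H ι J hJ).coe : ℝ) ≤
      ∑ J' ∈ orb J, if J' ⊆ W then (1:ℝ) else 0 := by
  classical
  set G := fromEdgeSet (W : Set (Sym2 (Fin n))) with hG
  rw [Finset.sum_boole]
  have : G.copyCount (subOf H ι J hJ).coe ≤ ((orb J).filter (fun J' => J' ⊆ W)).card := by
    unfold copyCount
    refine card_le_card_of_injOn (fun G' => univ.filter (fun e => e ∈ G'.edgeSet)) ?_ ?_
    · intro G' hG'
      simp only [coe_filter, mem_univ, true_and, Set.mem_ofPred_eq] at hG'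
      obtain ⟨e⟩ := hG'
      obtain ⟨⟨σ, hσ⟩, _⟩ := iso_structure H ι J hJ G G' e
      simp only [coe_filter, Set.mem_ofPred_eq]
      constructor
      · rw [mem_orb]
        refine ⟨σ, ?_⟩
        ext x
        induction x using Sym2.ind with
        | _ a b =>
          simp only [mem_filter, mem_univ, true_and, Subgraph.mem_edgeSet]
          exact (hσ a b).symm
      · intro x
        induction x using Sym2.ind with
        | _ a b =>
          simp only [mem_filter, mem_univ, true_and, Subgraph.mem_edgeSet]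
          intro hab
          have := G'.adj_sub hab
          rw [hG, fromEdgeSet_adj] at this
          exact_mod_cast this.1
    · intro G₁ hG₁ G₂ hG₂ heq
      simp only [coe_filter, mem_univ, true_and, Set.mem_ofPred_eq] at hG₁ hG₂
      obtain ⟨e₁⟩ := hG₁
      obtain ⟨e₂⟩ := hG₂
      obtain ⟨_, hv₁⟩ := iso_structure H ι J hJ G G₁ e₁
      obtain ⟨_, hv₂⟩ := iso_structure H ι J hJ G G₂ e₂
      have hadj : ∀ x y, G₁.Adj x y ↔ G₂.Adj x y := by
        intro x y
        have h := Finset.ext_iff.mp heq s(x, y)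
        simpa only [mem_filter, mem_univ, true_and, Subgraph.mem_edgeSet] using h
      refine Subgraph.ext ?_ ?_
      · ext x
        rw [hv₁, hv₂]
        simp only [hadj]
      · ext x y
        exact hadj x y
  exact_mod_cast this

lemma orb_subset_EE (J J' : Finset (Sym2 (Fin n))) (hJ : J ⊆ EE n) (h : J' ∈ orb J) :
    J' ⊆ EE n ∧ J'.card = J.card := by
  obtain ⟨σ, rfl⟩ := mem_orb.mp h
  refine ⟨?_, card_smul_finset _ _⟩
  intro e he
  rw [mem_smul_finset] at he
  obtain ⟨e0, he0, rfl⟩ := he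
  have := (mem_EE e0).mp (hJ he0)
  rw [mem_EE]
  induction e0 using Sym2.ind with
  | _ a b =>
    rw [perm_smul_mk, Sym2.mk_isDiag_iff]
    rw [Sym2.mk_isDiag_iff] at this
    exact fun h => this (σ.injective h)

lemma EH_subset_EE (H : SimpleGraph V) (ι : V ↪ Fin n) : EH H ι ⊆ EE n := by
  intro e he
  obtain ⟨u, v, huv, rfl⟩ := (mem_EH H ι e).mp he
  rw [mem_EE, Sym2.mk_isDiag_iff]
  exact fun h => huv.ne (ι.injective h)

lemma expect_le (p : unitInterval) (H : SimpleGraph V) (ι : V ↪ Fin n)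
    (J : Finset (Sym2 (Fin n))) (hJ : J ⊆ EH H ι) :
    ∫ G, (G.copyCount (subOf H ι J hJ).coe : ℝ) ∂(binomialRandom (Fin n) p) ≤
      ((orb J).card : ℝ) * (p : ℝ) ^ J.card := by
  rw [integral_eq]
  have hJE := hJ.trans (EH_subset_EE H ι)
  calc ∑ W ∈ (EE n).powerset, wt (EE n) (p : ℝ) W *
        ((fromEdgeSet (W : Set (Sym2 (Fin n)))).copyCount (subOf H ι J hJ).coe : ℝ)
      ≤ ∑ W ∈ (EE n).powerset, wt (EE n) (p : ℝ) W *
          ∑ J' ∈ orb J, (if J' ⊆ W then (1:ℝ) else 0) := by
        refine sum_le_sum (fun W _ => ?_)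
        exact mul_le_mul_of_nonneg_left (copyCount_le H ι J hJ W)
          (wt_nonneg p.2.1 p.2.2 _)
    _ = ∑ J' ∈ orb J, ∑ W ∈ (EE n).powerset, wt (EE n) (p : ℝ) W *
          (if J' ⊆ W then (1:ℝ) else 0) := by
        simp_rw [mul_sum]
        rw [sum_comm]
    _ = ∑ J' ∈ orb J, (p : ℝ) ^ J.card := by
        refine sum_congr rfl (fun J' hJ' => ?_)
        obtain ⟨h1, h2⟩ := orb_subset_EE J J' hJE hJ'
        rw [sum_wt_superset _ _ h1, h2]
    _ = _ := by rw [sum_const, nsmul_eq_mul]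

lemma rate_bound (p : unitInterval) (H : SimpleGraph V) (ι : V ↪ Fin n)
    (hp : ∀ F : H.Subgraph, 1 / 2 ≤ ∫ G, (G.copyCount F.coe : ℝ) ∂(binomialRandom (Fin n) p))
    (J : Finset (Sym2 (Fin n))) (hJ : J ⊆ EH H ι) :
    mu (Equiv.Perm (Fin n)) J J ≤ (2 * (p : ℝ)) ^ J.card := by
  by_cases hJ0 : J = ∅
  · subst hJ0
    rw [mu_empty]; simp
  have h1 := (hp (subOf H ι J hJ)).trans (expect_le p H ι J hJ)
  have horb : 0 < ((orb J).card : ℝ) := by
    have : J ∈ orb J := mem_orb.mpr ⟨1, one_smul _ _⟩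
    exact_mod_cast card_pos.mpr ⟨J, this⟩
  have hN : (0 : ℝ) < (Fintype.card (Equiv.Perm (Fin n)) : ℝ) := card_pos_group
  have h2 : mu (Equiv.Perm (Fin n)) J J * ((orb J).card : ℝ) ≤ 1 := by
    unfold mu
    rw [div_mul_eq_mul_div, div_le_one hN]
    have := orb_card_mul_le J
    rw [mul_comm]
    exact_mod_cast this
  have hmu := mu_nonneg (Γ := Equiv.Perm (Fin n)) J J
  have hc : 1 ≤ J.card := card_pos.mpr (nonempty_iff_ne_empty.mpr hJ0)
  have hpp : 0 ≤ (p : ℝ) ^ J.card := pow_nonneg p.2.1 _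
  have h3 : mu (Equiv.Perm (Fin n)) J J ≤ 2 * (p : ℝ) ^ J.card := by
    have h4 : mu (Equiv.Perm (Fin n)) J J * (1 / 2) ≤
        mu (Equiv.Perm (Fin n)) J J * (((orb J).card : ℝ) * (p : ℝ) ^ J.card) :=
      mul_le_mul_of_nonneg_left h1 hmu
    have h5 : mu (Equiv.Perm (Fin n)) J J * (((orb J).card : ℝ) * (p : ℝ) ^ J.card) ≤
        1 * (p : ℝ) ^ J.card := by
      rw [← mul_assoc]
      exact mul_le_mul_of_nonneg_right h2 hpp
    linarith
  refine h3.trans ?_
  rw [mul_pow]
  refine mul_le_mul_of_nonneg_right ?_ hpp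
  calc (2:ℝ) = 2 ^ 1 := by norm_num
    _ ≤ 2 ^ J.card := pow_le_pow_right₀ (by norm_num) hc

end Copies

end Vale.Agent.P064
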