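import Vale.Agent.P064.Expect

open Finset

namespace Vale.Agent.P064

section Round

variable {ι X : Type*} [Fintype ι] [DecidableEq ι] [DecidableEq X]

/-- Truncated size. -/
noncomputable def phi (k s : ℕ) : ℝ := if k < s then (s : ℝ) else 0

lemma phi_nonneg (k s : ℕ) : 0 ≤ phi k s := by
  unfold phi; split_ifs <;> positivity

lemma phi_le (k s : ℕ) : phi k s ≤ s := by
  unfold phi; split_ifs
  · exact le_refl _
  · positivity

noncomputable def aa (p : ℝ) (K K' : ℕ) (W : Finset X) (w : ι → ℝ) (S : ι → Finset X)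
    (v v' : ι) : ℝ :=
  if (S v').card ≤ K' ∧ S v' ⊆ W ∪ S v ∧ (S v' \ W).card ≤ K then w v' * (p⁻¹) ^ (S v').card
  else 0

noncomputable def NN (p : ℝ) (K K' : ℕ) (W : Finset X) (w : ι → ℝ) (S : ι → Finset X)
    (v : ι) : ℝ := ∑ v', aa p K K' W w S v v'

noncomputable def ker (p : ℝ) (K K' : ℕ) (θ : ℝ) (W : Finset X) (w : ι → ℝ)
    (S : ι → Finset X) (v v' : ι) : ℝ :=
  if (S v).card ≤ K' ∧ θ ≤ NN p K K' W w S v then aa p K K' W w S v v' / NN p K K' W w S v
  else if v' = v then 1 else 0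

noncomputable def newW (p : ℝ) (K K' : ℕ) (θ : ℝ) (W : Finset X) (w : ι → ℝ)
    (S : ι → Finset X) (v' : ι) : ℝ := ∑ v, w v * ker p K K' θ W w S v v'

noncomputable def fac (p q : ℝ) (K' : ℕ) (θ : ℝ) (T W : Finset X) : ℝ :=
  1 + if T.card ≤ K' then θ⁻¹ * (p⁻¹) ^ T.card * q ^ (T \ W).card else 0

variable {p θ q x : ℝ} {K K' : ℕ} {W U : Finset X} {w : ι → ℝ} {S : ι → Finset X}

lemma aa_nonneg (hp : 0 < p) (hw : ∀ v, 0 ≤ w v) (v v' : ι) : 0 ≤ aa p K K' W w S v v' := by
  unfold aa
  split_ifs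
  · exact mul_nonneg (hw _) (by positivity)
  · exact le_refl _

lemma ker_nonneg (hp : 0 < p) (hθ : 0 < θ) (hw : ∀ v, 0 ≤ w v) (v v' : ι) :
    0 ≤ ker p K K' θ W w S v v' := by
  unfold ker
  split_ifs with h1 h2
  · exact div_nonneg (aa_nonneg hp hw _ _) (hθ.le.trans h1.2)
  · exact zero_le_one
  · exact le_refl _

lemma ker_sum (hθ : 0 < θ) (v : ι) : ∑ v', ker p K K' θ W w S v v' = 1 := by
  unfold ker
  by_cases h : (S v).card ≤ K' ∧ θ ≤ NN p K K' W w S v
  · simp only [h, and_self, if_true]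
    rw [← sum_div]
    exact div_self (lt_of_lt_of_le hθ h.2).ne'
  · simp only [h, if_false]
    simp

lemma ker_supp {v v' : ι} (h : ker p K K' θ W w S v v' ≠ 0) : S v' \ W ⊆ S v := by
  unfold ker at h
  split_ifs at h with h1 h2
  · have h3 : aa p K K' W w S v v' ≠ 0 := fun h4 => h (by rw [h4, zero_div])
    unfold aa at h3
    split_ifs at h3 with h4
    · intro y hy
      rw [mem_sdiff] at hy
      rcases mem_union.mp (h4.2.1 hy.1) with h5 | h5
      · exact absurd h5 hy.2
      · exact h5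
    · exact absurd rfl h3
  · rw [h2]; exact sdiff_subset
  · exact absurd rfl h

lemma newW_nonneg (hp : 0 < p) (hθ : 0 < θ) (hw : ∀ v, 0 ≤ w v) (v' : ι) :
    0 ≤ newW p K K' θ W w S v' :=
  sum_nonneg (fun v _ => mul_nonneg (hw v) (ker_nonneg hp hθ hw v v'))

lemma newW_mul_sum (f : ι → ℝ) : ∑ v', newW p K K' θ W w S v' * f v' =
    ∑ v, w v * ∑ v', ker p K K' θ W w S v v' * f v' := by
  unfold newW
  simp_rw [sum_mul, mul_sum]
  rw [sum_comm]
  exact sum_congr rfl (fun v _ => sum_congr rfl (fun v' _ => by ring))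

lemma newW_sum (hθ : 0 < θ) : ∑ v', newW p K K' θ W w S v' = ∑ v, w v := by
  have h := newW_mul_sum (p := p) (K := K) (K' := K') (θ := θ) (W := W) (w := w) (S := S)
    (fun _ => (1:ℝ))
  simp only [mul_one] at h
  rw [h]
  exact sum_congr rfl (fun v _ => by rw [ker_sum hθ, mul_one])

lemma newW_spread (hp : 0 < p) (hθ : 0 < θ) (hw : ∀ v, 0 ≤ w v) (A : Finset X) :
    ∑ v', newW p K K' θ W w S v' * (if A ⊆ S v' \ W then (1:ℝ) else 0) ≤
      ∑ v, w v * (if A ⊆ S v then (1:ℝ) else 0) := by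
  rw [newW_mul_sum]
  refine sum_le_sum (fun v _ => mul_le_mul_of_nonneg_left ?_ (hw v))
  have h1 : ∑ v', ker p K K' θ W w S v v' * (if A ⊆ S v' \ W then (1:ℝ) else 0) ≤
      ∑ v', ker p K K' θ W w S v v' * (if A ⊆ S v then (1:ℝ) else 0) := by
    refine sum_le_sum (fun v' _ => ?_)
    by_cases hk : ker p K K' θ W w S v v' = 0
    · rw [hk, zero_mul, zero_mul]
    · have hs := ker_supp hk
      have hk0 := ker_nonneg (K := K) (K' := K') (W := W) (S := S) hp hθ hw v v'
      refine mul_le_mul_of_nonneg_left ?_ hk0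
      by_cases hA : A ⊆ S v' \ W
      · rw [if_pos hA, if_pos (hA.trans hs)]
      · rw [if_neg hA]; split_ifs <;> norm_num
  refine h1.trans (le_of_eq ?_)
  rw [← sum_mul, ker_sum hθ, one_mul]

lemma newW_le (hp : 0 < p) (hθ : 0 < θ) (hw : ∀ v, 0 ≤ w v)
    (hspread : ∀ A : Finset X, ∑ v, w v * (if A ⊆ S v then (1:ℝ) else 0) ≤ q ^ A.card)
    (v' : ι) : newW p K K' θ W w S v' ≤ w v' * fac p q K' θ (S v') W := by
  have hker : ∀ v, ker p K K' θ W w S v v' ≤ (if v' = v then 1 else 0) +
      (if (S v').card ≤ K' then θ⁻¹ * (p⁻¹) ^ (S v').card * w v' else 0) *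
        (if S v' \ W ⊆ S v then (1:ℝ) else 0) := by
    intro v
    have hpos : 0 ≤ (if (S v').card ≤ K' then θ⁻¹ * (p⁻¹) ^ (S v').card * w v' else 0) *
        (if S v' \ W ⊆ S v then (1:ℝ) else 0) := by
      refine mul_nonneg ?_ (by split_ifs <;> norm_num)
      split_ifs
      · exact mul_nonneg (by positivity) (hw v')
      · exact le_refl _
    by_cases hk : ker p K K' θ W w S v v' = 0
    · rw [hk]
      refine add_nonneg (by split_ifs <;> norm_num) hpos
    · have hs := ker_supp hk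
      unfold ker at hk ⊢
      by_cases h1 : (S v).card ≤ K' ∧ θ ≤ NN p K K' W w S v
      · rw [if_pos h1] at hk ⊢
        have h3 : aa p K K' W w S v v' ≠ 0 := fun h4 => hk (by rw [h4, zero_div])
        unfold aa at h3 ⊢
        by_cases h4 : (S v').card ≤ K' ∧ S v' ⊆ W ∪ S v ∧ (S v' \ W).card ≤ K
        · rw [if_pos h4, if_pos h4.1, if_pos hs, mul_one]
          have h5 : 0 ≤ (if v' = v then (1:ℝ) else 0) := by split_ifs <;> norm_num
          have h6 : w v' * (p⁻¹) ^ (S v').card / NN p K K' W w S v ≤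
              w v' * (p⁻¹) ^ (S v').card / θ :=
            div_le_div_of_nonneg_left (mul_nonneg (hw v') (by positivity)) hθ h1.2
          have h7 : w v' * (p⁻¹) ^ (S v').card / θ = θ⁻¹ * (p⁻¹) ^ (S v').card * w v' := by
            rw [div_eq_mul_inv]; ring
          linarith
        · rw [if_neg h4] at h3; exact absurd rfl h3
      · rw [if_neg h1]
        linarith
  unfold newW
  calc ∑ v, w v * ker p K K' θ W w S v v'
      ≤ ∑ v, w v * ((if v' = v then 1 else 0) +
      (if (S v').card ≤ K' then θ⁻¹ * (p⁻¹) ^ (S v').card * w v' else 0) *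
        (if S v' \ W ⊆ S v then (1:ℝ) else 0)) :=
        sum_le_sum (fun v _ => mul_le_mul_of_nonneg_left (hker v) (hw v))
    _ = w v' + (if (S v').card ≤ K' then θ⁻¹ * (p⁻¹) ^ (S v').card * w v' else 0) *
          ∑ v, w v * (if S v' \ W ⊆ S v then (1:ℝ) else 0) := by
        simp_rw [mul_add]
        rw [sum_add_distrib, mul_sum]
        congr 1
        · simp
        · exact sum_congr rfl (fun v _ => by ring)
    _ ≤ w v' + (if (S v').card ≤ K' then θ⁻¹ * (p⁻¹) ^ (S v').card * w v' else 0) *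
          q ^ (S v' \ W).card := by
        refine add_le_add (le_refl _) (mul_le_mul_of_nonneg_left (hspread _) ?_)
        split_ifs
        · exact mul_nonneg (by positivity) (hw v')
        · exact le_refl _
    _ = w v' * fac p q K' θ (S v') W := by
        unfold fac
        split_ifs <;> ring

lemma newW_ne_zero (hp : 0 < p) (hθ : 0 < θ) (hw : ∀ v, 0 ≤ w v)
    (hspread : ∀ A : Finset X, ∑ v, w v * (if A ⊆ S v then (1:ℝ) else 0) ≤ q ^ A.card)
    {v' : ι} (h : newW p K K' θ W w S v' ≠ 0) : w v' ≠ 0 := by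
  intro h0
  have h1 := newW_le (K := K) (K' := K') (W := W) hp hθ hw hspread v'
  rw [h0, zero_mul] at h1
  exact h (le_antisymm h1 (newW_nonneg hp hθ hw v'))

lemma newW_phi (hp : 0 < p) (hθ : 0 < θ) (hw : ∀ v, 0 ≤ w v) :
    ∑ v', newW p K K' θ W w S v' * phi K (S v' \ W).card ≤
      ∑ v, w v * phi K' (S v).card +
      K' * ∑ v, w v * (if (S v).card ≤ K' ∧ NN p K K' W w S v < θ then (1:ℝ) else 0) := by
  rw [newW_mul_sum, mul_sum, ← sum_add_distrib]
  refine sum_le_sum (fun v _ => ?_)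
  have key : ∑ v', ker p K K' θ W w S v v' * phi K (S v' \ W).card ≤ phi K' (S v).card +
      K' * (if (S v).card ≤ K' ∧ NN p K K' W w S v < θ then (1:ℝ) else 0) := by
    by_cases h : (S v).card ≤ K' ∧ θ ≤ NN p K K' W w S v
    · have h0 : ∑ v', ker p K K' θ W w S v v' * phi K (S v' \ W).card = 0 := by
        refine sum_eq_zero (fun v' _ => ?_)
        unfold ker aa phi
        rw [if_pos h]
        by_cases h1 : (S v').card ≤ K' ∧ S v' ⊆ W ∪ S v ∧ (S v' \ W).card ≤ K
        · rw [if_neg (not_lt.mpr h1.2.2), mul_zero]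
        · rw [if_neg h1, zero_div, zero_mul]
      rw [h0]
      refine add_nonneg (phi_nonneg _ _) (mul_nonneg (Nat.cast_nonneg _) ?_)
      split_ifs <;> norm_num
    · have h0 : ∑ v', ker p K K' θ W w S v v' * phi K (S v' \ W).card =
          phi K (S v \ W).card := by
        unfold ker
        simp only [h, if_false]
        simp
      rw [h0]
      have h1 : phi K (S v \ W).card ≤ (S v).card :=
        (phi_le _ _).trans (by exact_mod_cast card_le_card sdiff_subset)
      by_cases h2 : (S v).card ≤ K'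
      · have h3 : NN p K K' W w S v < θ := by
          by_contra h4
          exact h ⟨h2, not_lt.mp h4⟩
        rw [if_pos ⟨h2, h3⟩, mul_one]
        have h4 : ((S v).card : ℝ) ≤ K' := by exact_mod_cast h2
        have := phi_nonneg K' (S v).card
        linarith
      · have h3 : ¬ ((S v).card ≤ K' ∧ NN p K K' W w S v < θ) := fun h => h2 h.1
        rw [if_neg h3, mul_zero, add_zero]
        refine h1.trans (le_of_eq ?_)
        unfold phi
        rw [if_pos (not_le.mp h2)]
  calc w v * ∑ v', ker p K K' θ W w S v v' * phi K (S v' \ W).card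
      ≤ w v * (phi K' (S v).card +
      K' * (if (S v).card ≤ K' ∧ NN p K K' W w S v < θ then (1:ℝ) else 0)) :=
        mul_le_mul_of_nonneg_left key (hw v)
    _ = _ := by ring

/-- Overlap bound. -/
lemma overlap_bound (hp : 0 < p) (hq : 0 ≤ q) (hx0 : 0 ≤ x) (hx1 : x ≤ 1) (hx : q ≤ x * p)
    (hw : ∀ v, 0 ≤ w v)
    (hspread : ∀ A : Finset X, ∑ v, w v * (if A ⊆ S v then (1:ℝ) else 0) ≤ q ^ A.card)
    (T : Finset X) (hT : T.card ≤ K') :
    ∑ v', w v' * (if K < (T ∩ S v').card then (p⁻¹) ^ (T ∩ S v').card else 0) ≤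
      2 ^ K' * x ^ K := by
  have h1 : ∀ v', (if K < (T ∩ S v').card then (p⁻¹) ^ (T ∩ S v').card else 0) ≤
      ∑ A ∈ T.powerset, (if K < A.card then (p⁻¹) ^ A.card else 0) *
        (if A ⊆ S v' then (1:ℝ) else 0) := by
    intro v'
    have hmem : T ∩ S v' ∈ T.powerset := mem_powerset.mpr inter_subset_left
    have := single_le_sum (f := fun A => (if K < A.card then (p⁻¹) ^ A.card else 0) *
        (if A ⊆ S v' then (1:ℝ) else 0)) (s := T.powerset) (fun A _ => by
          refine mul_nonneg ?_ (by split_ifs <;> norm_num)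
          split_ifs <;> positivity) hmem
    simp only [inter_subset_right, if_true, mul_one] at this
    exact this
  calc ∑ v', w v' * (if K < (T ∩ S v').card then (p⁻¹) ^ (T ∩ S v').card else 0)
      ≤ ∑ v', w v' * ∑ A ∈ T.powerset, (if K < A.card then (p⁻¹) ^ A.card else 0) *
        (if A ⊆ S v' then (1:ℝ) else 0) :=
        sum_le_sum (fun v' _ => mul_le_mul_of_nonneg_left (h1 v') (hw v'))
    _ = ∑ A ∈ T.powerset, (if K < A.card then (p⁻¹) ^ A.card else 0) *
        ∑ v', w v' * (if A ⊆ S v' then (1:ℝ) else 0) := by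
        simp_rw [mul_sum]
        rw [sum_comm]
        exact sum_congr rfl (fun A _ => sum_congr rfl (fun v _ => by ring))
    _ ≤ ∑ A ∈ T.powerset, x ^ K := by
        refine sum_le_sum (fun A _ => ?_)
        by_cases hA : K < A.card
        · rw [if_pos hA]
          calc (p⁻¹) ^ A.card * ∑ v', w v' * (if A ⊆ S v' then (1:ℝ) else 0)
              ≤ (p⁻¹) ^ A.card * q ^ A.card :=
                mul_le_mul_of_nonneg_left (hspread A) (by positivity)
            _ = (p⁻¹ * q) ^ A.card := by rw [mul_pow]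
            _ ≤ x ^ A.card := by
                refine pow_le_pow_left₀ (mul_nonneg (by positivity) hq) ?_ _
                rw [inv_mul_le_iff₀ hp]
                linarith [hx]
            _ ≤ x ^ K := pow_le_pow_of_le_one hx0 hx1 hA.le
        · rw [if_neg hA, zero_mul]; positivity
    _ = 2 ^ T.card * x ^ K := by
        rw [sum_const, card_powerset, nsmul_eq_mul]; push_cast; ring
    _ ≤ 2 ^ K' * x ^ K := by
        refine mul_le_mul_of_nonneg_right ?_ (by positivity)
        exact pow_le_pow_right₀ (by norm_num) hT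

/-- Expected mass of stuck indices. -/
lemma stuck_bound (hp : 0 < p) (hp1 : p ≤ 1) (hθ : 0 < θ) (hq : 0 ≤ q) (hx0 : 0 ≤ x)
    (hx1 : x ≤ 1) (hx : q ≤ x * p) (hw : ∀ v, 0 ≤ w v) (hsum : ∑ v, w v = 1)
    (hspread : ∀ A : Finset X, ∑ v, w v * (if A ⊆ S v then (1:ℝ) else 0) ≤ q ^ A.card)
    (hSU : ∀ v, S v ⊆ U) :
    Ex U p (fun W => ∑ v, w v * (if (S v).card ≤ K' ∧ NN p K K' W w S v < θ then (1:ℝ) else 0))
      ≤ 2 * θ + θ⁻¹ * (2 ^ K' * x ^ K) := by
  set XX : Finset X → ℝ := fun Z =>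
    ∑ v', (if (S v').card ≤ K' ∧ S v' ⊆ Z then w v' * (p⁻¹) ^ (S v').card else 0) with hXX
  set LL : ι → Finset X → ℝ := fun v W =>
    ∑ v', (if (S v').card ≤ K' ∧ S v' ⊆ W ∪ S v ∧ K < (S v' \ W).card then
      w v' * (p⁻¹) ^ (S v').card else 0) with hLL
  have hdec : ∀ v W, NN p K K' W w S v + LL v W = XX (W ∪ S v) := by
    intro v W
    simp only [hLL, hXX, NN, aa]
    rw [← sum_add_distrib]
    refine sum_congr rfl (fun v' _ => ?_)
    by_cases h1 : (S v').card ≤ K' <;> by_cases h2 : S v' ⊆ W ∪ S v <;>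
      by_cases h3 : (S v' \ W).card ≤ K
    · simp [h1, h2, h3, not_lt.mpr h3]
    · simp [h1, h2, h3, not_le.mp h3]
    all_goals simp [h1, h2]
  have hLL0 : ∀ v W, 0 ≤ LL v W := by
    intro v W
    refine sum_nonneg (fun v' _ => ?_)
    split_ifs
    · exact mul_nonneg (hw _) (by positivity)
    · exact le_refl _
  have hpt : ∀ v W, (if (S v).card ≤ K' ∧ NN p K K' W w S v < θ then (1:ℝ) else 0) ≤
      (if (S v).card ≤ K' then (if XX (W ∪ S v) < 2 * θ then (1:ℝ) else 0) else 0) +
      θ⁻¹ * (if (S v).card ≤ K' then LL v W else 0) := by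
    intro v W
    by_cases h1 : (S v).card ≤ K'
    · simp only [h1, true_and, if_true]
      by_cases h2 : NN p K K' W w S v < θ
      · rw [if_pos h2]
        by_cases h3 : XX (W ∪ S v) < 2 * θ
        · rw [if_pos h3]
          have := mul_nonneg (inv_nonneg.mpr hθ.le) (hLL0 v W)
          linarith
        · rw [if_neg h3, zero_add]
          have h4 : θ ≤ LL v W := by
            have := hdec v W
            linarith [not_lt.mp h3]
          rw [← div_eq_inv_mul, one_le_div hθ]
          exact h4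
      · rw [if_neg h2]
        refine add_nonneg (by split_ifs <;> norm_num) (mul_nonneg (by positivity) (hLL0 v W))
    · simp [h1]
  have hA : Ex U p (fun W => ∑ v, w v *
      (if (S v).card ≤ K' then (if XX (W ∪ S v) < 2 * θ then (1:ℝ) else 0) else 0)) ≤ 2 * θ := by
    rw [Ex_sum]
    have h1 : ∀ v, Ex U p (fun W => w v *
        (if (S v).card ≤ K' then (if XX (W ∪ S v) < 2 * θ then (1:ℝ) else 0) else 0)) =
        Ex U p (fun Z => (if (S v).card ≤ K' ∧ S v ⊆ Z then w v * (p⁻¹) ^ (S v).card else 0) *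
          (if XX Z < 2 * θ then (1:ℝ) else 0)) := by
      intro v
      by_cases hc : (S v).card ≤ K'
      · simp only [hc, if_true, true_and]
        rw [Ex_const_mul, Ex_shift hp (S v) (hSU v)
          (fun Z => (if XX Z < 2 * θ then (1:ℝ) else 0)), ← Ex_const_mul]
        refine Ex_congr (fun Z _ => ?_)
        by_cases hZ : S v ⊆ Z
        · simp only [hZ, if_true]; ring
        · simp only [hZ, if_false]; ring
      · simp [hc]
    rw [sum_congr rfl (fun v _ => h1 v), ← Ex_sum]
    have h2 : ∀ Z, Z ⊆ U → ∑ v, (if (S v).card ≤ K' ∧ S v ⊆ Z then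
        w v * (p⁻¹) ^ (S v).card else 0) * (if XX Z < 2 * θ then (1:ℝ) else 0) ≤ 2 * θ := by
      intro Z _
      rw [← sum_mul]
      by_cases h : XX Z < 2 * θ
      · rw [if_pos h, mul_one]; exact h.le
      · rw [if_neg h, mul_zero]; linarith
    have h3 := Ex_mono (U := U) hp.le hp1 h2
    rwa [Ex_const] at h3
  have hB : ∀ v, (S v).card ≤ K' → Ex U p (LL v) ≤ 2 ^ K' * x ^ K := by
    intro v hv
    simp only [hLL]
    rw [Ex_sum]
    refine le_trans (sum_le_sum (fun v' _ => ?_))
      (overlap_bound (K := K) hp hq hx0 hx1 hx hw hspread (S v) hv)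
    have h1 : ∀ W, W ⊆ U → (if (S v').card ≤ K' ∧ S v' ⊆ W ∪ S v ∧ K < (S v' \ W).card then
        w v' * (p⁻¹) ^ (S v').card else 0) ≤ (w v' * (p⁻¹) ^ (S v').card *
        (if K < (S v ∩ S v').card then 1 else 0)) *
        (if S v' \ S v ⊆ W then (1:ℝ) else 0) := by
      intro W _
      have hnn : 0 ≤ w v' * (p⁻¹) ^ (S v').card := mul_nonneg (hw _) (by positivity)
      by_cases hc : (S v').card ≤ K' ∧ S v' ⊆ W ∪ S v ∧ K < (S v' \ W).card
      · have h2 : S v' \ S v ⊆ W := by
          intro y hy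
          rw [mem_sdiff] at hy
          rcases mem_union.mp (hc.2.1 hy.1) with h | h
          · exact h
          · exact absurd h hy.2
        have h3 : S v' \ W ⊆ S v ∩ S v' := by
          intro y hy
          rw [mem_sdiff] at hy
          rcases mem_union.mp (hc.2.1 hy.1) with h | h
          · exact absurd h hy.2
          · exact mem_inter.mpr ⟨h, hy.1⟩
        have h4 : K < (S v ∩ S v').card := lt_of_lt_of_le hc.2.2 (card_le_card h3)
        rw [if_pos hc, if_pos h2, if_pos h4, mul_one, mul_one]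
      · rw [if_neg hc]
        refine mul_nonneg (mul_nonneg hnn ?_) ?_ <;> split_ifs <;> norm_num
    refine (Ex_mono hp.le hp1 h1).trans (le_of_eq ?_)
    rw [Ex_const_mul, Ex_superset hp (sdiff_subset.trans (hSU v'))]
    by_cases hc : K < (S v ∩ S v').card
    · rw [if_pos hc, if_pos hc, mul_one]
      have h5 : (S v').card = (S v ∩ S v').card + (S v' \ S v).card := by
        rw [inter_comm, card_inter_add_card_sdiff]
      rw [h5, pow_add, inv_pow, inv_pow]
      have hpp : p ^ (S v' \ S v).card ≠ 0 := pow_ne_zero _ hp.ne'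
      field_simp
    · rw [if_neg hc, if_neg hc]; ring
  have hfin : Ex U p (fun W => ∑ v, w v *
      (θ⁻¹ * (if (S v).card ≤ K' then LL v W else 0))) ≤ θ⁻¹ * (2 ^ K' * x ^ K) := by
    rw [Ex_sum]
    have h1 : ∀ v, Ex U p (fun W => w v * (θ⁻¹ * (if (S v).card ≤ K' then LL v W else 0))) ≤
        w v * (θ⁻¹ * (2 ^ K' * x ^ K)) := by
      intro v
      rw [Ex_const_mul, Ex_const_mul]
      refine mul_le_mul_of_nonneg_left (mul_le_mul_of_nonneg_left ?_ (by positivity)) (hw v)
      by_cases hc : (S v).card ≤ K'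
      · simp only [hc, if_true]; exact hB v hc
      · simp only [hc, if_false]; rw [Ex_const]; positivity
    refine (sum_le_sum (fun v _ => h1 v)).trans (le_of_eq ?_)
    rw [← sum_mul, hsum, one_mul]
  have hall : Ex U p (fun W => ∑ v, w v *
      (if (S v).card ≤ K' ∧ NN p K K' W w S v < θ then (1:ℝ) else 0)) ≤
      Ex U p (fun W => ∑ v, w v *
      (if (S v).card ≤ K' then (if XX (W ∪ S v) < 2 * θ then (1:ℝ) else 0) else 0) +
      ∑ v, w v * (θ⁻¹ * (if (S v).card ≤ K' then LL v W else 0))) := by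
    refine Ex_mono hp.le hp1 (fun W _ => ?_)
    rw [← sum_add_distrib]
    refine sum_le_sum (fun v _ => ?_)
    rw [← mul_add]
    exact mul_le_mul_of_nonneg_left (hpt v W) (hw v)
  rw [Ex_add] at hall
  linarith

lemma Ex_fac (hp : 0 < p) (hp1 : p ≤ 1) (hθ : 0 < θ) (hq : 0 ≤ q) (hqp : q ≤ p)
    {T : Finset X} (hT : T ⊆ U) :
    Ex U p (fun W => fac p q K' θ T W) ≤ 1 + θ⁻¹ * 2 ^ K' := by
  unfold fac
  rw [Ex_add, Ex_const]
  refine add_le_add (le_refl _) ?_
  by_cases hc : T.card ≤ K'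
  · simp only [hc, if_true]
    rw [Ex_const_mul, Ex_pow_sdiff p q T hT, mul_assoc]
    refine mul_le_mul_of_nonneg_left ?_ (by positivity)
    rw [← mul_pow]
    have h1 : p⁻¹ * (p + (1 - p) * q) ≤ 2 := by
      rw [inv_mul_le_iff₀ hp]
      nlinarith
    have h0 : 0 ≤ p⁻¹ * (p + (1 - p) * q) := by
      have : 0 ≤ 1 - p := by linarith
      positivity
    calc (p⁻¹ * (p + (1 - p) * q)) ^ T.card ≤ 2 ^ T.card := pow_le_pow_left₀ h0 h1 _
      _ ≤ 2 ^ K' := pow_le_pow_right₀ (by norm_num) hc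
  · simp only [hc, if_false]
    rw [Ex_const]; positivity

lemma fac_inter (T W : Finset X) : fac p q K' θ T (W ∩ T) = fac p q K' θ T W := by
  unfold fac
  have : T \ (W ∩ T) = T \ W := by
    ext y; simp only [mem_sdiff, mem_inter]; tauto
  rw [this]

lemma fac_nonneg (hp : 0 < p) (hθ : 0 < θ) (hq : 0 ≤ q) (T W : Finset X) :
    0 ≤ fac p q K' θ T W := by
  unfold fac
  split_ifs <;> positivity

end Round

end Vale.Agent.P064
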