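import Vale.Agent.P064.Round

open Finset

namespace Vale.Agent.P064

section Tree

def KK (m : ℕ) : ℕ := 8 ^ (m + 1)

noncomputable def th (m : ℕ) : ℝ := (1 / 16) ^ KK (m + 1)

noncomputable def gg (m : ℕ) : ℝ := 8 * 4096 ^ KK m

noncomputable def ee (m : ℕ) : ℝ := (1 / 4) ^ KK (m + 1)

/-- Weighted trees of uniform depth and arity. -/
inductive Tr (ι X : Type) : ℕ → Type
  | leaf : Tr ι X 0
  | node {n : ℕ} (w : ι → ℝ) (S : ι → Finset X) (sub : ι → Tr ι X n) : Tr ι X (n + 1)

def completes {ι X : Type} : {n : ℕ} → Tr ι X n → Finset X → Prop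
  | _, .leaf, _ => True
  | _, .node w S sub, W => ∃ v, w v ≠ 0 ∧ S v ⊆ W ∧ completes (sub v) W

def Valid {ι X : Type} [Fintype ι] [DecidableEq X] (U : Finset X) (q : ℝ) :
    {n : ℕ} → Tr ι X n → Finset X → Prop
  | _, .leaf, _ => True
  | _, .node w S sub, R => (∀ v, 0 ≤ w v) ∧ (∑ v, w v = 1) ∧
      (∀ A : Finset X, ∑ v, w v * (if A ⊆ S v then (1:ℝ) else 0) ≤ q ^ A.card) ∧
      (∀ v, S v ⊆ U) ∧ (∀ v, Disjoint R (S v)) ∧ ∀ v, Valid U q (sub v) (R ∪ S v)

noncomputable def upd {ι X : Type} [Fintype ι] [DecidableEq ι] [DecidableEq X] (p : ℝ)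
    (W : Finset X) : {n : ℕ} → Tr ι X n → ℕ → Tr ι X n
  | _, .leaf, _ => .leaf
  | _, .node w S sub, m => .node (newW p (KK m) (KK (m + 1)) (th m) W w S)
      (fun v => S v \ W) (fun v => upd p W (sub v) (m + 1))

noncomputable def pot {ι X : Type} [Fintype ι] : {n : ℕ} → Tr ι X n → ℕ → ℝ
  | _, .leaf, _ => 0
  | _, .node w S sub, m =>
      ∑ v, w v * (phi (KK m) (S v).card + gg m * pot (sub v) (m + 1))

variable {ι X : Type} [Fintype ι] [DecidableEq ι] [DecidableEq X]

lemma th_pos (m : ℕ) : 0 < th m := by unfold th; positivity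

lemma gg_pos (m : ℕ) : 0 < gg m := by unfold gg; positivity

lemma ee_pos (m : ℕ) : 0 < ee m := by unfold ee; positivity

lemma Valid.mono {U : Finset X} {q : ℝ} {n : ℕ} {t : Tr ι X n} : ∀ {R R' : Finset X},
    R' ⊆ R → Valid U q t R → Valid U q t R' := by
  induction t with
  | leaf => intro R R' _ _; trivial
  | node w S sub ih =>
    intro R R' hR h
    obtain ⟨h1, h2, h3, h4, h5, h6⟩ := h
    refine ⟨h1, h2, h3, h4, fun v => disjoint_of_subset_left hR (h5 v), fun v => ?_⟩
    exact ih v (union_subset_union_left hR) (h6 v)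

lemma Valid.upd {U : Finset X} {q p : ℝ} (hp : 0 < p) (W : Finset X) {n : ℕ} {t : Tr ι X n} :
    ∀ {R : Finset X} (m : ℕ), Valid U q t R → Valid U q (upd p W t m) R := by
  induction t with
  | leaf => intro R m _; trivial
  | node w S sub ih =>
    intro R m h
    obtain ⟨h1, h2, h3, h4, h5, h6⟩ := h
    refine ⟨fun v => newW_nonneg hp (th_pos m) h1 v, ?_, ?_, ?_, ?_, ?_⟩
    · rw [newW_sum (th_pos m), h2]
    · intro A
      exact (newW_spread hp (th_pos m) h1 A).trans (h3 A)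
    · intro v; exact sdiff_subset.trans (h4 v)
    · intro v; exact disjoint_of_subset_right sdiff_subset (h5 v)
    · intro v
      exact Valid.mono (union_subset_union_right sdiff_subset) (ih v (m + 1) (h6 v))

lemma completes_upd {U : Finset X} {q p : ℝ} (hp : 0 < p) (W W₂ : Finset X) {n : ℕ}
    {t : Tr ι X n} : ∀ {R : Finset X} (m : ℕ), Valid U q t R →
    completes (upd p W t m) W₂ → completes t (W ∪ W₂) := by
  induction t with
  | leaf => intro R m _ _; trivial
  | node w S sub ih =>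
    intro R m h hc
    obtain ⟨h1, h2, h3, h4, h5, h6⟩ := h
    obtain ⟨v, hv1, hv2, hv3⟩ := hc
    refine ⟨v, newW_ne_zero hp (th_pos m) h1 h3 hv1, ?_, ih v (m + 1) (h6 v) hv3⟩
    intro y hy
    by_cases hyW : y ∈ W
    · exact mem_union_left _ hyW
    · exact mem_union_right _ (hv2 (mem_sdiff.mpr ⟨hy, hyW⟩))

lemma completes_mono {n : ℕ} {t : Tr ι X n} : ∀ {W W' : Finset X}, W ⊆ W' →
    completes t W → completes t W' := by
  induction t with
  | leaf => intro W W' _ _; trivial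
  | node w S sub ih =>
    intro W W' hW h
    obtain ⟨v, hv1, hv2, hv3⟩ := h
    exact ⟨v, hv1, hv2.trans hW, ih v hW hv3⟩

lemma sdiff_sdiff_disj {T S W : Finset X} (h : Disjoint T S) : S \ (W \ T) = S \ W := by
  ext y
  simp only [mem_sdiff, not_and, not_not]
  constructor
  · rintro ⟨h1, h2⟩
    refine ⟨h1, fun h3 => ?_⟩
    exact (disjoint_left.mp h) (h2 h3) h1
  · rintro ⟨h1, h2⟩
    exact ⟨h1, fun h3 => absurd h3 h2⟩

lemma subset_sdiff_union_disj {T S S' W : Finset X} (h : Disjoint T S) :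
    S ⊆ (W \ T) ∪ S' ↔ S ⊆ W ∪ S' := by
  constructor
  · intro h1
    exact h1.trans (union_subset_union_left sdiff_subset)
  · intro h1 y hy
    rcases mem_union.mp (h1 hy) with h2 | h2
    · exact mem_union_left _ (mem_sdiff.mpr ⟨h2, fun h3 => (disjoint_left.mp h) h3 hy⟩)
    · exact mem_union_right _ h2

lemma newW_sdiff {p θ : ℝ} {K K' : ℕ} {w : ι → ℝ} {S : ι → Finset X} {T : Finset X}
    (W : Finset X) (h : ∀ v, Disjoint T (S v)) :
    newW p K K' θ (W \ T) w S = newW p K K' θ W w S := by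
  have haa : ∀ v v', aa p K K' (W \ T) w S v v' = aa p K K' W w S v v' := by
    intro v v'
    unfold aa
    rw [sdiff_sdiff_disj (h v')]
    have := subset_sdiff_union_disj (S' := S v) (W := W) (h v')
    simp only [this]
  have hN : ∀ v, NN p K K' (W \ T) w S v = NN p K K' W w S v := by
    intro v
    unfold NN
    exact sum_congr rfl (fun v' _ => haa v v')
  funext v'
  unfold newW ker
  refine sum_congr rfl (fun v _ => ?_)
  rw [haa, hN]

lemma upd_sdiff {U : Finset X} {q p : ℝ} (W : Finset X) {n : ℕ} {t : Tr ι X n} :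
    ∀ {R T : Finset X} (m : ℕ), Valid U q t R → T ⊆ R →
    upd p (W \ T) t m = upd p W t m := by
  induction t with
  | leaf => intro R T m _ _; rfl
  | node w S sub ih =>
    intro R T m h hT
    obtain ⟨h1, h2, h3, h4, h5, h6⟩ := h
    have hd : ∀ v, Disjoint T (S v) := fun v => disjoint_of_subset_left hT (h5 v)
    unfold upd
    rw [newW_sdiff W hd]
    congr 1
    · funext v
      exact sdiff_sdiff_disj (hd v)
    · funext v
      exact ih v (m + 1) (h6 v) (hT.trans subset_union_left)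

lemma pot_nonneg {U : Finset X} {q : ℝ} {n : ℕ} {t : Tr ι X n} :
    ∀ {R : Finset X} (m : ℕ), Valid U q t R → 0 ≤ pot t m := by
  induction t with
  | leaf => intro R m _; exact le_refl _
  | node w S sub ih =>
    intro R m h
    obtain ⟨h1, h2, h3, h4, h5, h6⟩ := h
    unfold pot
    refine sum_nonneg (fun v _ => mul_nonneg (h1 v) ?_)
    exact add_nonneg (phi_nonneg _ _) (mul_nonneg (gg_pos m).le (ih v (m + 1) (h6 v)))

lemma KK_succ (m : ℕ) : KK (m + 1) = 8 * KK m := by
  unfold KK; rw [pow_succ]; ring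

lemma KK_pos (m : ℕ) : 1 ≤ KK m := by
  unfold KK; exact Nat.one_le_pow _ _ (by norm_num)

lemma num1 (m : ℕ) : gg m * (1 + (th m)⁻¹ * 2 ^ KK (m + 1)) ≤ gg (m + 1) := by
  unfold gg th
  rw [KK_succ]
  have hK := KK_pos m
  generalize KK m = K at *
  have h1 : ((1 / 16 : ℝ) ^ (8 * K))⁻¹ * 2 ^ (8 * K) = (2 : ℝ) ^ (40 * K) := by
    rw [← inv_pow, ← mul_pow]
    have : ((1 / 16 : ℝ)⁻¹ * 2) = 2 ^ 5 := by norm_num
    rw [this, ← pow_mul]; ring_nf
  have h2 : (4096 : ℝ) ^ (8 * K) = 4096 ^ K * 2 ^ (84 * K) := by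
    have : (4096 : ℝ) = 2 ^ 12 := by norm_num
    rw [this, ← pow_mul, ← pow_mul, ← pow_add]; ring_nf
  rw [h1, h2]
  have h3 : 1 + (2:ℝ) ^ (40 * K) ≤ 2 ^ (84 * K) := by
    calc 1 + (2:ℝ) ^ (40 * K) ≤ 2 ^ (40 * K) + 2 ^ (40 * K) := by
          have : (1:ℝ) ≤ 2 ^ (40 * K) := one_le_pow₀ (by norm_num)
          linarith
      _ = 2 ^ (40 * K + 1) := by rw [pow_succ]; ring
      _ ≤ 2 ^ (84 * K) := pow_le_pow_right₀ (by norm_num) (by omega)
  have h4 : (0:ℝ) < 8 * 4096 ^ K := by positivity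
  calc 8 * (4096:ℝ) ^ K * (1 + 2 ^ (40 * K)) ≤ 8 * 4096 ^ K * 2 ^ (84 * K) :=
        mul_le_mul_of_nonneg_left h3 h4.le
    _ = _ := by ring

lemma pow_four_ge (k : ℕ) : 2 ≤ k → 8 + 3 * (k : ℝ) ≤ 4 ^ k := by
  intro hk
  induction k, hk using Nat.le_induction with
  | base => norm_num
  | succ k hk ih =>
    rw [pow_succ]; push_cast
    have : (0:ℝ) ≤ k := Nat.cast_nonneg _
    linarith

lemma num2 (m : ℕ) : gg (m + 1) * ee (m + 1) +
    KK (m + 1) * (2 * th m + (th m)⁻¹ * (2 ^ KK (m + 1) * ((1 / 512) ^ 8) ^ KK m)) ≤ ee m := by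
  unfold gg ee th
  rw [KK_succ (m + 1)]
  have e1 : ((1 / 512 : ℝ) ^ 8) ^ KK m = (1 / 512) ^ KK (m + 1) := by
    rw [← pow_mul, KK_succ]
  rw [e1]
  have hK : 8 ≤ KK (m + 1) := by
    rw [KK_succ]; have := KK_pos m; omega
  generalize KK (m + 1) = K at *
  have h1 : ((1 / 16 : ℝ) ^ K)⁻¹ * (2 ^ K * (1 / 512) ^ K) = (1 / 16) ^ K := by
    rw [← inv_pow, ← mul_pow, ← mul_pow]; norm_num
  have h2 : 8 * (4096 : ℝ) ^ K * (1 / 4) ^ (8 * K) = 8 * (1 / 16) ^ K := by
    rw [pow_mul, mul_assoc, ← mul_pow]; norm_num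
  rw [h1, h2]
  have h3 := pow_four_ge K (by omega)
  have h4 : (1 / 4 : ℝ) ^ K = (1 / 16) ^ K * 4 ^ K := by
    rw [← mul_pow]; norm_num
  rw [h4]
  have h5 : (0:ℝ) < (1 / 16) ^ K := by positivity
  calc 8 * (1 / 16 : ℝ) ^ K + (K:ℝ) * (2 * (1 / 16) ^ K + (1 / 16) ^ K)
      = (1 / 16) ^ K * (8 + 3 * K) := by ring
    _ ≤ _ := mul_le_mul_of_nonneg_left h3 h5.le

/-- One regular round. -/
theorem pot_upd {U : Finset X} {q p : ℝ} (hp : 0 < p) (hp1 : p ≤ 1) (hq : 0 ≤ q)
    (hx : q ≤ (1 / 512) ^ 8 * p) {n : ℕ} {t : Tr ι X n} :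
    ∀ {R : Finset X} (m : ℕ), Valid U q t R →
    Ex U p (fun W => pot (upd p W t m) m) ≤ pot t (m + 1) + ee m := by
  have hqp : q ≤ p := by
    refine hx.trans ?_
    nlinarith [hp]
  induction t with
  | leaf =>
    intro R m _
    have : Ex U p (fun W => pot (upd p W (Tr.leaf : Tr ι X 0) m) m) = 0 := by
      have h1 : Ex U p (fun W => pot (upd p W (Tr.leaf : Tr ι X 0) m) m) =
          Ex U p (fun _ => (0:ℝ)) := Ex_congr (fun W _ => rfl)
      rw [h1, Ex_const]
    rw [this]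
    have h2 : pot (Tr.leaf : Tr ι X 0) (m + 1) = 0 := rfl
    rw [h2, zero_add]
    exact (ee_pos m).le
  | node w S sub ih =>
    intro R m h
    obtain ⟨h1, h2, h3, h4, h5, h6⟩ := h
    have hth := th_pos m
    have hgg := gg_pos m
    set K := KK m with hK
    set K' := KK (m + 1) with hK'
    -- pointwise bound
    have hpt : ∀ W, W ⊆ U → pot (upd p W (Tr.node w S sub) m) m ≤
        (∑ v, w v * phi K' (S v).card +
          K' * ∑ v, w v * (if (S v).card ≤ K' ∧ NN p K K' W w S v < th m then (1:ℝ) else 0)) +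
        ∑ v, (gg m * w v) * (fac p q K' (th m) (S v) (W ∩ S v) *
          pot (upd p (W \ S v) (sub v) (m + 1)) (m + 1)) := by
      intro W _
      have e1 : pot (upd p W (Tr.node w S sub) m) m =
          ∑ v, newW p K K' (th m) W w S v * phi K (S v \ W).card +
          ∑ v, newW p K K' (th m) W w S v *
            (gg m * pot (upd p W (sub v) (m + 1)) (m + 1)) := by
        rw [← sum_add_distrib]
        show ∑ v, newW p K K' (th m) W w S v * (phi K (S v \ W).card +
          gg m * pot (upd p W (sub v) (m + 1)) (m + 1)) = _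
        exact sum_congr rfl (fun v _ => by ring)
      rw [e1]
      refine add_le_add (newW_phi hp hth h1) (sum_le_sum (fun v _ => ?_))
      have e2 : upd p (W \ S v) (sub v) (m + 1) = upd p W (sub v) (m + 1) :=
        upd_sdiff W (m + 1) (h6 v) subset_union_right
      rw [e2, fac_inter]
      have h7 := newW_le (K := K) (K' := K') (W := W) hp hth h1 h3 v
      have h8 : 0 ≤ pot (upd p W (sub v) (m + 1)) (m + 1) :=
        pot_nonneg (m + 1) (Valid.upd hp W (m + 1) (h6 v))
      calc newW p K K' (th m) W w S v * (gg m * pot (upd p W (sub v) (m + 1)) (m + 1))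
          ≤ (w v * fac p q K' (th m) (S v) W) *
              (gg m * pot (upd p W (sub v) (m + 1)) (m + 1)) :=
            mul_le_mul_of_nonneg_right h7 (mul_nonneg hgg.le h8)
        _ = _ := by ring
    refine (Ex_mono hp.le hp1 hpt).trans ?_
    rw [Ex_add, Ex_add, Ex_const, Ex_const_mul]
    have hEs := Ex_sum (univ : Finset ι) U p (fun v W => (gg m * w v) *
      (fac p q K' (th m) (S v) (W ∩ S v) * pot (upd p (W \ S v) (sub v) (m + 1)) (m + 1)))
    have hst := stuck_bound (K := K) (K' := K') (x := (1 / 512) ^ 8) hp hp1 hth hq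
      (by positivity) (by norm_num) hx h1 h2 h3 h4
    have hlast : ∀ v, Ex U p (fun W => (gg m * w v) * (fac p q K' (th m) (S v) (W ∩ S v) *
          pot (upd p (W \ S v) (sub v) (m + 1)) (m + 1))) ≤
        w v * (gg (m + 1) * (pot (sub v) (m + 2) + ee (m + 1))) := by
      intro v
      rw [Ex_const_mul, Ex_split U p (S v) (fun Y => fac p q K' (th m) (S v) Y)
        (fun Y => pot (upd p Y (sub v) (m + 1)) (m + 1))]
      have e3 : Ex U p (fun W => fac p q K' (th m) (S v) (W ∩ S v)) =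
          Ex U p (fun W => fac p q K' (th m) (S v) W) :=
        Ex_congr (fun W _ => fac_inter _ _)
      have e4 : Ex U p (fun W => pot (upd p (W \ S v) (sub v) (m + 1)) (m + 1)) =
          Ex U p (fun W => pot (upd p W (sub v) (m + 1)) (m + 1)) := by
        refine Ex_congr (fun W _ => ?_)
        rw [upd_sdiff W (m + 1) (h6 v) subset_union_right]
      rw [e3, e4]
      have h7 := Ex_fac (K' := K') hp hp1 hth hq hqp (h4 v)
      have h8 := ih v (m + 1) (h6 v)
      have h9 : 0 ≤ pot (sub v) (m + 2) + ee (m + 1) :=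
        add_nonneg (pot_nonneg (m + 2) (h6 v)) (ee_pos _).le
      have h10 : 0 ≤ Ex U p (fun W => pot (upd p W (sub v) (m + 1)) (m + 1)) :=
        Ex_nonneg hp.le hp1 (fun W _ => pot_nonneg (m + 1) (Valid.upd hp W (m + 1) (h6 v)))
      have h11 := num1 m
      rw [← hK'] at h11
      have hfp : 0 ≤ 1 + (th m)⁻¹ * 2 ^ K' := by positivity
      calc gg m * w v * (Ex U p (fun W => fac p q K' (th m) (S v) W) *
            Ex U p (fun W => pot (upd p W (sub v) (m + 1)) (m + 1)))
          ≤ gg m * w v * ((1 + (th m)⁻¹ * 2 ^ K') * (pot (sub v) (m + 2) + ee (m + 1))) := by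
            refine mul_le_mul_of_nonneg_left ?_ (mul_nonneg hgg.le (h1 v))
            exact mul_le_mul h7 h8 h10 hfp
        _ = w v * ((gg m * (1 + (th m)⁻¹ * 2 ^ K')) * (pot (sub v) (m + 2) + ee (m + 1))) := by
            ring
        _ ≤ w v * (gg (m + 1) * (pot (sub v) (m + 2) + ee (m + 1))) :=
            mul_le_mul_of_nonneg_left (mul_le_mul_of_nonneg_right h11 h9) (h1 v)
    have hsum2 := sum_le_sum (fun v (_ : v ∈ (univ : Finset ι)) => hlast v)
    have e5 : ∑ v, w v * (gg (m + 1) * (pot (sub v) (m + 2) + ee (m + 1))) =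
        ∑ v, w v * (gg (m + 1) * pot (sub v) (m + 2)) + gg (m + 1) * ee (m + 1) := by
      have : gg (m + 1) * ee (m + 1) = ∑ v, w v * (gg (m + 1) * ee (m + 1)) := by
        rw [← sum_mul, h2, one_mul]
      rw [this, ← sum_add_distrib]
      exact sum_congr rfl (fun v _ => by ring)
    have e6 : pot (Tr.node w S sub) (m + 1) = ∑ v, w v * phi K' (S v).card +
        ∑ v, w v * (gg (m + 1) * pot (sub v) (m + 2)) := by
      rw [← sum_add_distrib]
      show ∑ v, w v * (phi K' (S v).card + gg (m + 1) * pot (sub v) (m + 2)) = _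
      exact sum_congr rfl (fun v _ => by ring)
    rw [e5] at hsum2
    rw [e6]
    have h12 := num2 m
    rw [← hK', ← hK] at h12
    rw [← hEs] at hsum2
    have hK'0 : (0:ℝ) ≤ (K' : ℝ) := Nat.cast_nonneg _
    have h13 := mul_le_mul_of_nonneg_left hst hK'0
    linarith

end Tree

end Vale.Agent.P064
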